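import Vale.Agent.P210.Scale

/-! Dyadic averages and the height function.

Hints. Put `w z = min 1 ‖z‖⁻¹`-like weight `ofReal (1 + ‖z‖)⁻¹`, `μ = lam + w`,
`ν = volume.withDensity (μ ^ q)`. Morrey bound for `w`: `w ≤ ‖z‖⁻¹`, split the ball into
`‖z‖ < s` (scaling and `integrableOn_ball_of_norm_le_rpow`, or a dyadic induction) and
`‖z‖ ≥ s`; `ENNReal.add_rpow_le_two_rpow..`-type bound `(a + b) ^ q ≤ 2 ^ q (a ^ q + b ^ q)`
(`ENNReal.rpow_add_le_mul_rpow_add_rpow`). Hoelder (`ENNReal.lintegral_mul_le_Lp_mul_Lq`, or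
`ENNReal.lintegral_mul_norm_pow_le`): `∫⁻ ball, μ ≤ ν ball ^ (1 / q) * vol ball ^ (1 - 1 / q)`.
`a k x = (2 ^ k) ^ (1 - n) * ∫ μ z * κ (dist z x / 2 ^ k)` with `κ t = max 0 (min 1 (2 - t))`;
`|a k x - a k x'| ≤ A' * dist x x' / 2 ^ k` (the kernel is Lipschitz and vanishes off the two
balls of radius `2 ^ (k + 1)`). `τ x k = T k + ∑' i : ℕ, (a (k + 1 + i) x - a (k + 1 + i) 0)` with
`T (k - 1) = T k + a k 0` (`T k = ∑ i ∈ range (-k).toNat, a (-i) 0 - ∑ i ∈ range k.toNat, a (i + 1) 0`).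
`Hyp.top`: `a k 0 ≥ c > 0` for `k ≥ 0` because of `w`. -/

open Set Filter Topology MeasureTheory Metric
open scoped ENNReal NNReal

noncomputable section

namespace Vale.Agent.P210

theorem avg_T (b : ℤ → ℝ) : ∃ T : ℤ → ℝ, ∀ k, T (k - 1) = T k + b k := by
  refine ⟨fun k => ∑ i ∈ Finset.Ioc k 0, b i - ∑ i ∈ Finset.Ioc 0 k, b i, fun k => ?_⟩
  rcases le_or_gt k 0 with hk | hk
  · have e1 : Finset.Ioc (k - 1) 0 = insert k (Finset.Ioc k 0) := by
      ext i; simp only [Finset.mem_Ioc, Finset.mem_insert]; omega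
    simp only
    rw [e1, Finset.sum_insert (by simp), Finset.Ioc_eq_empty_of_le hk,
      Finset.Ioc_eq_empty_of_le (show k - 1 ≤ 0 by omega)]
    ring
  · have e1 : Finset.Ioc 0 k = insert k (Finset.Ioc 0 (k - 1)) := by
      ext i; simp only [Finset.mem_Ioc, Finset.mem_insert]; omega
    simp only
    rw [e1, Finset.sum_insert (by simp), Finset.Ioc_eq_empty_of_le hk.le,
      Finset.Ioc_eq_empty_of_le (show 0 ≤ k - 1 by omega)]
    ring

theorem avg_geom (B : ℝ) (k : ℤ) : HasSum (fun i : ℕ => B / 2 ^ (k + 1 + i)) (B / 2 ^ k) := by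
  have e : (fun i : ℕ => B / 2 ^ (k + 1 + i)) = fun i : ℕ => B / 2 ^ k / 2 / 2 ^ i := by
    funext i
    rw [zpow_add₀ two_ne_zero, zpow_add₀ two_ne_zero, zpow_natCast, zpow_one, div_div, div_div,
      mul_assoc]
  rw [e]
  exact hasSum_geometric_two' _

theorem avg_tau {n : ℕ} {A c : ℝ} {a : ℤ → E n → ℝ} (h0 : ∀ k x, 0 ≤ a k x)
    (h1 : ∀ k x, a k x ≤ A) (hl : ∀ k x x', a k x ≤ a k x' + A * dist x x' / 2 ^ k) (hc : 0 < c)
    (low : ∀ k : ℕ, c ≤ a k 0) : ∃ τ, Hyp A τ a := by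
  obtain ⟨T, hT⟩ := avg_T fun k => a k 0
  have hA : 0 ≤ A := (h0 0 0).trans (h1 0 0)
  have hs : ∀ x x' k, Summable fun i : ℕ => a (k + 1 + i) x - a (k + 1 + i) x' := fun x x' k =>
    Summable.of_norm_bounded (avg_geom (A * dist x x') k).summable fun i => by
      have e1 := hl (k + 1 + i) x x'
      have e2 := hl (k + 1 + i) x' x
      rw [dist_comm] at e2
      rw [Real.norm_eq_abs, abs_le]
      constructor <;> linarith
  obtain ⟨τ, hτ⟩ : ∃ τ : E n → ℤ → ℝ, ∀ x k,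
    τ x k = T k + ∑' i : ℕ, (a (k + 1 + i) x - a (k + 1 + i) 0) := ⟨_, fun _ _ => rfl⟩
  have step : ∀ x k, τ x (k - 1) = τ x k + a k x := fun x k => by
    rw [hτ, hτ, hT, (hs x 0 (k - 1)).tsum_eq_zero_add]
    have e : ∀ i : ℕ, k - 1 + 1 + ((i + 1 : ℕ) : ℤ) = k + 1 + i := fun i => by push_cast; ring
    simp only [e]
    simp only [Nat.cast_zero, add_zero, sub_add_cancel]
    ring
  have lip : ∀ x x' k, τ x k ≤ τ x' k + A * dist x x' / 2 ^ k := fun x x' k => by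
    have e1 := (hs x 0 k).tsum_sub (hs x' 0 k)
    simp only [sub_sub_sub_cancel_right] at e1
    have e2 := (hs x x' k).tsum_le_tsum (fun i => by linarith [hl (k + 1 + i) x x'])
      (avg_geom (A * dist x x') k).summable
    rw [(avg_geom _ k).tsum_eq] at e2
    rw [hτ, hτ]
    linarith
  refine ⟨τ, step, h0, h1, lip, fun x t => ?_⟩
  have dec : ∀ k : ℕ, τ 0 k ≤ τ 0 0 - c * k := fun k => by
    induction k with
    | zero => simp
    | succ k ih =>
      have e1 := step 0 ((k + 1 : ℕ) : ℤ)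
      have e2 := low (k + 1)
      rw [show ((k + 1 : ℕ) : ℤ) - 1 = k by push_cast; ring] at e1
      push_cast at e1 e2 ⊢
      linarith
  obtain ⟨k, hk⟩ := exists_nat_ge ((τ 0 0 + A * dist x 0 - t) / c)
  rw [div_le_iff₀ hc] at hk
  have e1 : A * dist x 0 / 2 ^ (k : ℤ) ≤ A * dist x 0 :=
    div_le_self (by positivity) (one_le_zpow₀ one_le_two (Int.natCast_nonneg k))
  exact ⟨k, by linarith [lip x 0 k, dec k]⟩

theorem avg_vol (n : ℕ) : ∃ ω : ℝ, 0 < ω ∧ ∀ (y : E n) (r : ℝ), 0 < r →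
    volume (ball y r) = ENNReal.ofReal (r ^ n * ω) := by
  refine ⟨(volume (ball (0 : E n) 1)).toReal, ENNReal.toReal_pos
    (measure_ball_pos _ _ one_pos).ne' measure_ball_lt_top.ne, fun y r hr => ?_⟩
  rw [Measure.addHaar_ball_of_pos _ _ hr, finrank_euclideanSpace_fin,
    ENNReal.ofReal_mul (by positivity), ENNReal.ofReal_toReal measure_ball_lt_top.ne]

theorem avg_zpow (e : ℝ) (k : ℤ) : ((2 : ℝ) ^ e) ^ k = ((2 : ℝ) ^ k) ^ e := by
  rw [← Real.rpow_intCast, ← Real.rpow_mul zero_le_two, mul_comm, Real.rpow_mul zero_le_two,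
    Real.rpow_intCast]

/-- the auxiliary weight -/
def avgW {n : ℕ} (z : E n) : ℝ≥0∞ := ENNReal.ofReal (1 + ‖z‖)⁻¹

theorem avgW_meas {n : ℕ} : Measurable (avgW : E n → ℝ≥0∞) := by
  unfold avgW; fun_prop

theorem avgW_le {n : ℕ} (z : E n) : avgW z ≤ 1 :=
  ENNReal.ofReal_le_one.2 (inv_le_one_of_one_le₀ (by linarith [norm_nonneg z]))

theorem avg_split {n : ℕ} {q : ℝ} (hq : 0 ≤ q) (x : E n) (s : ℝ) {R : ℝ} (hR : 0 < R) :
    ∫⁻ z in ball x s, avgW z ^ q ≤ (∫⁻ z in ball (0 : E n) R, avgW z ^ q) +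
      ENNReal.ofReal (R ^ (-q)) * volume (ball x s) := by
  have hsub : ball x s ⊆ ball 0 R ∪ (ball x s \ ball 0 R) := by
    rw [union_diff_self]; exact subset_union_right
  refine (lintegral_mono_set hsub).trans ((lintegral_union_le _ _ _).trans ?_)
  gcongr
  calc ∫⁻ z in ball x s \ ball 0 R, avgW z ^ q
      ≤ ∫⁻ _ in ball x s \ ball 0 R, ENNReal.ofReal (R ^ (-q)) := by
        refine setLIntegral_mono' (measurableSet_ball.diff measurableSet_ball) fun z hz => ?_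
        have h1 : R ≤ ‖z‖ := by simpa using hz.2
        rw [avgW, ENNReal.ofReal_rpow_of_nonneg (by positivity) hq, Real.rpow_neg hR.le,
          ← Real.inv_rpow hR.le]
        gcongr
        linarith
    _ ≤ _ := by
        rw [setLIntegral_const]
        gcongr
        exact diff_subset

theorem avg_morW (n : ℕ) {q : ℝ} (hq : 0 ≤ q) (hqn : q < n) : ∃ C : ℝ, 0 ≤ C ∧ ∀ (x : E n) (K : ℤ),
    ∫⁻ z in ball x (2 ^ K), avgW z ^ q ≤ ENNReal.ofReal (C * (2 ^ K) ^ ((n : ℝ) - q)) := by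
  obtain ⟨ω, hω0, hω⟩ := avg_vol n
  have hD : 1 < (2 : ℝ) ^ ((n : ℝ) - q) := Real.one_lt_rpow one_lt_two (by linarith)
  obtain ⟨c, hc1, hc2⟩ : ∃ c, ω ≤ c ∧ c + 2 ^ n * ω ≤ c * 2 ^ ((n : ℝ) - q) := by
    have hD' : 0 < (2 : ℝ) ^ ((n : ℝ) - q) - 1 := by linarith
    refine ⟨ω + 2 ^ n * ω / (2 ^ ((n : ℝ) - q) - 1), le_add_of_nonneg_right (by positivity), ?_⟩
    have e : 2 ^ n * ω / (2 ^ ((n : ℝ) - q) - 1) * (2 ^ ((n : ℝ) - q) - 1) = 2 ^ n * ω :=
      div_mul_cancel₀ _ hD'.ne'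
    nlinarith
  have hc0 : 0 ≤ c := hω0.le.trans hc1
  have sm : ∀ (x : E n) (R : ℝ), 0 < R → R ≤ 1 →
      ∫⁻ z in ball x R, avgW z ^ q ≤ ENNReal.ofReal (ω * R ^ ((n : ℝ) - q)) := fun x R h0 h1 => by
    refine (lintegral_mono fun z => ENNReal.rpow_le_one (avgW_le z) hq).trans ?_
    rw [setLIntegral_one, hω _ _ h0, mul_comm, ← Real.rpow_natCast]
    exact ENNReal.ofReal_le_ofReal (mul_le_mul_of_nonneg_left
      (Real.rpow_le_rpow_of_exponent_ge h0 h1 (by linarith)) hω0.le)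
  have pw : ∀ R : ℝ, 0 < R → R ^ (-q) * R ^ n = R ^ ((n : ℝ) - q) := fun R hR => by
    rw [← Real.rpow_natCast, ← Real.rpow_add hR]; congr 1; ring
  have J : ∀ K : ℕ, ∫⁻ z in ball (0 : E n) (2 ^ K), avgW z ^ q
      ≤ ENNReal.ofReal (c * (2 ^ K) ^ ((n : ℝ) - q)) := fun K => by
    induction K with
    | zero =>
      refine (sm 0 _ (by norm_num) (by norm_num)).trans (ENNReal.ofReal_le_ofReal ?_)
      gcongr
    | succ K ih =>
      have hR : (0 : ℝ) < 2 ^ K := by positivity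
      refine (avg_split hq 0 _ hR).trans ((add_le_add_left ih _).trans ?_)
      rw [hω _ _ (by positivity), ← ENNReal.ofReal_mul (by positivity),
        ← ENNReal.ofReal_add (by positivity) (by positivity)]
      refine ENNReal.ofReal_le_ofReal ?_
      rw [pow_succ, mul_pow, Real.mul_rpow hR.le zero_le_two, ← mul_assoc, ← mul_assoc, pw _ hR]
      have := mul_le_mul_of_nonneg_left hc2 (Real.rpow_nonneg hR.le ((n : ℝ) - q))
      linarith
  refine ⟨c + ω, by positivity, fun x K => ?_⟩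
  have hR : (0 : ℝ) < 2 ^ K := by positivity
  rcases le_total K 0 with hK | hK
  · refine (sm x _ hR (zpow_le_one_of_nonpos₀ one_le_two hK)).trans (ENNReal.ofReal_le_ofReal ?_)
    gcongr
    linarith
  · obtain ⟨K, rfl⟩ := Int.eq_ofNat_of_zero_le hK
    rw [zpow_natCast] at hR ⊢
    refine (avg_split hq x _ hR).trans ((add_le_add_left (J K) _).trans ?_)
    rw [hω _ _ hR, ← ENNReal.ofReal_mul (by positivity),
      ← ENNReal.ofReal_add (by positivity) (by positivity), ← mul_assoc, pw _ hR]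
    exact le_of_eq (congrArg _ (by ring))

theorem avg_holder {n : ℕ} {q ω u R : ℝ} (hq : 1 < q) (hn : 1 ≤ n) (hω : 0 < ω) (hu : 0 ≤ u)
    (hR : 0 < R) {F : E n → ℝ≥0∞} (hF : Measurable F) {S : Set (E n)}
    (hS : volume S = ENNReal.ofReal ((2 * R) ^ n * ω))
    (h : ∫⁻ z in S, F z ^ q ≤ ENNReal.ofReal (u * R ^ ((n : ℝ) - q))) :
    ∫⁻ z in S, F z ≤ ENNReal.ofReal ((2 ^ n * ω) ^ (1 - 1 / q) * u ^ (1 / q) * R ^ (n - 1)) := by
  have hq0 : 0 < q := by linarith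
  have h1 : 0 ≤ 1 / q := by positivity
  have h2 : 0 ≤ 1 - 1 / q := by
    have : 1 / q ≤ 1 := by rw [div_le_one hq0]; exact hq.le
    linarith
  have h3 := ENNReal.lintegral_mul_norm_pow_le (μ := volume.restrict S)
    (f := fun z => F z ^ q) (g := fun _ => 1) (hF.pow_const q).aemeasurable
    aemeasurable_const h1 h2 (by ring)
  simp only [← ENNReal.rpow_mul, mul_one_div_cancel hq0.ne', ENNReal.rpow_one, ENNReal.one_rpow,
    mul_one, setLIntegral_one, hS] at h3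
  refine h3.trans ((mul_le_mul_left (ENNReal.rpow_le_rpow h h1) _).trans (le_of_eq ?_))
  rw [ENNReal.ofReal_rpow_of_nonneg (by positivity) h1,
    ENNReal.ofReal_rpow_of_nonneg (by positivity) h2, ← ENNReal.ofReal_mul (by positivity)]
  congr 1
  have e1 : (R ^ ((n : ℝ) - q)) ^ (1 / q) * (R ^ n) ^ (1 - 1 / q) = R ^ (n - 1) := by
    rw [← Real.rpow_natCast, ← Real.rpow_natCast, ← Real.rpow_mul hR.le, ← Real.rpow_mul hR.le,
      ← Real.rpow_add hR, Nat.cast_sub hn]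
    congr 1
    field_simp
    ring
  rw [← e1, Real.mul_rpow hu (by positivity), show (2 * R) ^ n * ω = R ^ n * (2 ^ n * ω) by ring,
    Real.mul_rpow (by positivity) (by positivity)]
  ring

/-- the smoothed integral over a ball -/
def avgI {n : ℕ} (F : E n → ℝ≥0∞) (R : ℝ) (x : E n) : ℝ≥0∞ :=
  ∫⁻ z, F z * ENNReal.ofReal (min 1 (2 - dist z x / R))

theorem avgI_le {n : ℕ} (F : E n → ℝ≥0∞) {R : ℝ} (hR : 0 < R) (x : E n) :
    avgI F R x ≤ ∫⁻ z in ball x (2 * R), F z := by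
  rw [avgI, ← lintegral_indicator measurableSet_ball]
  refine lintegral_mono fun z => ?_
  by_cases hz : z ∈ ball x (2 * R)
  · rw [indicator_of_mem hz]
    exact mul_le_of_le_one_right' (ENNReal.ofReal_le_one.2 (min_le_left _ _))
  · have : 2 ≤ dist z x / R := by rw [le_div_iff₀ hR]; simpa using hz
    rw [ENNReal.ofReal_of_nonpos ((min_le_right _ _).trans (by linarith)), mul_zero]
    exact zero_le

theorem le_avgI {n : ℕ} (F : E n → ℝ≥0∞) {R : ℝ} (hR : 0 < R) (x : E n) :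
    ∫⁻ z in ball x R, F z ≤ avgI F R x := by
  refine le_trans (setLIntegral_mono' measurableSet_ball fun z hz => ?_)
    (setLIntegral_le_lintegral _ _)
  have : dist z x / R ≤ 1 := by rw [div_le_one hR]; exact (mem_ball.1 hz).le
  rw [min_eq_left (by linarith), ENNReal.ofReal_one, mul_one]

theorem avgI_lip {n : ℕ} {F : E n → ℝ≥0∞} (hF : Measurable F) {R : ℝ} (hR : 0 < R) (x x' : E n) :
    avgI F R x ≤ avgI F R x' + ENNReal.ofReal (dist x x' / R) * ∫⁻ z in ball x (2 * R), F z := by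
  rw [avgI, avgI, ← lintegral_indicator measurableSet_ball,
    ← lintegral_const_mul' _ _ ENNReal.ofReal_ne_top, ← lintegral_add_left (by fun_prop)]
  refine lintegral_mono fun z => ?_
  by_cases hz : z ∈ ball x (2 * R)
  · rw [indicator_of_mem hz, mul_comm (ENNReal.ofReal _), ← mul_add]
    gcongr
    refine le_trans (ENNReal.ofReal_le_ofReal ?_) ENNReal.ofReal_add_le
    have h1 : dist z x' / R ≤ dist z x / R + dist x x' / R := by
      rw [← add_div]; gcongr; exact dist_triangle _ _ _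
    have h2 : 0 ≤ dist x x' / R := by positivity
    rw [← min_add_add_right]
    exact min_le_min (by linarith) (by linarith)
  · have : 2 ≤ dist z x / R := by rw [le_div_iff₀ hR]; simpa using hz
    rw [ENNReal.ofReal_of_nonpos ((min_le_right _ _).trans (by linarith)), mul_zero]
    exact zero_le

theorem avg (n : ℕ) {q C0 : ℝ} (hq1 : 1 < q) (hqn : q < n) (hC0 : 0 ≤ C0) :
    ∃ A Aν C₁ : ℝ, 0 < A ∧ 0 ≤ Aν ∧ 0 ≤ C₁ ∧ ∀ f : E n → ℝ≥0∞, Measurable f →
      (∀ x s, 0 < s → ∫⁻ z in ball x s, f z ^ q ≤ ENNReal.ofReal (C0 * s ^ ((n : ℝ) - q))) →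
      ∃ (τ : E n → ℤ → ℝ) (a : ℤ → E n → ℝ) (ν : Measure (E n)), SFinite ν ∧ Hyp A τ a ∧
        (∀ x (K : ℤ), ν (ball x (2 ^ K)) ≤ ENNReal.ofReal (Aν * ((2 : ℝ) ^ ((n : ℝ) - q)) ^ K)) ∧
        (∀ y (k : ℤ) u, 0 ≤ u →
          ν (ball y (2 ^ (k + 1))) ≤ ENNReal.ofReal (u * ((2 : ℝ) ^ ((n : ℝ) - q)) ^ k) →
          a k y ≤ C₁ * u ^ (1 / q)) ∧
        (∀ y (k : ℤ), ∫⁻ z in ball y (2 ^ k), f z ≤ ENNReal.ofReal (a k y * (2 ^ k) ^ (n - 1))) ∧
        ∀ y (k : ℤ) c, 0 ≤ c → (∀ z ∈ ball y (2 ^ (k + 1)), f z ≤ ENNReal.ofReal c) →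
          a k y ≤ A * (c + 1) * 2 ^ k := by
  obtain ⟨ω, hω0, hω⟩ := avg_vol n
  have hq0 : 0 < q := by linarith
  have hn : 1 ≤ n := by
    have : (1 : ℝ) < n := hq1.trans hqn
    exact_mod_cast this.le
  obtain ⟨Cw, hCw, hW⟩ := avg_morW n hq0.le hqn
  obtain ⟨Aν, hAν⟩ : ∃ Aν : ℝ, Aν = 2 ^ (q - 1) * (C0 + Cw) := ⟨_, rfl⟩
  obtain ⟨C₁, hC₁⟩ : ∃ C₁ : ℝ, C₁ = (2 ^ n * ω) ^ (1 - 1 / q) := ⟨_, rfl⟩
  obtain ⟨A₁, hA₁⟩ : ∃ A₁ : ℝ, A₁ = C₁ * (Aν * 2 ^ ((n : ℝ) - q)) ^ (1 / q) := ⟨_, rfl⟩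
  have hAν0 : 0 ≤ Aν := by rw [hAν]; positivity
  have hC₁0 : 0 ≤ C₁ := by rw [hC₁]; positivity
  have hA₁0 : 0 ≤ A₁ := by rw [hA₁]; positivity
  have hvol : 0 < 2 ^ n * ω := by positivity
  refine ⟨A₁ + 2 ^ n * ω, Aν, C₁, by positivity, hAν0, hC₁0, fun f hf hM => ?_⟩
  obtain ⟨F, hF⟩ : ∃ F : E n → ℝ≥0∞, F = fun z => f z + avgW z := ⟨_, rfl⟩
  have mF : Measurable F := by rw [hF]; exact hf.add avgW_meas
  have hν : ∀ (x : E n) (r : ℝ), volume.withDensity (fun z => F z ^ q) (ball x r)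
      = ∫⁻ z in ball x r, F z ^ q := fun x r => withDensity_apply _ measurableSet_ball
  have mor : ∀ (x : E n) (K : ℤ), ∫⁻ z in ball x (2 ^ K), F z ^ q
      ≤ ENNReal.ofReal (Aν * ((2 : ℝ) ^ ((n : ℝ) - q)) ^ K) := fun x K => by
    calc ∫⁻ z in ball x (2 ^ K), F z ^ q
        ≤ ∫⁻ z in ball x (2 ^ K), 2 ^ (q - 1) * (f z ^ q + avgW z ^ q) := lintegral_mono fun z => by
          rw [hF]; exact ENNReal.rpow_add_le_mul_rpow_add_rpow _ _ hq1.le
      _ = 2 ^ (q - 1) * ((∫⁻ z in ball x (2 ^ K), f z ^ q) +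
            ∫⁻ z in ball x (2 ^ K), avgW z ^ q) := by
          rw [← lintegral_add_left (hf.pow_const q)]
          exact lintegral_const_mul _ ((hf.pow_const q).add (avgW_meas.pow_const q))
      _ ≤ 2 ^ (q - 1) * (ENNReal.ofReal (C0 * (2 ^ K) ^ ((n : ℝ) - q)) +
            ENNReal.ofReal (Cw * (2 ^ K) ^ ((n : ℝ) - q))) := by
          gcongr
          exacts [hM x _ (by positivity), hW x K]
      _ = _ := by
          rw [← ENNReal.ofReal_ofNat 2, ENNReal.ofReal_rpow_of_pos two_pos,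
            ← ENNReal.ofReal_add (by positivity) (by positivity),
            ← ENNReal.ofReal_mul (by positivity), avg_zpow, hAν]
          congr 1
          ring
  have e2 : ∀ k : ℤ, (2 : ℝ) ^ (k + 1) = 2 * 2 ^ k := fun k => by
    rw [zpow_add_one₀ two_ne_zero, mul_comm]
  have hol : ∀ (y : E n) (k : ℤ) u, 0 ≤ u → ∫⁻ z in ball y (2 ^ (k + 1)), F z ^ q
      ≤ ENNReal.ofReal (u * ((2 : ℝ) ^ ((n : ℝ) - q)) ^ k) → ∫⁻ z in ball y (2 * 2 ^ k), F z
      ≤ ENNReal.ofReal (C₁ * u ^ (1 / q) * (2 ^ k) ^ (n - 1)) := fun y k u hu h => by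
    rw [e2, avg_zpow] at h
    rw [hC₁]
    exact avg_holder hq1 hn hω0 hu (by positivity) mF (hω _ _ (by positivity)) h
  have big : ∀ (y : E n) (k : ℤ), ∫⁻ z in ball y (2 * 2 ^ k), F z
      ≤ ENNReal.ofReal (A₁ * (2 ^ k) ^ (n - 1)) := fun y k => by
    rw [hA₁]
    refine hol y k _ (by positivity) ((mor y (k + 1)).trans (le_of_eq (congrArg _ ?_)))
    rw [zpow_add_one₀ (by positivity)]
    ring
  have fin : ∀ (y : E n) (k : ℤ), avgI F (2 ^ k) y ≠ ∞ := fun y k =>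
    ne_top_of_le_ne_top ENNReal.ofReal_ne_top ((avgI_le F (by positivity) y).trans (big y k))
  obtain ⟨a, h0, ha⟩ : ∃ a : ℤ → E n → ℝ, (∀ k y, 0 ≤ a k y) ∧
      ∀ k y, avgI F (2 ^ k) y = ENNReal.ofReal (a k y * (2 ^ k) ^ (n - 1)) :=
    ⟨fun k y => (avgI F (2 ^ k) y).toReal / (2 ^ k) ^ (n - 1), fun k y => by positivity,
      fun k y => by rw [div_mul_cancel₀ _ (by positivity), ENNReal.ofReal_toReal (fin y k)]⟩
  have conv : ∀ (k : ℤ) (b b' : ℝ), 0 ≤ b' → ENNReal.ofReal (b * (2 ^ k) ^ (n - 1))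
      ≤ ENNReal.ofReal (b' * (2 ^ k) ^ (n - 1)) → b ≤ b' := fun k b b' hb h =>
    le_of_mul_le_mul_right ((ENNReal.ofReal_le_ofReal_iff (by positivity)).1 h) (by positivity)
  have pw : ∀ R : ℝ, R ^ n = R * R ^ (n - 1) := fun R => by
    rw [← pow_succ', Nat.sub_add_cancel hn]
  have hle : ∀ k y, a k y ≤ A₁ := fun k y => conv k _ _ hA₁0 (by
    rw [← ha]; exact (avgI_le F (by positivity) y).trans (big y k))
  have hlip : ∀ (k : ℤ) x x', a k x ≤ a k x' + (A₁ + 2 ^ n * ω) * dist x x' / 2 ^ k := by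
    intro k x x'
    have := h0 k x'
    refine conv k _ _ (by positivity) ?_
    rw [← ha, add_mul, ENNReal.ofReal_add (by positivity) (by positivity), ← ha]
    refine (avgI_lip mF (by positivity) x x').trans ?_
    gcongr
    refine (mul_le_mul_right (big x k) _).trans ?_
    rw [← ENNReal.ofReal_mul (by positivity)]
    refine ENNReal.ofReal_le_ofReal ?_
    have : 0 ≤ 2 ^ n * ω * dist x x' / 2 ^ k * (2 ^ k) ^ (n - 1) := by positivity
    have e : (A₁ + 2 ^ n * ω) * dist x x' / 2 ^ k * (2 ^ k) ^ (n - 1)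
        = dist x x' / 2 ^ k * (A₁ * (2 ^ k) ^ (n - 1))
          + 2 ^ n * ω * dist x x' / 2 ^ k * (2 ^ k) ^ (n - 1) := by ring
    linarith
  have hlow : ∀ k : ℕ, ω / 2 ≤ a k 0 := by
    intro k
    refine conv k _ _ (h0 _ _) ?_
    rw [← ha]
    have hR : (1 : ℝ) ≤ 2 ^ (k : ℤ) := one_le_zpow₀ one_le_two (Int.natCast_nonneg k)
    refine le_trans ?_ (le_avgI F (by positivity) 0)
    calc ENNReal.ofReal (ω / 2 * (2 ^ (k : ℤ)) ^ (n - 1))
        = ∫⁻ _ in ball (0 : E n) (2 ^ (k : ℤ)), ENNReal.ofReal (2 * 2 ^ (k : ℤ))⁻¹ := by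
          rw [setLIntegral_const, hω _ _ (by positivity), ← ENNReal.ofReal_mul (by positivity),
            pw (2 ^ (k : ℤ))]
          congr 1
          field_simp
      _ ≤ _ := by
          refine setLIntegral_mono' measurableSet_ball fun z hz => ?_
          rw [hF]
          refine le_trans ?_ le_add_self
          have := mem_ball_zero_iff.1 hz
          rw [avgW]
          gcongr
          linarith
  obtain ⟨τ, hτ⟩ := avg_tau (A := A₁ + 2 ^ n * ω) (c := ω / 2) h0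
    (fun k y => by linarith [hle k y]) hlip (by positivity) hlow
  refine ⟨τ, a, volume.withDensity fun z => F z ^ q, inferInstance, hτ,
    fun x K => by rw [hν]; exact mor x K, fun y k u hu h => ?_, fun y k => ?_,
    fun y k c hc h => ?_⟩
  · rw [hν] at h
    refine conv k _ _ (by positivity) ?_
    rw [← ha]
    exact (avgI_le F (by positivity) y).trans (hol y k u hu h)
  · rw [← ha]
    refine le_trans (lintegral_mono fun z => ?_) (le_avgI F (by positivity) y)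
    rw [hF]; exact le_self_add
  · refine conv k _ _ (by positivity) ?_
    rw [← ha]
    refine (avgI_le F (by positivity) y).trans ?_
    calc ∫⁻ z in ball y (2 * 2 ^ k), F z
        ≤ ∫⁻ _ in ball y (2 * 2 ^ k), ENNReal.ofReal (c + 1) := by
          refine setLIntegral_mono' measurableSet_ball fun z hz => ?_
          rw [hF, ENNReal.ofReal_add hc zero_le_one, ENNReal.ofReal_one]
          exact add_le_add (h z (by rwa [e2])) (avgW_le z)
      _ ≤ _ := by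
          rw [setLIntegral_const, hω _ _ (by positivity), ← ENNReal.ofReal_mul (by positivity),
            mul_pow, pw (2 ^ k)]
          refine ENNReal.ofReal_le_ofReal ?_
          have : 0 ≤ A₁ * (c + 1) * 2 ^ k * (2 ^ k) ^ (n - 1) := by positivity
          linarith

end Vale.Agent.P210
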