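import Vale.Agent.P210.Scal

open Set Filter Topology MeasureTheory Metric
open scoped ENNReal NNReal

noncomputable section

namespace Vale.Agent.P210

/-- The conformal factor extended by zero. -/
def lam {n : ℕ} (Ω : Set (E n)) (φ : E n → ℝ) : E n → ℝ≥0∞ :=
  Ω.indicator fun z => ENNReal.ofReal (Real.exp (φ z))

/-- The truncated weight. -/
def hw (p M t : ℝ) : ℝ := 1 / (Real.exp (-(p * t)) + Real.exp (2 * t) / M)

theorem measurable_indicator_comp {n : ℕ} {Ω : Set (E n)} {φ : E n → ℝ} (hΩ : IsOpen Ω)
    (hφ : ContinuousOn φ Ω) {F : ℝ → ℝ≥0∞} (hF : Measurable F) :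
    Measurable (Ω.indicator fun z => F (φ z)) := by
  classical
  have h : Measurable (Ω.piecewise φ 0) :=
    hφ.measurable_piecewise continuousOn_const hΩ.measurableSet
  have e : (Ω.indicator fun z => F (φ z)) = Ω.indicator fun z => F (Ω.piecewise φ 0 z) :=
    indicator_congr fun z hz => by rw [piecewise_eq_of_mem _ _ _ hz]
  rw [e]
  exact (hF.comp h).indicator hΩ.measurableSet

theorem measurable_lam {n : ℕ} {Ω : Set (E n)} {φ : E n → ℝ} (hΩ : IsOpen Ω)
    (hφ : ContinuousOn φ Ω) : Measurable (lam Ω φ) :=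
  measurable_indicator_comp hΩ hφ (F := fun t => ENNReal.ofReal (Real.exp t)) (by fun_prop)

/-- A locally Lipschitz function with compact support is Lipschitz. -/
theorem lip_of_compact {n : ℕ} {f : E n → ℝ} (hf : LocallyLipschitz f) {K : Set (E n)}
    (hK : IsCompact K) (h0 : ∀ x ∉ K, f x = 0) : ∃ C : ℝ≥0, LipschitzWith C f := by
  obtain ⟨C, hC⟩ := (hf.locallyLipschitzOn (s := cthickening 1 K)).exists_lipschitzOnWith_of_compact
    hK.cthickening
  obtain ⟨B, hB⟩ := hK.exists_bound_of_continuousOn hf.continuous.continuousOn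
  have key : ∀ x y, y ∉ cthickening 1 K → dist (f x) (f y) ≤ (C + B.toNNReal : ℝ≥0) * dist x y := by
    intro x y hy
    rw [h0 y fun h => hy (self_subset_cthickening K h), dist_zero_right]
    by_cases hx : x ∈ K
    · have h1 : 1 ≤ dist x y := by
        by_contra h
        exact hy (mem_cthickening_of_dist_le y x 1 K hx (by rw [dist_comm]; linarith))
      have h2 := (hB x hx).trans (Real.le_coe_toNNReal B)
      push_cast
      nlinarith [C.2, B.toNNReal.2, NNReal.coe_nonneg C, NNReal.coe_nonneg B.toNNReal]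
    · rw [h0 x hx, norm_zero]
      positivity
  refine ⟨C + B.toNNReal, LipschitzWith.of_dist_le_mul fun x y => ?_⟩
  by_cases hy : y ∈ cthickening 1 K
  · by_cases hx : x ∈ cthickening 1 K
    · refine (hC.dist_le_mul x hx y hy).trans ?_
      push_cast
      nlinarith [NNReal.coe_nonneg B.toNNReal, dist_nonneg (x := x) (y := y)]
    · rw [dist_comm, dist_comm x]
      exact key y x hx
  · exact key x y hy

end Vale.Agent.P210
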