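import Mathlib

open Set Relation

noncomputable section

namespace Vale.Agent.P210

/-- residue of a level -/
def res (m : ℕ) (j : ℤ) : Fin (m + 1) :=
  ⟨(j % (m + 1 : ℕ)).toNat, by
    have h1 := Int.emod_nonneg j (show ((m + 1 : ℕ) : ℤ) ≠ 0 by omega)
    have h2 := Int.emod_lt_of_pos j (show (0 : ℤ) < ((m + 1 : ℕ) : ℤ) by omega)
    omega⟩

theorem res_window (m : ℕ) (c : Fin (m + 1)) (l : ℤ) (h : res m l ≠ c) :
    ∃ j : ℤ, j < l ∧ l < j + (m + 1) ∧ res m j = c ∧ res m (j + (m + 1)) = c := by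
  have hp : (0 : ℤ) < ((m + 1 : ℕ) : ℤ) := by omega
  have h1 := Int.emod_nonneg (l - c) hp.ne'
  have h2 := Int.emod_lt_of_pos (l - c) hp
  have hc : ((c : ℕ) : ℤ) % ((m + 1 : ℕ) : ℤ) = c :=
    Int.emod_eq_of_lt (by omega) (by have := c.2; omega)
  have key : ∀ j : ℤ, j % ((m + 1 : ℕ) : ℤ) = c → res m j = c := by
    intro j hj
    apply Fin.ext
    simp only [res, hj]
    omega
  have e1 : (l - (l - c) % ((m + 1 : ℕ) : ℤ)) % ((m + 1 : ℕ) : ℤ) = c := by
    have := Int.emod_add_mul_ediv (l - c) ((m + 1 : ℕ) : ℤ)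
    have e : l - (l - c) % ((m + 1 : ℕ) : ℤ) =
        c + ((m + 1 : ℕ) : ℤ) * ((l - c) / ((m + 1 : ℕ) : ℤ)) := by linarith
    rw [e, Int.add_mul_emod_self_left, hc]
  refine ⟨l - (l - c) % ((m + 1 : ℕ) : ℤ), ?_, ?_, key _ e1, key _ ?_⟩
  · rcases h1.lt_or_eq with h0 | h0
    · omega
    · exfalso
      apply h
      apply key
      rw [← h0] at e1
      simpa using e1
  · push_cast at h2 ⊢
    omega
  · have : (m : ℤ) + 1 = ((m + 1 : ℕ) : ℤ) := by push_cast; ring
    rw [this, Int.add_emod_right, e1]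

section
variable {X : Type*} [PseudoMetricSpace X] {Λ : Type*} {m : ℕ}
  (ρ : ℤ → X → ℝ) (lev : X → ℤ) (col : X → Fin m) (lab : X → Λ) (St : X → X → Prop)

/-- chains above a given level -/
def Ch (j : ℤ) : X → X → Prop := ReflTransGen fun a b => St a b ∧ j ≤ lev a ∧ j ≤ lev b

theorem chain_step (hρ0 : ∀ j x, 0 ≤ ρ j x) (hρL : ∀ j x y, ρ j x ≤ ρ j y + dist x y)
    (hρs : ∀ j x, ρ (j + 1) x ≤ ρ j x / 100) (Ω : Set X)
    (ha : ∀ y ∈ Ω, ∀ y' ∈ Ω, lev y = lev y' → lab y = lab y' → dist y y' ≤ ρ (lev y) y / 10)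
    (hb : ∀ y ∈ Ω, ∀ y' ∈ Ω, lev y = lev y' → col y = col y' →
      dist y y' ≤ ρ (lev y + 1) y / 2 → lab y = lab y')
    (hsym : ∀ a b, St a b → St b a) (hΩ : ∀ a b, St a b → a ∈ Ω)
    (hd : ∀ a b, St a b → dist a b ≤ ρ (lev a + 1) a / 50)
    (hcol : ∀ a b, ReflTransGen St a b → lev a = lev b → col a = col b)
    (j : ℤ) (y : X) (S : Set X) (hS : ∀ a ∈ S, ∀ b, St a b → b ∈ S) (hy : y ∈ S)
    (ih : ∀ a ∈ S, ∀ b, Ch lev St (j + 1) a b → dist a b ≤ ρ (j + 1) a / 4) (z : X)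
    (h : Ch lev St j y z) : dist y z ≤ ρ j y / 4 := by
  have hS' : ∀ a ∈ S, ∀ b, ReflTransGen St a b → b ∈ S := by
    intro a ha b hab
    induction hab with
    | refl => exact ha
    | tail _ h2 ih => exact hS _ ih _ h2
  have hmono : ∀ k a b, Ch lev St k a b → ReflTransGen St a b := by
    intro k a b h
    induction h with
    | refl => exact .refl
    | tail _ h2 ih => exact ih.tail h2.1
  have tailb : ∀ q z, q ∈ S → lev q = j → (z = q ∨ j + 1 ≤ lev z ∧ ∃ w, St q w ∧ Ch lev St (j + 1) w z) →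
      dist q z ≤ 0.275 * ρ (j + 1) q ∧ ReflTransGen St q z := by
    intro q z hq hl h
    rcases h with rfl | ⟨-, w, h1, h2⟩
    · exact ⟨by have := hρ0 (j + 1) z; rw [dist_self]; linarith, .refl⟩
    · refine ⟨?_, .head h1 (hmono _ _ _ h2)⟩
      have e1 := hd _ _ h1
      rw [hl] at e1
      have e2 := ih w (hS _ hq _ h1) z h2
      have e3 := hρL (j + 1) w q
      have e4 := dist_triangle q w z
      rw [dist_comm w q] at e3
      have := hρ0 (j + 1) q
      linarith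
  have inv : Ch lev St (j + 1) y z ∨ ∃ p q, lev p = j ∧ lev q = j ∧ p ∈ Ω ∧ q ∈ Ω ∧ q ∈ S ∧
      dist y p ≤ 0.3 * ρ (j + 1) y ∧ lab p = lab q ∧
      (z = q ∨ j + 1 ≤ lev z ∧ ∃ w, St q w ∧ Ch lev St (j + 1) w z) := by
    induction h with
    | refl => exact Or.inl .refl
    | @tail b c hyb hbc ih2 =>
      obtain ⟨hst, hjb, hjc⟩ := hbc
      have hcΩ : c ∈ Ω := hΩ _ _ (hsym _ _ hst)
      have hbΩ : b ∈ Ω := hΩ _ _ hst
      have hcS : c ∈ S := hS _ (hS' _ hy _ (hmono _ _ _ hyb)) _ hst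
      have hbS : b ∈ S := hS' _ hy _ (hmono _ _ _ hyb)
      have ih2' : (Ch lev St (j + 1) y b ∧ j + 1 ≤ lev b) ∨ ∃ p q, lev p = j ∧ lev q = j ∧ p ∈ Ω ∧
          q ∈ Ω ∧ q ∈ S ∧ dist y p ≤ 0.3 * ρ (j + 1) y ∧ lab p = lab q ∧
          (b = q ∨ j + 1 ≤ lev b ∧ ∃ w, St q w ∧ Ch lev St (j + 1) w b) := by
        rcases ih2 with h1 | h1
        · by_cases hb' : j + 1 ≤ lev b
          · exact Or.inl ⟨h1, hb'⟩
          · refine Or.inr ⟨b, b, by omega, by omega, hbΩ, hbΩ, hbS, ?_, rfl, Or.inl rfl⟩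
            have := ih y hy b h1
            have := hρ0 (j + 1) y
            linarith
        · exact Or.inr h1
      by_cases hc' : j + 1 ≤ lev c
      · rcases ih2' with ⟨h1, h2⟩ | ⟨p, q, hp, hq, hpΩ, hqΩ, hqS, h1, h2, h3⟩
        · exact Or.inl (h1.tail ⟨hst, h2, hc'⟩)
        · refine Or.inr ⟨p, q, hp, hq, hpΩ, hqΩ, hqS, h1, h2, ?_⟩
          rcases h3 with rfl | ⟨hb', w, h4, h5⟩
          · exact Or.inr ⟨hc', c, hst, .refl⟩
          · exact Or.inr ⟨hc', w, h4, h5.tail ⟨hst, hb', hc'⟩⟩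
      · have hcj : lev c = j := by omega
        have e1 := hd _ _ (hsym _ _ hst)
        rw [hcj] at e1
        rcases ih2' with ⟨h1, _⟩ | ⟨p, q, hp, hq, hpΩ, hqΩ, hqS, h1, h2, h3⟩
        · refine Or.inr ⟨c, c, hcj, hcj, hcΩ, hcΩ, hcS, ?_, rfl, Or.inl rfl⟩
          have e2 := ih y hy b h1
          have e3 := hρL (j + 1) c y
          have e4 := dist_triangle y b c
          rw [dist_comm c y] at e3
          rw [dist_comm c b] at e1
          have := hρ0 (j + 1) y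
          linarith
        · refine Or.inr ⟨p, c, hp, hcj, hpΩ, hcΩ, hcS, h1, h2.trans ?_, Or.inl rfl⟩
          obtain ⟨e2, e5⟩ := tailb q b hqS hq h3
          apply hb q hqΩ c hcΩ (by omega) (hcol _ _ (e5.tail hst) (by omega))
          rw [hq]
          have e3 := hρL (j + 1) c q
          have e4 := dist_triangle q b c
          rw [dist_comm c q] at e3
          rw [dist_comm c b] at e1
          have := hρ0 (j + 1) q
          linarith
  have s1 := hρs j y
  have s0 := hρ0 j y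
  rcases inv with h1 | ⟨p, q, hp, hq, hpΩ, hqΩ, hqS, h1, h2, h3⟩
  · have := ih y hy z h1
    linarith
  · have e1 := (tailb q z hqS hq h3).1
    have e2 := ha p hpΩ q hqΩ (by omega) h2
    rw [hp] at e2
    have e3 := hρL j p y
    have e4 := hρL j q y
    have e5 := dist_triangle4 y p q z
    have e6 := dist_triangle y p q
    have s2 := hρs j q
    rw [dist_comm p y] at e3
    rw [dist_comm q y] at e4
    linarith

theorem chain_bound (hρ0 : ∀ j x, 0 ≤ ρ j x) (hρL : ∀ j x y, ρ j x ≤ ρ j y + dist x y)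
    (hρs : ∀ j x, ρ (j + 1) x ≤ ρ j x / 100) (Ω : Set X)
    (ha : ∀ y ∈ Ω, ∀ y' ∈ Ω, lev y = lev y' → lab y = lab y' → dist y y' ≤ ρ (lev y) y / 10)
    (hb : ∀ y ∈ Ω, ∀ y' ∈ Ω, lev y = lev y' → col y = col y' →
      dist y y' ≤ ρ (lev y + 1) y / 2 → lab y = lab y')
    (hsym : ∀ a b, St a b → St b a) (hΩ : ∀ a b, St a b → a ∈ Ω)
    (hd : ∀ a b, St a b → dist a b ≤ ρ (lev a + 1) a / 50)
    (hl : ∀ a b, St a b → lev b ≤ lev a + 1)
    (hg : ∀ a b, St a b → (res m (lev a)).succAbove (col a) = (res m (lev b)).succAbove (col b))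
    (y z : X) (h : ReflTransGen St y z) :
    ∃ j, j ≤ lev y ∧ lev y < j + m ∧ lev z < j + m ∧ dist y z ≤ ρ j y / 4 := by
  set G : X → Fin (m + 1) := fun a => (res m (lev a)).succAbove (col a) with hG
  have hGc : ∀ a b, ReflTransGen St a b → G a = G b := by
    intro a b h
    induction h with
    | refl => rfl
    | tail _ h2 ih => exact ih.trans (hg _ _ h2)
  have hcol : ∀ a b, ReflTransGen St a b → lev a = lev b → col a = col b := by
    intro a b h e
    have := hGc a b h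
    simp only [hG, e] at this
    exact Fin.succAbove_right_injective this
  have hne : ∀ a, res m (lev a) ≠ G a := fun a => (Fin.succAbove_ne _ _).symm
  obtain ⟨j, h1, h2, h3, h4⟩ := res_window m (G y) (lev y) (hne y)
  let S : Set X := {a | G a = G y ∧ j < lev a ∧ lev a < j + (m + 1)}
  have hS : ∀ a ∈ S, ∀ b, St a b → b ∈ S := by
    intro a ⟨e1, e2, e3⟩ b hab
    have e4 : G b = G y := (hg _ _ hab).symm.trans e1
    have e5 := hl _ _ hab
    have e6 := hl _ _ (hsym _ _ hab)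
    have e7 : lev b ≠ j := fun e => hne b (by rw [e, h3, e4])
    have e8 : lev b ≠ j + (m + 1) := fun e => hne b (by rw [e, h4, e4])
    exact ⟨e4, by omega, by omega⟩
  have hy : y ∈ S := ⟨rfl, h1, h2⟩
  have P : ∀ i : ℕ, ∀ a ∈ S, ∀ b, Ch lev St (j + (m + 1) - i) a b →
      dist a b ≤ ρ (j + (m + 1) - i) a / 4 := by
    intro i
    induction i with
    | zero =>
      intro a haS b hab
      rcases hab.cases_head with rfl | ⟨c, hc, -⟩
      · rw [dist_self]
        exact div_nonneg (hρ0 _ _) (by norm_num)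
      · have := haS.2.2
        have := hc.2.1
        omega
    | succ i ih =>
      intro a haS b hab
      have e : j + (m + 1) - (i : ℤ) = j + (m + 1) - ((i + 1 : ℕ) : ℤ) + 1 := by push_cast; ring
      rw [e] at ih
      exact chain_step ρ lev col lab St hρ0 hρL hρs Ω ha hb hsym hΩ hd hcol _ a S hS haS ih b hab
  have hz : z ∈ S ∧ Ch lev St (j + 1) y z := by
    induction h with
    | refl => exact ⟨hy, .refl⟩
    | tail _ h2 ih =>
      have := hS _ ih.1 _ h2
      exact ⟨this, ih.2.tail ⟨h2, ih.1.2.1, this.2.1⟩⟩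
  have e : j + (m + 1) - (m : ℤ) = j + 1 := by ring
  have := P m y hy z (by rw [e]; exact hz.2)
  rw [e] at this
  have := hz.1.2.2
  exact ⟨j + 1, by omega, by omega, by omega, by assumption⟩

end

end Vale.Agent.P210
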