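import Vale.Agent.P210.Defs

open Set Filter Topology

noncomputable section

namespace Vale.Agent.P210

theorem nerve {X : Type} [TopologicalSpace X] [NormalSpace X] [ParacompactSpace X]
    {m : ℕ} {Λ : Type} (U : Fin (m + 1) × Λ → Set X) (hU : ∀ i, IsOpen (U i))
    (hcov : ∀ x, ∃ i, x ∈ U i)
    (hdis : ∀ x i j, x ∈ U i → x ∈ U j → i.1 = j.1 → i = j) :
    ∃ (K : AbstractSimplicialComplex (Fin (m + 1) × Λ)) (f : X → Geom K),
      (∀ s ∈ K.faces, s.card ≤ m + 1) ∧ Continuous f ∧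
      ∀ x y, f x = f y → ∃ i, x ∈ U i ∧ y ∈ U i := by
  classical
  obtain ⟨ρ, hρ⟩ := PartitionOfUnity.exists_isSubordinate (s := univ) isClosed_univ U hU
    (fun x _ => mem_iUnion.2 (hcov x))
  let K : AbstractSimplicialComplex (Fin (m + 1) × Λ) :=
    { faces := {s | s.Nonempty ∧ ∀ i ∈ s, ∀ j ∈ s, i.1 = j.1 → i = j}
      isRelLowerSet_faces := fun s hs =>
        ⟨hs.1, fun t hts ht => ⟨ht, fun i hi j hj => hs.2 i (hts hi) j (hts hj)⟩⟩
      singleton_mem := fun v => ⟨Finset.singleton_nonempty v, by simp⟩ }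
  have hsupp : ∀ x i, ρ i x ≠ 0 → x ∈ U i := fun x i h => hρ i (subset_tsupport _ h)
  have hface : ∀ x, ρ.finsupport x ∈ K.faces := by
    intro x
    refine ⟨?_, fun i hi j hj hij => hdis x i j (hsupp x i ?_) (hsupp x j ?_) hij⟩
    · obtain ⟨i, hi⟩ := ρ.exists_pos (mem_univ x)
      exact ⟨i, by rw [PartitionOfUnity.mem_finsupport]; exact hi.ne'⟩
    · rwa [PartitionOfUnity.mem_finsupport] at hi
    · rwa [PartitionOfUnity.mem_finsupport] at hj
  have hzero : ∀ x v, v ∉ ρ.finsupport x → ρ v x = 0 := by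
    intro x v hv
    rw [PartitionOfUnity.mem_finsupport] at hv
    simpa using hv
  let f : X → Geom K := fun x => ⟨fun i => ρ i x, ρ.finsupport x, hface x,
    fun v => ρ.nonneg v x, hzero x, ρ.sum_finsupport (mem_univ x)⟩
  refine ⟨K, f, ?_, ?_, ?_⟩
  · intro s hs
    have : s.card ≤ (Finset.univ : Finset (Fin (m + 1))).card :=
      Finset.card_le_card_of_injOn Prod.fst (fun _ _ => by simp)
        (fun i hi j hj hij => hs.2 i hi j hj hij)
    simpa using this
  · rw [continuous_def]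
    intro O hO
    rw [isOpen_iff_mem_nhds]
    intro x hx
    have hO' : ∀ s ∈ K.faces, ∃ W : Set (Fin (m + 1) × Λ → ℝ), IsOpen W ∧
      ∀ p : Geom K, (∀ v, v ∉ s → p.1 v = 0) → (p ∈ O ↔ p.1 ∈ W) := hO
    choose! W hW hOW using hO'
    have hc : Continuous fun y : X => fun i => ρ i y :=
      continuous_pi fun i => (ρ i).continuous
    have h1 : ∀ᶠ y in 𝓝 x, ρ.finsupport y ⊆ ρ.fintsupport x :=
      ρ.eventually_finsupport_subset x
    have h2 : ∀ᶠ y in 𝓝 x, ∀ i ∈ ρ.finsupport x, ρ i y ≠ 0 := by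
      rw [Filter.eventually_all_finset]
      intro i hi
      rw [PartitionOfUnity.mem_finsupport] at hi
      exact (ρ i).continuous.continuousAt.eventually_ne hi
    have h3 : ∀ᶠ y in 𝓝 x, ∀ s ∈ (ρ.fintsupport x).powerset, s ∈ K.faces → ρ.finsupport x ⊆ s →
        (fun i => ρ i y) ∈ W s := by
      rw [Filter.eventually_all_finset]
      intro s _
      by_cases hs : s ∈ K.faces ∧ ρ.finsupport x ⊆ s
      · have hx' : (fun i => ρ i x) ∈ W s :=
          (hOW s hs.1 (f x) fun v hv => hzero x v fun h => hv (hs.2 h)).1 hx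
        filter_upwards [hc.continuousAt.preimage_mem_nhds ((hW s hs.1).mem_nhds hx')] with y hy _ _
        exact hy
      · exact Eventually.of_forall fun y h h' => absurd ⟨h, h'⟩ hs
    filter_upwards [h1, h2, h3] with y h1 h2 h3
    refine (hOW _ (hface y) (f y) (hzero y)).2 (h3 _ (Finset.mem_powerset.2 h1) (hface y) ?_)
    intro i hi
    rw [PartitionOfUnity.mem_finsupport]
    exact h2 i hi
  · intro x y hxy
    obtain ⟨i, hi⟩ := ρ.exists_pos (mem_univ x)
    have : ρ i x = ρ i y := congrFun (congrArg Subtype.val hxy) i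
    exact ⟨i, hsupp x i hi.ne', hsupp y i (this ▸ hi.ne')⟩

end Vale.Agent.P210
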