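import Vale.Agent.P210.Cut
import Vale.Agent.P210.Colour
import Vale.Agent.P210.Nerve

open Set Filter Topology MeasureTheory Metric Relation
open scoped ENNReal

noncomputable section

namespace Vale.Agent.P210

/-- The total height. -/
def beta {n : ℕ} (τ : E n → ℤ → ℝ) (x : E n) : ℝ := ⨆ k, τ x k

/-- The level of a point. -/
def lvl {n : ℕ} (A L : ℝ) (τ : E n → ℤ → ℝ) (x : E n) : ℤ := ⌈(beta τ x - A) / L⌉ - 3

namespace Hyp
variable {n : ℕ} {A : ℝ} {τ : E n → ℤ → ℝ} {a : ℤ → E n → ℝ} (h : Hyp A τ a)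
include h

theorem sum_eq (x : E n) (K : ℤ) (l : ℕ) :
    ∑ i ∈ Finset.range l, a (K - i) x = τ x (K - l) - τ x K := by
  induction l with
  | zero => simp
  | succ l ih =>
    have e : K - ((l + 1 : ℕ) : ℤ) = K - l - 1 := by
      push_cast
      ring
    rw [Finset.sum_range_succ, ih, e, h.step]
    ring

theorem tail {x : E n} {c : ℝ} {K : ℤ} (hc : 0 ≤ c) (ha : ∀ k ≤ K, a k x ≤ c * 2 ^ k) (k : ℤ) :
    τ x k ≤ τ x K + 2 * c * 2 ^ K := by
  have key : ∀ l : ℕ, τ x (K - l) + 2 * c * 2 ^ (K - l) ≤ τ x K + 2 * c * 2 ^ K := fun l => by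
    induction l with
    | zero => simp
    | succ l ih =>
      have e : K - ((l + 1 : ℕ) : ℤ) = K - l - 1 := by
        push_cast
        ring
      have h1 := ha (K - l) (by omega)
      rw [e, h.step, zpow_sub_one₀ two_ne_zero]
      linarith
  have hp : ∀ j : ℤ, 0 ≤ 2 * c * 2 ^ j := fun j => by positivity
  rcases le_total k K with hk | hk
  · have h1 := key (K - k).toNat
    rw [Int.toNat_of_nonneg (by omega), sub_sub_cancel] at h1
    linarith [hp k]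
  · linarith [h.anti x hk, hp K]

theorem beta_near {b : E n} {r c : ℝ} {K : ℤ} (hr : 0 < r) (hc : 0 ≤ c)
    (ha : ∀ x ∈ ball b r, ∀ k ≤ K, a k x ≤ c * 2 ^ k) {ε : ℝ} (hε : 0 < ε) :
    BddAbove (range (τ b)) ∧ ∀ᶠ x in 𝓝 b, |beta τ x - beta τ b| < ε := by
  obtain ⟨K', hK, hK'⟩ : ∃ K' ≤ K, 2 * c * 2 ^ K' < ε / 2 := by
    obtain ⟨k, k1, -⟩ := exists_mem_Ioc_zpow (show 0 < ε / 2 / (2 * c + 1) by positivity)
      one_lt_two
    have k2 : (2 : ℝ) ^ min k K ≤ 2 ^ k := zpow_le_zpow_right₀ one_le_two (min_le_left _ _)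
    have k3 : (0 : ℝ) < 2 ^ min k K := by positivity
    rw [lt_div_iff₀ (by positivity)] at k1
    exact ⟨min k K, min_le_right _ _, by nlinarith⟩
  have h1 : ∀ x ∈ ball b r, ∀ k, τ x k ≤ τ x K' + 2 * c * 2 ^ K' := fun x hx =>
    h.tail hc fun k hk => ha x hx k (hk.trans hK)
  have h2 : ∀ x ∈ ball b r, BddAbove (range (τ x)) := fun x hx =>
    ⟨_, forall_mem_range.2 (h1 x hx)⟩
  have h3 : ∀ x ∈ ball b r, τ x K' ≤ beta τ x ∧ beta τ x ≤ τ x K' + 2 * c * 2 ^ K' := fun x hx =>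
    ⟨le_ciSup (h2 x hx) K', ciSup_le (h1 x hx)⟩
  refine ⟨h2 b (mem_ball_self hr), ?_⟩
  have h4 : ContinuousAt (fun x => A * dist x b / 2 ^ K') b := by fun_prop
  filter_upwards [ball_mem_nhds b hr, h4.eventually_lt continuousAt_const
    (show A * dist b b / 2 ^ K' < ε / 2 by simpa using hε)] with x hx hx'
  have a1 := h3 x hx
  have a2 := h3 b (mem_ball_self hr)
  have a3 := h.lip x b K'
  have a4 := h.lip b x K'
  rw [dist_comm] at a4
  rw [abs_lt]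
  constructor <;> linarith

omit h in
theorem lvl_spec {L : ℝ} (hL : 0 < L) (x : E n) :
    (lvl A L τ x + 2) * L + A < beta τ x ∧ beta τ x ≤ (lvl A L τ x + 3) * L + A := by
  have h1 := Int.le_ceil ((beta τ x - A) / L)
  have h2 := Int.ceil_lt_add_one ((beta τ x - A) / L)
  rw [div_le_iff₀ hL] at h1
  rw [← sub_lt_iff_lt_add, lt_div_iff₀ hL] at h2
  unfold lvl
  push_cast
  constructor <;> linarith

theorem rho_lvl_pos {L : ℝ} (hL : 0 < L) (x : E n) {j : ℤ} (hj : j ≤ lvl A L τ x + 2) :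
    0 < rho τ (j * L) x := by
  obtain ⟨k, hk⟩ := exists_lt_of_lt_ciSup (lvl_spec (A := A) (τ := τ) hL x).1
  have h1 : (j : ℝ) ≤ lvl A L τ x + 2 := by exact_mod_cast hj
  exact h.rho_pos (k := k) (by nlinarith)

end Hyp

theorem cover (n m : ℕ) (hm : 1 ≤ m) {A D Aν q C₁ b : ℝ} (hA : 0 < A) (hD : 0 < D) (hAν : 0 ≤ Aν)
    (hq : 0 < q) (hC : 0 ≤ C₁) (hb1 : 0 < b) (hb2 : b < 2) (hDb : D < b ^ m) :
    ∃ S : ℝ, ∀ (τ : E n → ℤ → ℝ) (a : ℤ → E n → ℝ) (ν : Measure (E n)) [SFinite ν],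
      Hyp A τ a → (∀ x (K : ℤ), ν (ball x (2 ^ K)) ≤ ENNReal.ofReal (Aν * D ^ K)) →
      (∀ y (k : ℤ) u, 0 ≤ u → ν (ball y (2 ^ (k + 1))) ≤ ENNReal.ofReal (u * D ^ k) →
        a k y ≤ C₁ * u ^ (1 / q)) →
      ∀ (Ω : Set (E n)) (r0 : E n → ℝ), (∀ y ∈ Ω, 0 < r0 y) →
      (∀ y ∈ Ω, ∃ r > 0, ∃ c ≥ 0, ∃ K : ℤ, ∀ x ∈ ball y r, ∀ k ≤ K, a k x ≤ c * 2 ^ k) →
      ∃ (V : Type) (K : AbstractSimplicialComplex V) (f : Ω → Geom K),
        (∀ s ∈ K.faces, s.card ≤ m + 1) ∧ Continuous f ∧ ∀ x x', f x = f x' →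
          ∃ y ∈ Ω, ∃ z ∈ Ω, ∃ k : ℤ, dist (x : E n) y < r0 y ∧ dist (x' : E n) z < r0 z ∧
            dist y z ≤ 2 ^ (k - 1) ∧ (∀ l : ℕ, ∑ i ∈ Finset.range l, a (k - i) y ≤ S) ∧
            ∀ l : ℕ, ∑ i ∈ Finset.range l, a (k - 1 - i) z ≤ S := by
  obtain ⟨L, hL9, hL1, hcut⟩ := cut n m hm hA hD hAν hq hC hb1 hb2 hDb
  have hL : 0 < L := by linarith
  refine ⟨(m + 2) * L + 2 * A, fun τ a ν _ h hν1 hν2 Ω r0 hr0 hloc => ?_⟩
  choose col lab hc1 hc2 using fun j : ℤ => hcut τ a ν h hν1 hν2 (j * L)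
  have eL : ∀ j : ℤ, (j : ℝ) * L + L = ((j + 1 : ℤ) : ℝ) * L := fun j => by
    push_cast
    ring
  simp only [eL] at hc1 hc2
  have hnear : ∀ y ∈ Ω, BddAbove (range (τ y)) ∧ ∀ᶠ x in 𝓝 y, |beta τ x - beta τ y| < L :=
    fun y hy => by
      obtain ⟨r, hr, c, hc, K, hK⟩ := hloc y hy
      exact h.beta_near hr hc hK hL
  have hrad : ∀ y ∈ Ω, ∃ r > 0, r ≤ r0 y ∧ ∀ x, dist x y < 2 * r →
      lvl A L τ x ≤ lvl A L τ y + 1 ∧ lvl A L τ y ≤ lvl A L τ x + 1 ∧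
      2 * r ≤ rho τ (((lvl A L τ x + 1 : ℤ) : ℝ) * L) x / 50 ∧
      2 * r ≤ rho τ (((lvl A L τ y + 1 : ℤ) : ℝ) * L) y / 50 := fun y hy => by
    obtain ⟨ε, hε, h1⟩ := Metric.eventually_nhds_iff.1 (hnear y hy).2
    have h2 := h.rho_lvl_pos hL y le_rfl
    set s := rho τ (((lvl A L τ y + 2 : ℤ) : ℝ) * L) y with hs
    refine ⟨min (r0 y) (min (ε / 2) (s / 102)), lt_min (hr0 y hy) (by positivity),
      min_le_left _ _, fun x hx => ?_⟩
    have m1 := (min_le_right (r0 y) _).trans (min_le_left (ε / 2) (s / 102))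
    have m2 := (min_le_right (r0 y) _).trans (min_le_right (ε / 2) (s / 102))
    have h3 := abs_lt.1 (h1 (show dist x y < ε by linarith))
    have a1 := Hyp.lvl_spec (A := A) (τ := τ) hL x
    have a2 := Hyp.lvl_spec (A := A) (τ := τ) hL y
    have b1 : lvl A L τ x ≤ lvl A L τ y + 1 := by
      have : (lvl A L τ x : ℝ) < lvl A L τ y + 2 := by nlinarith
      have : lvl A L τ x < lvl A L τ y + 2 := by exact_mod_cast this
      omega
    have b2 : lvl A L τ y ≤ lvl A L τ x + 1 := by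
      have : (lvl A L τ y : ℝ) < lvl A L τ x + 2 := by nlinarith
      have : lvl A L τ y < lvl A L τ x + 2 := by exact_mod_cast this
      omega
    have c1 := h.rho_anti (mul_le_mul_of_nonneg_right (Int.cast_le.2
      (show lvl A L τ x + 1 ≤ lvl A L τ y + 2 by omega)) hL.le) x
    have c2 := h.rho_anti (mul_le_mul_of_nonneg_right (Int.cast_le.2
      (show lvl A L τ y + 1 ≤ lvl A L τ y + 2 by omega)) hL.le) y
    have c3 := h.rho_lip (((lvl A L τ y + 2 : ℤ) : ℝ) * L) y x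
    rw [dist_comm] at c3
    refine ⟨b1, b2, by linarith, by linarith⟩
  choose! r hr hrr0 hrad using hrad
  let G : E n → Fin (m + 1) := fun y => (res m (lvl A L τ y)).succAbove (col (lvl A L τ y) y)
  let St : E n → E n → Prop := fun y z => y ∈ Ω ∧ z ∈ Ω ∧ G y = G z ∧ dist y z < r y + r z
  have hsym : ∀ y z, St y z → St z y := fun y z hs =>
    ⟨hs.2.1, hs.1, hs.2.2.1.symm, by rw [dist_comm, add_comm]; exact hs.2.2.2⟩
  have hst : ∀ y z, St y z → dist y z ≤ rho τ (((lvl A L τ y + 1 : ℤ) : ℝ) * L) y / 50 ∧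
      lvl A L τ z ≤ lvl A L τ y + 1 := fun y z hs => by
    have h1 := hs.2.2.2
    rcases le_total (r y) (r z) with h2 | h2
    · obtain ⟨-, a2, a3, -⟩ := hrad z hs.2.1 y (by linarith)
      exact ⟨by linarith, a2⟩
    · obtain ⟨a1, -, -, a4⟩ := hrad y hs.1 z (by rw [dist_comm]; linarith)
      exact ⟨by linarith, a1⟩
  have hchain := chain_bound (fun j x => rho τ ((j : ℝ) * L) x) (lvl A L τ)
    (fun y => col (lvl A L τ y) y) (fun y => lab (lvl A L τ y) y) St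
    (fun j x => Hyp.rho_nonneg _ x) (fun j => h.rho_lip _) (fun j x => by
      have h1 := h.rho_sep (t := j * L) 7 (L := L) (by push_cast; linarith) x
      have h2 := Hyp.rho_nonneg (τ := τ) (j * L) x
      rw [eL] at h1
      norm_num at h1 ⊢
      linarith) Ω
    (fun y _ y' _ e e' => hc1 _ y y' (h.rho_lvl_pos hL y (by omega))
      (h.rho_lvl_pos hL y' (by omega)) (by rw [e', e]))
    (fun y _ y' _ e e' hd => by
      rw [← e] at e' ⊢
      exact hc2 _ y y' (h.rho_lvl_pos hL y (by omega)) (h.rho_lvl_pos hL y' (by omega)) e' hd)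
    hsym (fun y z hs => hs.1) (fun y z hs => (hst y z hs).1) (fun y z hs => (hst y z hs).2)
    (fun y z hs => hs.2.2.1)
  obtain ⟨K, f, hK, hf, hfib⟩ := nerve (X := Ω) (m := m) (Λ := Set (E n))
    (fun i => {x | ∃ y ∈ Ω, G y = i.1 ∧ {z | ReflTransGen St y z} = i.2 ∧ dist (x : E n) y < r y})
    (fun i => isOpen_iff_mem_nhds.2 fun x ⟨y, hy, e1, e2, h1⟩ => by
      have hc : Continuous fun w : Ω => dist (w : E n) y := by fun_prop
      filter_upwards [hc.continuousAt.eventually_lt continuousAt_const h1] with w hw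
      exact ⟨y, hy, e1, e2, hw⟩)
    (fun x => ⟨(G x, {z | ReflTransGen St x z}), x, x.2, rfl, rfl, by simpa using hr x x.2⟩)
    (by
      rintro x ⟨i, s⟩ ⟨i', s'⟩ ⟨y, hy, rfl, rfl, h1⟩ ⟨z, hz, rfl, rfl, h2⟩ e
      have hs : St y z := ⟨hy, hz, e, by linarith [dist_triangle_left y z x]⟩
      refine Prod.ext e (Set.ext fun w => ⟨fun hw => ?_, fun hw => ?_⟩)
      · exact ReflTransGen.head (hsym _ _ hs) hw
      · exact ReflTransGen.head hs hw)
  refine ⟨_, K, f, hK, hf, fun x x' e => ?_⟩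
  obtain ⟨i, ⟨y, hy, -, e1, h1⟩, ⟨z, hz, -, e2, h2⟩⟩ := hfib x x' e
  have hyz : ReflTransGen St y z := by
    have : z ∈ {w | ReflTransGen St z w} := ReflTransGen.refl
    rwa [e2, ← e1] at this
  obtain ⟨j, j1, j2, j3, j4⟩ := hchain y z hyz
  obtain ⟨k, k1, k2⟩ := exists_mem_Ioc_zpow (h.rho_lvl_pos hL y (j := j) (by omega)) one_lt_two
  have hd : dist y z ≤ 2 ^ (k - 1) := by
    rw [zpow_add_one₀ two_ne_zero] at k2
    rw [zpow_sub_one₀ two_ne_zero]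
    linarith
  have t1 := Hyp.lt_tau k1
  have hβ : ∀ w ∈ Ω, lvl A L τ w < j + m → ∀ i, τ w i ≤ (j + m + 2) * L + A := fun w hw hj i => by
    have a1 := (Hyp.lvl_spec (A := A) (τ := τ) hL w).2
    have a2 : τ w i ≤ beta τ w := le_ciSup (hnear w hw).1 i
    have a3 : (lvl A L τ w : ℝ) + 1 ≤ j + m := by exact_mod_cast hj
    nlinarith
  refine ⟨y, hy, z, hz, k, h1.trans_le (hrr0 y hy), h2.trans_le (hrr0 z hz), hd, fun l => ?_,
    fun l => ?_⟩
  · rw [h.sum_eq]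
    linarith [hβ y hy j2 (k - l)]
  · rw [h.sum_eq]
    have a1 := h.lip y z k
    have a2 := h.anti z (show k - 1 ≤ k by omega)
    have a3 : A * dist y z / 2 ^ k ≤ A := by
      rw [div_le_iff₀ (by positivity)]
      exact mul_le_mul_of_nonneg_left
        (hd.trans (zpow_le_zpow_right₀ one_le_two (by omega))) hA.le
    linarith [hβ z hz j3 (k - 1 - l)]

end Vale.Agent.P210
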