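import Vale.Agent.P210.Scale

open Set MeasureTheory Metric
open scoped ENNReal

noncomputable section

namespace Vale.Agent.P210

/-- singular kernel concentrated near a sphere -/
def kern {n : ℕ} (b s : ℝ) (x : E n) (v : ℝ) (z : E n) : ℝ≥0∞ :=
  ∑' l : ℕ, {p : ℝ × E n | |dist p.2 x - p.1| ≤ s / 2 ^ l}.indicator
    (fun _ => ENNReal.ofReal (b ^ l)) (v, z)

theorem kern_meas {n : ℕ} (b s : ℝ) (x : E n) : Measurable (Function.uncurry (kern b s x)) := by
  refine Measurable.tsum fun l => ?_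
  refine Measurable.indicator measurable_const ?_
  exact (isClosed_le (by fun_prop) continuous_const).measurableSet

theorem kern_zero {n : ℕ} (b : ℝ) {s : ℝ} (hs : 0 < s) (x : E n) {v : ℝ} (hv : v ∈ Icc s (2 * s))
    (z : E n) (hz : z ∉ closedBall x (3 * s)) : kern b s x v z = 0 := by
  rw [kern, ENNReal.tsum_eq_zero]
  intro l
  refine indicator_of_notMem (fun h => hz ?_) _
  have h1 : s / 2 ^ l ≤ s := div_le_self hs.le (one_le_pow₀ one_le_two)
  have h2 := (abs_le.1 (show |dist z x - v| ≤ s / 2 ^ l from h)).2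
  rw [mem_closedBall]
  linarith [hv.2]

theorem le_kern {n : ℕ} (b s : ℝ) (x : E n) (v : ℝ) (z : E n) (l : ℕ)
    (h : |dist z x - v| ≤ s / 2 ^ l) : ENNReal.ofReal (b ^ l) ≤ kern b s x v z := by
  refine le_trans (le_of_eq ?_) (ENNReal.le_tsum l)
  rw [indicator_of_mem (by exact h)]

theorem kern_int {n : ℕ} {b s : ℝ} (hb0 : 0 ≤ b) (hb : b < 2) (hs : 0 < s) (x z : E n) :
    ∫⁻ v in Icc s (2 * s), kern b s x v z ≤
      ENNReal.ofReal (2 / (1 - b / 2)) * volume (Icc s (2 * s)) := by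
  have hm : ∀ l : ℕ, MeasurableSet {v : ℝ | |dist z x - v| ≤ s / 2 ^ l} := fun l =>
    (isClosed_le (by fun_prop) continuous_const).measurableSet
  have e : ∀ (l : ℕ) (v : ℝ), {p : ℝ × E n | |dist p.2 x - p.1| ≤ s / 2 ^ l}.indicator
      (fun _ => ENNReal.ofReal (b ^ l)) (v, z) =
      {v : ℝ | |dist z x - v| ≤ s / 2 ^ l}.indicator (fun _ => ENNReal.ofReal (b ^ l)) v :=
    fun l v => rfl
  simp only [kern, e]
  refine (setLIntegral_le_lintegral _ _).trans ?_
  rw [lintegral_tsum fun l => (measurable_const.indicator (hm l)).aemeasurable]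
  have h1 : ∀ l : ℕ, ∫⁻ v, {v : ℝ | |dist z x - v| ≤ s / 2 ^ l}.indicator
      (fun _ => ENNReal.ofReal (b ^ l)) v = ENNReal.ofReal (2 * s * (b / 2) ^ l) := by
    intro l
    rw [lintegral_indicator_const (hm l)]
    have : {v : ℝ | |dist z x - v| ≤ s / 2 ^ l} = closedBall (dist z x) (s / 2 ^ l) := by
      ext v
      simp [Real.dist_eq, abs_sub_comm]
    rw [this, Real.volume_closedBall, ← ENNReal.ofReal_mul (by positivity)]
    congr 1
    rw [div_pow]
    ring
  simp only [h1]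
  have hs1 : Summable fun l : ℕ => (b / 2) ^ l :=
    summable_geometric_of_lt_one (by positivity) (by linarith)
  rw [← ENNReal.ofReal_tsum_of_nonneg (fun l => by positivity) (hs1.mul_left _), tsum_mul_left,
    tsum_geometric_of_lt_one (by positivity) (by linarith), Real.volume_Icc,
    ← ENNReal.ofReal_mul (div_nonneg (by norm_num) (by linarith))]
  refine le_of_eq (congrArg _ ?_)
  ring

theorem good_radii {n : ℕ} {b : ℝ} (hb0 : 0 ≤ b) (hb : b < 2) (ν : Measure (E n)) [SFinite ν]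
    (σ : E n → ℝ) (hσ : ∀ x y, σ x ≤ σ y + dist x y / 100) :
    ∃ (P : Set (E n)) (r : P → ℝ), (∀ x ∈ P, 0 < σ x) ∧ (∀ y, 0 < σ y → ∃ x ∈ P, dist y x < σ x) ∧
      (∀ i : P, r i ∈ Icc (σ i) (2 * σ i)) ∧
      ∀ (S : Finset P) (y : E n), S.Nonempty → (∀ i ∈ S, dist y i ≤ 3 * σ i) →
        ∃ i ∈ S, ∫⁻ z, ∏ k ∈ S, kern b (σ k) k (r k) z ∂ν ≤
          (2 ^ 32 ^ n * ENNReal.ofReal (2 / (1 - b / 2))) ^ S.card *
            ν (closedBall (i : E n) (3 * σ i)) := by
  classical
  obtain ⟨P, h1, h2, h3⟩ := exists_net σ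
  let T : P → Set P := fun i => {k | ∃ z : E n, dist z i ≤ 3 * σ i ∧ dist z k ≤ 3 * σ k}
  have hT : ∀ i (s : Finset P), (↑s : Set P) ⊆ T i → s.card ≤ 32 ^ n := by
    intro i s hs
    have hc : ∀ k ∈ T i, dist (k : E n) i ≤ 7 * σ i ∧ σ i / 2 ≤ σ k := by
      rintro k ⟨z, e1, e2⟩
      have e3 := dist_triangle_left (k : E n) i z
      have e4 := hσ k i
      have e5 := hσ i k
      rw [dist_comm (i : E n) k] at e5
      have := h1 i i.2
      constructor <;> linarith
    rw [← Finset.card_image_of_injective s Subtype.val_injective]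
    refine card_le_of_sep _ i (σ i) (h1 i i.2) ?_ ?_
    · intro y hy
      obtain ⟨k, hk, rfl⟩ := Finset.mem_image.1 hy
      exact (hc k (hs hk)).1
    · intro y hy z hz hne
      obtain ⟨k, hk, rfl⟩ := Finset.mem_image.1 hy
      obtain ⟨k', hk', rfl⟩ := Finset.mem_image.1 hz
      exact (le_min (hc k (hs hk)).2 (hc k' (hs hk')).2).trans (h2 k.2 k'.2 hne)
  have hfin : ∀ i, (T i).Finite := by
    intro i
    by_contra hinf
    obtain ⟨s, hs, hcard⟩ := Set.Infinite.exists_subset_card_eq hinf (32 ^ n + 1)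
    have := hT i s hs
    omega
  obtain ⟨r, hr, hS⟩ := exists_radii ν (fun i => (hfin i).toFinset) (32 ^ n)
    (fun i => hT i _ (by simp)) (fun i : P => kern b (σ i) i) (fun i => kern_meas _ _ _)
    (fun i => Icc (σ i) (2 * σ i))
    (fun i => by have := h1 i i.2; simp; linarith) (fun i => by simp)
    (ENNReal.ofReal (2 / (1 - b / 2)))
    (by simp; linarith) ENNReal.ofReal_ne_top (fun i z => kern_int hb0 hb (h1 i i.2) _ z)
    (fun i => closedBall (i : E n) (3 * σ i)) (fun i => measurableSet_closedBall)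
    (fun i v hv z hz => kern_zero b (h1 i i.2) _ hv z hz)
  refine ⟨P, r, h1, h3, hr, fun S y hne hy => hS S hne fun i hi k hk => ?_⟩
  simp only [Set.Finite.mem_toFinset]
  exact ⟨y, hy i hi, hy k hk⟩

theorem geom_sum_le {θ : ℝ} (h0 : 0 ≤ θ) (h1 : θ < 1) (l : ℕ) :
    ∑ i ∈ Finset.range l, θ ^ i ≤ 1 / (1 - θ) := by
  rw [one_div, ← tsum_geometric_of_lt_one h0 h1]
  exact (summable_geometric_of_lt_one h0 h1).sum_le_tsum _ fun _ _ => by positivity

theorem tau_gap {n : ℕ} {A C θ : ℝ} {τ : E n → ℤ → ℝ} {a : ℤ → E n → ℝ} (h : Hyp A τ a)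
    (hC : 0 ≤ C) (h0 : 0 ≤ θ) (h1 : θ < 1) (y : E n) (K k : ℤ)
    (ha : ∀ l : ℕ, k + 1 ≤ K - l → a (K - l) y ≤ C * θ ^ l) : τ y k ≤ τ y K + C / (1 - θ) := by
  have key : ∀ l : ℕ, k ≤ K - l → τ y (K - l) ≤ τ y K + C * ∑ i ∈ Finset.range l, θ ^ i := by
    intro l
    induction l with
    | zero => simp
    | succ l ih =>
      intro hl
      push_cast at hl
      have e : K - ((l + 1 : ℕ) : ℤ) = K - l - 1 := by push_cast; ring
      rw [e, h.step, Finset.sum_range_succ, mul_add]
      linarith [ih (by omega), ha l (by omega)]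
  have hp : 0 ≤ C / (1 - θ) := div_nonneg hC (by linarith)
  rcases le_total K k with hk | hk
  · linarith [h.anti y hk]
  · obtain ⟨l, hl⟩ := Int.le.dest hk
    have := key l (by omega)
    rw [show K - l = k by omega] at this
    have h2 := mul_le_mul_of_nonneg_left (geom_sum_le h0 h1 l) hC
    rw [mul_one_div] at h2
    linarith

theorem a_bound {n m : ℕ} {D Aν B b : ℝ} (hD : 0 < D) (hB : 0 ≤ B) (hb : 0 < b)
    (ν : Measure (E n)) (y : E n) (K : ℤ) (l : ℕ) (f : E n → ℝ≥0∞)
    (hf : ∀ z ∈ ball y (2 ^ (K - 10 - l + 1)), ENNReal.ofReal (b ^ l) ^ m ≤ f z)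
    (hI : ∫⁻ z, f z ∂ν ≤ ENNReal.ofReal B ^ m * ENNReal.ofReal (Aν * D ^ K)) :
    ν (ball y (2 ^ (K - 10 - l + 1))) ≤
      ENNReal.ofReal (B ^ m * Aν * D ^ 10 * (D / b ^ m) ^ l * D ^ (K - 10 - l)) := by
  have h1 : ENNReal.ofReal (b ^ l) ^ m * ν (ball y (2 ^ (K - 10 - l + 1))) ≤ ∫⁻ z, f z ∂ν := by
    rw [← setLIntegral_const]
    exact (setLIntegral_mono' measurableSet_ball hf).trans (setLIntegral_le_lintegral _ _)
  have h2 := h1.trans hI
  rw [← ENNReal.ofReal_pow (by positivity), ← ENNReal.ofReal_pow hB,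
    ← ENNReal.ofReal_mul (by positivity)] at h2
  have e : B ^ m * (Aν * D ^ K) =
      (b ^ l) ^ m * (B ^ m * Aν * D ^ 10 * (D / b ^ m) ^ l * D ^ (K - 10 - l)) := by
    rw [zpow_sub₀ hD.ne', zpow_sub₀ hD.ne', zpow_natCast, div_pow, ← pow_mul, ← pow_mul,
      mul_comm m l, show (10 : ℤ) = ((10 : ℕ) : ℤ) from rfl, zpow_natCast]
    field_simp
  rw [e, ENNReal.ofReal_mul (by positivity), ENNReal.mul_le_mul_iff_right
    (by simp; positivity) ENNReal.ofReal_ne_top] at h2
  exact h2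

theorem cut (n m : ℕ) (hm : 1 ≤ m) {A D Aν q C₁ b : ℝ} (hA : 0 < A) (hD : 0 < D) (hAν : 0 ≤ Aν)
    (hq : 0 < q) (hC : 0 ≤ C₁) (hb1 : 0 < b) (hb2 : b < 2) (hDb : D < b ^ m) :
    ∃ L : ℝ, 9 * A ≤ L ∧ A + 1 ≤ L ∧ ∀ (τ : E n → ℤ → ℝ) (a : ℤ → E n → ℝ) (ν : Measure (E n))
      [SFinite ν], Hyp A τ a → (∀ x (K : ℤ), ν (ball x (2 ^ K)) ≤ ENNReal.ofReal (Aν * D ^ K)) →
      (∀ y (k : ℤ) u, 0 ≤ u → ν (ball y (2 ^ (k + 1))) ≤ ENNReal.ofReal (u * D ^ k) →
        a k y ≤ C₁ * u ^ (1 / q)) →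
      ∀ t, ∃ (col : E n → Fin m) (lab : E n → Set (E n)),
        (∀ y y', 0 < rho τ (t + L) y → 0 < rho τ (t + L) y' → lab y = lab y' →
          dist y y' ≤ rho τ t y / 10) ∧
        (∀ y y', 0 < rho τ (t + L) y → 0 < rho τ (t + L) y' → col y = col y' →
          dist y y' ≤ rho τ (t + L) y / 2 → lab y = lab y') := by
  classical
  set B : ℝ := 2 ^ 32 ^ n * (2 / (1 - b / 2)) with hB
  have hB0 : 0 ≤ B := mul_nonneg (by positivity) (div_nonneg (by norm_num) (by linarith))
  set θ : ℝ := (D / b ^ m) ^ (1 / q) with hθ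
  have hθ0 : 0 ≤ θ := by positivity
  have hθ1 : θ < 1 := Real.rpow_lt_one (by positivity)
    ((div_lt_one (by positivity)).2 hDb) (by positivity)
  set C₂ : ℝ := C₁ * (B ^ m * Aν * D ^ 10) ^ (1 / q) with hC₂
  have hC₂0 : 0 ≤ C₂ := by positivity
  have hp : 0 ≤ C₂ / (1 - θ) := div_nonneg hC₂0 (by linarith)
  have hm0 : (0 : ℝ) ≤ m * A := by positivity
  refine ⟨(4 * m + 18) * A + C₂ / (1 - θ) + 1, by linarith, by linarith, ?_⟩
  set L : ℝ := (4 * m + 18) * A + C₂ / (1 - θ) + 1 with hL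
  intro τ a ν _ h hν hav t
  set σ : E n → ℝ := fun x => rho τ t x / 100 with hσ
  set f : E n → ℝ := rho τ (t + L) with hf
  have hσL : ∀ x y, σ x ≤ σ y + dist x y / 100 := fun x y => by
    have := h.rho_lip t x y
    simp only [hσ]
    linarith
  have hfσ : ∀ y, 10 ^ m * f y ≤ σ y / 100 := by
    intro y
    have h1 := h.rho_sep (t := t) (L := L) (4 * m + 16) (by push_cast; linarith) y
    have h2 : (10 : ℝ) ^ m * 10000 ≤ 2 ^ (4 * m + 16) := by
      rw [pow_add, pow_mul]
      exact mul_le_mul (pow_le_pow_left₀ (by norm_num) (by norm_num) m) (by norm_num)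
        (by norm_num) (by positivity)
    rw [le_div_iff₀ (by positivity)] at h1
    have h3 : 0 ≤ f y := Hyp.rho_nonneg _ _
    simp only [hσ]
    nlinarith
  obtain ⟨P, r, hP0, hPc, hr, hS⟩ := good_radii hb1.le hb2 ν σ hσL
  have few : ∀ y, 0 < f y → ∀ i : Fin m → P, Function.Injective i →
      (∀ c, |dist y (i c) - r (i c)| ≤ 10 ^ m * f y) → False := by
    intro y hy i hi hc
    have hσy : 0 < σ y := by have := hfσ y; nlinarith [pow_pos (show (0 : ℝ) < 10 by norm_num) m]
    have hρy : 0 < rho τ t y := by simp only [hσ] at hσy; linarith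
    obtain ⟨K', hK1, hK2⟩ := exists_mem_Ico_zpow hρy one_lt_two
    obtain ⟨k', hk1, hk2⟩ := exists_mem_Ico_zpow hy one_lt_two
    set K := K' + 1 with hK
    have eK : (2 : ℝ) ^ K = 2 * 2 ^ K' := by rw [hK, zpow_add_one₀ two_ne_zero]; ring
    have hK0 : (0 : ℝ) < 2 ^ K' := by positivity
    have hclose : ∀ c, dist y (i c) ≤ 3 * σ (i c) ∧ 2 ^ K / 256 ≤ σ (i c) ∧
        3 * σ (i c) < 2 ^ K := by
      intro c
      have e1 := (abs_le.1 (hc c)).2
      have e2 := hfσ y
      have e3 := (hr (i c)).2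
      have e4 := hσL y (i c)
      have e5 := hσL (i c) y
      rw [dist_comm] at e5
      have e6 : σ y = rho τ t y / 100 := rfl
      have := hP0 _ (i c).2
      refine ⟨by linarith, by linarith, by linarith⟩
    obtain ⟨j, hj, hI⟩ := hS (Finset.univ.image i) y
      ⟨i ⟨0, hm⟩, Finset.mem_image_of_mem _ (Finset.mem_univ _)⟩
      (fun k hk => by
        obtain ⟨c, -, rfl⟩ := Finset.mem_image.1 hk
        exact (hclose c).1)
    obtain ⟨c0, -, rfl⟩ := Finset.mem_image.1 hj
    rw [Finset.card_image_of_injective _ hi, Finset.card_univ, Fintype.card_fin] at hI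
    have eB : (2 : ℝ≥0∞) ^ 32 ^ n * ENNReal.ofReal (2 / (1 - b / 2)) = ENNReal.ofReal B := by
      rw [hB, ENNReal.ofReal_mul (by positivity), ENNReal.ofReal_pow (by norm_num)]
      simp
    rw [eB] at hI
    have hI2 := hI.trans (mul_le_mul_right
      ((measure_mono (closedBall_subset_ball (hclose c0).2.2)).trans (hν _ K)) _)
    have hgap := tau_gap h hC₂0 hθ0 hθ1 y (K - 10) (k' + 4 * m) (by
      intro l hl
      have h1 := a_bound hD hB0 hb1 ν y K l _ (by
        intro z hz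
        rw [Finset.prod_image (fun c _ c' _ e => hi e)]
        have : ENNReal.ofReal (b ^ l) ^ m = ∏ _c : Fin m, ENNReal.ofReal (b ^ l) := by simp
        rw [this]
        refine Finset.prod_le_prod' fun c _ => le_kern _ _ _ _ _ _ ?_
        have e1 := hc c
        have e2 : 10 ^ m * f y ≤ 2 ^ (K - 10 - l) := by
          calc 10 ^ m * f y ≤ 16 ^ m * 2 ^ (k' + 1) :=
                mul_le_mul (pow_le_pow_left₀ (by norm_num) (by norm_num) m) hk2.le hy.le
                  (by positivity)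
            _ = 2 ^ (k' + 4 * m + 1) := by
                rw [show (16 : ℝ) = 2 ^ 4 by norm_num, ← pow_mul, ← zpow_natCast,
                  ← zpow_add₀ two_ne_zero]
                congr 1
                push_cast
                ring
            _ ≤ _ := zpow_le_zpow_right₀ one_le_two hl
        have e3 : dist z y < 2 * 2 ^ (K - 10 - l) := by
          rw [mem_ball, zpow_add_one₀ two_ne_zero] at hz
          linarith
        have e4 := abs_dist_sub_le z y (i c : E n)
        have e5 : (2 : ℝ) ^ (K - 10 - l) = 2 ^ K / 1024 / 2 ^ l := by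
          rw [zpow_sub₀ two_ne_zero, zpow_sub₀ two_ne_zero, zpow_natCast]
          norm_num
        have e6 : (2 : ℝ) ^ K / 256 / 2 ^ l ≤ σ (i c) / 2 ^ l :=
          div_le_div_of_nonneg_right (hclose c).2.1 (by positivity)
        have e7 : (2 : ℝ) ^ K / 256 / 2 ^ l = 4 * (2 ^ K / 1024 / 2 ^ l) := by ring
        have e8 : (0 : ℝ) < 2 ^ (K - 10 - l) := by positivity
        have e9 := abs_add_le (dist z (i c) - dist y (i c)) (dist y (i c) - r (i c))
        rw [sub_add_sub_cancel] at e9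
        linarith) hI2
      refine (hav y _ _ (by positivity) h1).trans (le_of_eq ?_)
      have e : ((D / b ^ m) ^ l) ^ (1 / q) = ((D / b ^ m) ^ (1 / q)) ^ l := by
        rw [← Real.rpow_natCast_mul (by positivity), mul_comm,
          Real.rpow_mul_natCast (by positivity)]
      rw [Real.mul_rpow (by positivity) (by positivity), hC₂, hθ, e, mul_assoc C₁])
    have g1 : t + L < τ y (k' - 1) := Hyp.lt_tau (lt_of_lt_of_le
      (zpow_lt_zpow_right₀ one_lt_two (by omega)) hk1)
    have g2 := h.up y (k := k' - 1) (k' := k' + 4 * m) (4 * m + 1) (by push_cast; omega)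
    have g3 := h.up y (k := K - 10) (k' := K) 10 (by push_cast; omega)
    have g4 := h.tau_le hK2
    push_cast at g2 g3
    linarith
  have hcol : ∀ y, ∃ c : Fin m, 0 < f y → ∀ i : P, dist y i - r i < 10 ^ (c.1 + 1) * f y →
      dist y i - r i < 10 ^ c.1 * f y := by
    intro y
    by_contra hcon
    push Not at hcon
    choose hy i h1 h2 using hcon
    have hy := hy ⟨0, hm⟩
    refine few y hy i ?_ fun c => ?_
    · intro c c' e
      have key : ∀ c c' : Fin m, i c = i c' → ¬ c.1 < c'.1 := by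
        intro c c' e hlt
        have e1 := h1 c
        have e2 := h2 c'
        rw [e] at e1
        have : (10 : ℝ) ^ (c.1 + 1) * f y ≤ 10 ^ c'.1 * f y :=
          mul_le_mul_of_nonneg_right (pow_le_pow_right₀ (by norm_num) hlt) hy.le
        linarith
      have := key c c' e
      have := key c' c e.symm
      exact Fin.ext (by omega)
    · have e1 : (10 : ℝ) ^ (c.1 + 1) * f y ≤ 10 ^ m * f y :=
        mul_le_mul_of_nonneg_right (pow_le_pow_right₀ (by norm_num) c.2) hy.le
      have e2 : (0 : ℝ) ≤ 10 ^ c.1 * f y := by positivity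
      rw [abs_of_nonneg (e2.trans (h2 c))]
      linarith [h1 c]
  choose col hcol using hcol
  refine ⟨col, fun y => Subtype.val '' {i : P | dist y i - r i < 10 ^ (col y).1 * f y}, ?_, ?_⟩
  · intro y y' hy hy' e
    have e := Subtype.val_injective.image_injective e
    have hσy : 0 < σ y := by have := hfσ y; nlinarith [pow_pos (show (0 : ℝ) < 10 by norm_num) m]
    obtain ⟨x, hx, hxy⟩ := hPc y hσy
    have e1 : (⟨x, hx⟩ : P) ∈ {i : P | dist y i - r i < 10 ^ (col y).1 * f y} := by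
      have := (hr ⟨x, hx⟩).1
      have : (0 : ℝ) < 10 ^ (col y).1 * f y := by positivity
      simp only [mem_ofPred_eq] at *
      linarith
    rw [e] at e1
    simp only [mem_ofPred_eq] at e1
    have e2 : (10 : ℝ) ^ (col y').1 * f y' ≤ 10 ^ m * f y' :=
      mul_le_mul_of_nonneg_right (pow_le_pow_right₀ (by norm_num) (col y').2.le) hy'.le
    have e3 := hfσ y'
    have e4 := hσL y' x
    have e5 := hσL x y
    have e6 := (hr ⟨x, hx⟩).2
    have e7 := dist_triangle_right y y' x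
    have e8 : σ y = rho τ t y / 100 := rfl
    rw [dist_comm] at e5
    simp only at e6
    linarith
  · have key : ∀ y y', 0 < f y' → col y = col y' → dist y y' ≤ f y' → f y ≤ 2 * f y' →
        {i : P | dist y i - r i < 10 ^ (col y).1 * f y} ⊆
          {i : P | dist y' i - r i < 10 ^ (col y').1 * f y'} := by
      intro y y' hy' e h1 h2 i hi
      simp only [mem_ofPred_eq] at hi ⊢
      apply hcol y' hy'
      rw [e] at hi
      have e1 := dist_triangle_left y' (i : E n) y
      have e2 : (1 : ℝ) ≤ 10 ^ (col y').1 := one_le_pow₀ (by norm_num)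
      rw [pow_succ]
      nlinarith
    intro y y' hy hy' e hd
    have e1 := h.rho_lip (t + L) y y'
    have e2 := h.rho_lip (t + L) y' y
    rw [dist_comm] at e2
    refine congrArg (Subtype.val '' ·)
      ((key y y' hy' e ?_ ?_).antisymm (key y' y hy e.symm ?_ ?_))
    · simp only [hf] at *; linarith
    · simp only [hf] at *; linarith
    · rw [dist_comm]; simp only [hf] at *; linarith
    · simp only [hf] at *; linarith

end Vale.Agent.P210
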