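import Mathlib

open Set Filter Topology MeasureTheory
open scoped ENNReal

noncomputable section

namespace Vale.Agent.P210

/-- Euclidean space `ℝⁿ`. -/
abbrev E (n : ℕ) : Type := EuclideanSpace ℝ (Fin n)

/-- A metric tensor in coordinates: a matrix `g_ij(x)` at each point. -/
abbrev Tensor (n : ℕ) : Type := E n → Matrix (Fin n) (Fin n) ℝ

/-- The coordinate derivative `∂_i f (x)`. -/
def pd {n : ℕ} (i : Fin n) (f : E n → ℝ) (x : E n) : ℝ :=
  fderiv ℝ f x (EuclideanSpace.single i 1)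

/-- Christoffel symbols `Γ^k_ij` of the Levi-Civita connection. -/
def chris {n : ℕ} (g : Tensor n) (k i j : Fin n) (x : E n) : ℝ :=
  (1 / 2) * ∑ l, (g x)⁻¹ k l *
    (pd i (fun y => g y j l) x + pd j (fun y => g y i l) x - pd l (fun y => g y i j) x)

/-- The Ricci tensor `R_ij = ∂_k Γ^k_ij - ∂_j Γ^k_ik + Γ^k_kl Γ^l_ij - Γ^k_jl Γ^l_ik`. -/
def ricci {n : ℕ} (g : Tensor n) (i j : Fin n) (x : E n) : ℝ :=
  ∑ k, (pd k (chris g k i j) x - pd j (chris g k i k) x +
    ∑ l, (chris g k k l x * chris g l i j x - chris g k j l x * chris g l i k x))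

/-- Scalar curvature `g^ij R_ij`. -/
def scal {n : ℕ} (g : Tensor n) (x : E n) : ℝ :=
  ∑ i, ∑ j, (g x)⁻¹ i j * ricci g i j x

/-- The conformally flat metric `e^{2φ} |dx|²`. -/
def conf {n : ℕ} (φ : E n → ℝ) : Tensor n :=
  fun x => Real.exp (2 * φ x) • (1 : Matrix (Fin n) (Fin n) ℝ)

/-- `Joins Ω g x y l`: a piecewise `C¹` curve in `Ω` from `x` to `y` has `g`-length `l`. -/
inductive Joins {n : ℕ} (Ω : Set (E n)) (g : Tensor n) : E n → E n → ℝ≥0∞ → Prop
  | arc (γ : ℝ → E n) (a b : ℝ) (hab : a ≤ b) (hγ : ContDiffOn ℝ 1 γ (Icc a b))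
      (hΩ : MapsTo γ (Icc a b) Ω) :
      Joins Ω g (γ a) (γ b) (∫⁻ t in Icc a b,
        ENNReal.ofReal (√(∑ i, ∑ j, g (γ t) i j * deriv γ t i * deriv γ t j)))
  | trans {x y z : E n} {l l' : ℝ≥0∞} :
      Joins Ω g x y l → Joins Ω g y z l' → Joins Ω g x z (l + l')

/-- The Riemannian distance of `(Ω, g)`: infimum of lengths of piecewise `C¹` curves in `Ω`. -/
def rdist {n : ℕ} (Ω : Set (E n)) (g : Tensor n) (x y : E n) : ℝ≥0∞ :=
  sInf {l | Joins Ω g x y l}

/-- `(Ω, g)` is complete: every Cauchy sequence for the Riemannian distance converges in `Ω`. -/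
def IsCompleteMetric {n : ℕ} (Ω : Set (E n)) (g : Tensor n) : Prop :=
  ∀ u : ℕ → E n, (∀ k, u k ∈ Ω) →
    (∀ ε : ℝ≥0∞, 0 < ε → ∃ N, ∀ i ≥ N, ∀ j ≥ N, rdist Ω g (u i) (u j) < ε) →
    ∃ x ∈ Ω, Tendsto (fun k => rdist Ω g (u k) x) atTop (𝓝 0)

/-- Geometric realization of an abstract simplicial complex (barycentric coordinates). -/
def Geom {V : Type} (K : AbstractSimplicialComplex V) : Type :=
  {p : V → ℝ // ∃ s ∈ K.faces, (∀ v, 0 ≤ p v) ∧ (∀ v, v ∉ s → p v = 0) ∧ ∑ v ∈ s, p v = 1}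

/-- The weak topology on the realization: a set is open iff its trace on every closed simplex is
open in that simplex. -/
instance geomTop {V : Type} (K : AbstractSimplicialComplex V) : TopologicalSpace (Geom K) where
  IsOpen U := ∀ s ∈ K.faces, ∃ W : Set (V → ℝ), IsOpen W ∧
    ∀ p : Geom K, (∀ v, v ∉ s → p.1 v = 0) → (p ∈ U ↔ p.1 ∈ W)
  isOpen_univ := fun _ _ => ⟨univ, isOpen_univ, fun _ _ => by simp⟩
  isOpen_inter := fun U U' hU hU' s hs => by
    obtain ⟨W, hW, h⟩ := hU s hs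
    obtain ⟨W', hW', h'⟩ := hU' s hs
    exact ⟨W ∩ W', hW.inter hW', fun p hp => by simp [h p hp, h' p hp]⟩
  isOpen_sUnion := fun S hS s hs => by
    choose! W hW h using fun U (hU : U ∈ S) => hS U hU s hs
    refine ⟨⋃ U ∈ S, W U, isOpen_biUnion hW, fun p hp => ?_⟩
    simp only [mem_sUnion, mem_iUnion, exists_prop]
    exact exists_congr fun U => and_congr_right fun hU => h U hU p hp

end Vale.Agent.P210
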