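import Vale.Agent.P210.Base

/-! The Riemannian distance of `(Ω, e^{2φ}|dx|²)`.

Hints. The integrand of `Joins.arc` is `exp (φ (γ t)) * ‖deriv γ t‖` (`EuclideanSpace.norm_eq`).
`rdist_comm`: reverse an arc by `t ↦ γ (-t)` on `Icc (-b) (-a)` (`deriv_comp_neg`,
`lintegral_neg_eq_self`). `rdist_lower`: take a smooth bump `u` at `x` supported in a small ball,
scaled so that `‖fderiv u‖ ≤ exp φ` on `Ω`; then `ofReal (u y - u z) ≤ l` for `Joins y z l`
(induction; for arcs `intervalIntegral.integral_eq_sub_of_hasDerivAt_of_le` or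
`sub_le_integral_of_hasDeriv_right_of_le`). `joins_split`: intermediate value theorem on arcs, cases
for `trans`. `rdist_proper` (Hopf-Rinow): let `r` be the supremum of the radii whose closed balls
lie in a compact subset of `Ω`; with `joins_split` for `F = min (rdist o ·) R` the ball of radius
`s + δ` lies in the `2δ`-neighbourhood of the ball of radius `s`; on the subtype `Ω` with the
`PseudoEMetricSpace` given by `rdist` (same topology by `rdist_le_near`, `rdist_lower`;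
complete) the ball of radius `r` is totally bounded and closed, so compact, and a small
neighbourhood of a compact set is precompact. `rdist_le_lam`: if the integral is finite, the set of
`t` with `segment x (x + t • (y - x)) ⊆ Ω` is open, and closed by `rdist_proper`. -/

open Set Filter Topology MeasureTheory Metric
open scoped ENNReal NNReal

noncomputable section

namespace Vale.Agent.P210

variable {n : ℕ} {Ω : Set (E n)} {φ : E n → ℝ} {x y z : E n}

theorem dist_sqrt (φ : E n → ℝ) (x v : E n) :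
    √(∑ i, ∑ j, conf φ x i j * v i * v j) = Real.exp (φ x) * ‖v‖ := by
  have h : ∑ i, ∑ j, conf φ x i j * v i * v j = Real.exp (φ x) ^ 2 * ∑ i, ‖v i‖ ^ 2 := by
    rw [Finset.mul_sum]
    refine Finset.sum_congr rfl fun i _ => ?_
    rw [Finset.sum_eq_single i (fun j _ hj => by simp [conf, Matrix.one_apply_ne' hj]) (by simp),
      ← Real.exp_nat_mul, Real.norm_eq_abs, sq_abs]
    simp [conf, sq, mul_assoc]
  rw [h, Real.sqrt_mul (sq_nonneg _), Real.sqrt_sq (Real.exp_pos _).le, EuclideanSpace.norm_eq]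

/-- length of an arc. -/
def distLen (φ : E n → ℝ) (γ : ℝ → E n) (a b : ℝ) : ℝ≥0∞ :=
  ∫⁻ t in Icc a b, ENNReal.ofReal (Real.exp (φ (γ t)) * ‖deriv γ t‖)

theorem dist_arc {γ : ℝ → E n} {a b : ℝ} (hab : a ≤ b) (hγ : ContDiffOn ℝ 1 γ (Icc a b))
    (hΩ : MapsTo γ (Icc a b) Ω) : Joins Ω (conf φ) (γ a) (γ b) (distLen φ γ a b) := by
  have h := Joins.arc (g := conf φ) γ a b hab hγ hΩ
  simp only [dist_sqrt] at h
  exact h

theorem dist_ind {P : E n → E n → ℝ≥0∞ → Prop}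
    (h1 : ∀ (γ : ℝ → E n) (a b : ℝ), a ≤ b → ContDiffOn ℝ 1 γ (Icc a b) → MapsTo γ (Icc a b) Ω →
      P (γ a) (γ b) (distLen φ γ a b))
    (h2 : ∀ x y z l l', Joins Ω (conf φ) x y l → Joins Ω (conf φ) y z l' → P x y l → P y z l' →
      P x z (l + l')) {l : ℝ≥0∞} (h : Joins Ω (conf φ) x y l) : P x y l := by
  induction h with
  | arc γ a b hab hγ hΩ =>
    simp only [dist_sqrt]
    exact h1 γ a b hab hγ hΩ
  | trans ha hb iha ihb => exact h2 _ _ _ _ _ ha hb iha ihb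

theorem dist_symm {l : ℝ≥0∞} (h : Joins Ω (conf φ) x y l) : Joins Ω (conf φ) y x l := by
  refine dist_ind (P := fun x y l => Joins Ω (conf φ) y x l) (fun γ a b hab hγ hΩ => ?_)
    (fun _ _ _ l l' _ _ ha hb => add_comm l l' ▸ hb.trans ha) h
  have hm : MapsTo (fun t : ℝ => -t) (Icc (-b) (-a)) (Icc a b) := fun t ht =>
    ⟨le_neg.1 ht.2, neg_le.1 ht.1⟩
  have h1 := dist_arc (φ := φ) (γ := fun t => γ (-t)) (neg_le_neg hab)
    (hγ.comp contDiff_neg.contDiffOn hm) (hΩ.comp hm)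
  have h2 : distLen φ (fun t => γ (-t)) (-b) (-a) = distLen φ γ a b := by
    have h3 := (Measure.measurePreserving_neg (volume : Measure ℝ)).setLIntegral_comp_preimage_emb
      measurableEmbedding_neg (fun t => ENNReal.ofReal (Real.exp (φ (γ t)) * ‖deriv γ t‖)) (Icc a b)
    rw [show (Neg.neg ⁻¹' Icc a b : Set ℝ) = Icc (-b) (-a) from neg_Icc a b] at h3
    simp only [distLen, deriv_comp_neg, norm_neg]
    exact h3
  simpa only [neg_neg, h2] using h1

theorem dist_mem {l : ℝ≥0∞} (h : Joins Ω (conf φ) x y l) : y ∈ Ω :=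
  dist_ind (P := fun _ y _ => y ∈ Ω) (fun _ _ _ hab _ hΩ => hΩ (right_mem_Icc.2 hab))
    (fun _ _ _ _ _ _ _ _ hb => hb) h

theorem dist_le {l : ℝ≥0∞} (h : Joins Ω (conf φ) x y l) : rdist Ω (conf φ) x y ≤ l := sInf_le h

theorem rdist_comm (Ω : Set (E n)) (φ : E n → ℝ) (x y : E n) :
    rdist Ω (conf φ) x y = rdist Ω (conf φ) y x :=
  congrArg sInf (Set.ext fun _ => ⟨dist_symm, dist_symm⟩)

theorem rdist_triangle (Ω : Set (E n)) (φ : E n → ℝ) (x y z : E n) :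
    rdist Ω (conf φ) x z ≤ rdist Ω (conf φ) x y + rdist Ω (conf φ) y z := by
  rw [rdist.eq_1 Ω _ x y, rdist.eq_1 Ω _ y z, sInf_eq_iInf, sInf_eq_iInf]
  exact ENNReal.le_iInf₂_add_iInf₂ fun _ h _ h' => dist_le (Joins.trans h h')

theorem rdist_eq_top (hy : y ∉ Ω) (x : E n) : rdist Ω (conf φ) x y = ⊤ :=
  sInf_eq_top.2 fun _ h => absurd (dist_mem h) hy

theorem dist_seg {s : ℝ} (hs : 0 ≤ s) (h : ∀ t ∈ Icc 0 s, x + t • (y - x) ∈ Ω) :
    rdist Ω (conf φ) x (x + s • (y - x)) ≤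
      ∫⁻ t in Icc (0 : ℝ) s, lam Ω φ (x + t • (y - x)) * ENNReal.ofReal ‖y - x‖ := by
  have h1 := dist_le (dist_arc (φ := φ) (γ := fun t : ℝ => x + t • (y - x)) hs (by fun_prop) h)
  rw [zero_smul, add_zero] at h1
  refine h1.trans_eq (setLIntegral_congr_fun measurableSet_Icc fun t ht => ?_)
  have h2 : HasDerivAt (fun t : ℝ => x + t • (y - x)) (y - x) t := by
    simpa using ((hasDerivAt_id t).smul_const (y - x)).const_add x
  simp only [h2.deriv, lam, indicator_of_mem (h t ht), ENNReal.ofReal_mul (Real.exp_pos _).le]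

theorem rdist_le_seg (h : segment ℝ x y ⊆ Ω) : rdist Ω (conf φ) x y ≤
    ∫⁻ t in Icc (0 : ℝ) 1, lam Ω φ (x + t • (y - x)) * ENNReal.ofReal ‖y - x‖ := by
  have h1 := dist_seg (φ := φ) zero_le_one fun t ht =>
    h ((segment_eq_image' ℝ x y).ge (mem_image_of_mem _ ht))
  rwa [one_smul, add_sub_cancel] at h1

theorem dist_self (hx : x ∈ Ω) : rdist Ω (conf φ) x x = 0 := by
  simpa using rdist_le_seg (φ := φ) (x := x) (y := x) (by simpa using hx)

theorem rdist_le_near (hΩ : IsOpen Ω) (hφ : ContinuousOn φ Ω) (hx : x ∈ Ω) {c : ℝ}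
    (hc : Real.exp (φ x) < c) : ∃ r > 0, ∀ y ∈ ball x r, ∀ z ∈ ball x r,
      rdist Ω (conf φ) y z ≤ ENNReal.ofReal (c * dist y z) := by
  have h1 := (hφ.continuousAt (hΩ.mem_nhds hx)).rexp.eventually_lt continuousAt_const hc
  obtain ⟨r, hr, h2⟩ := Metric.eventually_nhds_iff_ball.1 (h1.and (hΩ.mem_nhds hx))
  refine ⟨r, hr, fun y hy z hz => ?_⟩
  have h3 := (convex_ball x r).segment_subset hy hz
  refine (rdist_le_seg fun w hw => (h2 w (h3 hw)).2).trans ((setLIntegral_mono' measurableSet_Icc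
    (g := fun _ => ENNReal.ofReal (c * dist y z)) fun t ht => ?_).trans (by simp))
  have h4 := h2 _ (h3 ((segment_eq_image' ℝ y z).ge (mem_image_of_mem _ ht)))
  rw [lam, indicator_of_mem h4.2, ← ENNReal.ofReal_mul (Real.exp_pos _).le, dist_comm, dist_eq_norm]
  exact ENNReal.ofReal_le_ofReal (mul_le_mul_of_nonneg_right h4.1.le (norm_nonneg _))

theorem dist_tendsto (hΩ : IsOpen Ω) (hφ : ContinuousOn φ Ω) (hx : x ∈ Ω) :
    Tendsto (rdist Ω (conf φ) x) (𝓝 x) (𝓝 0) := by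
  obtain ⟨r, hr, h⟩ := rdist_le_near hΩ hφ hx (lt_add_one _)
  have h1 : Continuous fun z => ENNReal.ofReal ((Real.exp (φ x) + 1) * dist x z) :=
    ENNReal.continuous_ofReal.comp (by fun_prop)
  refine tendsto_of_tendsto_of_tendsto_of_le_of_le' tendsto_const_nhds
    (by simpa using h1.tendsto x) (Eventually.of_forall fun _ => bot_le) ?_
  filter_upwards [ball_mem_nhds x hr] with z hz using h x (mem_ball_self hr) z hz

theorem dist_upper (hΩ : IsOpen Ω) (hφ : ContinuousOn φ Ω) (o : E n) {a : ℝ≥0∞}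
    (h : rdist Ω (conf φ) o x < a) : ∀ᶠ z in 𝓝 x, rdist Ω (conf φ) o z < a := by
  have hx : x ∈ Ω := by_contra fun hx => not_top_lt (rdist_eq_top hx o ▸ h)
  have h1 := (dist_tendsto hΩ hφ hx).const_add (rdist Ω (conf φ) o x)
  rw [add_zero] at h1
  filter_upwards [h1.eventually (gt_mem_nhds h)] with z hz using (rdist_triangle Ω φ o x z).trans_lt hz

theorem dist_cont (hΩ : IsOpen Ω) (hφ : ContinuousOn φ Ω) (o : E n) :
    ContinuousOn (rdist Ω (conf φ) o) Ω := fun x hx => by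
  refine ContinuousAt.continuousWithinAt (tendsto_order.2 ⟨fun a ha => ?_,
    fun a ha => dist_upper hΩ hφ o ha⟩)
  have h1 := (dist_tendsto hΩ hφ hx).const_add a
  rw [add_zero] at h1
  filter_upwards [h1.eventually (gt_mem_nhds ha)] with z hz
  refine lt_of_not_ge fun h => hz.not_ge ((rdist_triangle Ω φ o z x).trans ?_)
  rw [rdist_comm Ω φ z x]
  exact add_le_add h le_rfl

theorem rdist_ne_top (hΩ : IsOpen Ω) (hφ : ContinuousOn φ Ω) (hc : IsPreconnected Ω) (hx : x ∈ Ω)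
    (hy : y ∈ Ω) : rdist Ω (conf φ) x y ≠ ⊤ := by
  refine hc.induction₂' (fun a b => rdist Ω (conf φ) a b ≠ ⊤) (fun a ha => ?_)
    (fun a b c _ _ _ h h' => ne_top_of_le_ne_top (ENNReal.add_ne_top.2 ⟨h, h'⟩)
      (rdist_triangle Ω φ a b c)) hx hy
  filter_upwards [mem_nhdsWithin_of_mem_nhds ((dist_tendsto hΩ hφ ha).eventually
    (gt_mem_nhds ENNReal.zero_lt_top))] with b hb
  exact ⟨ne_of_lt hb, rdist_comm Ω φ a b ▸ ne_of_lt hb⟩

theorem measurable_rdist (hΩ : IsOpen Ω) (hφ : ContinuousOn φ Ω) (x : E n) :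
    Measurable (rdist Ω (conf φ) x) :=
  measurable_of_Iio fun _ =>
    (isOpen_iff_mem_nhds.2 fun _ hz => dist_upper hΩ hφ x hz).measurableSet

theorem dist_exit {m ρ : ℝ} (hm : 0 ≤ m) (h : ∀ w ∈ ball x ρ, m ≤ Real.exp (φ w)) {l : ℝ≥0∞}
    (hj : Joins Ω (conf φ) y z l) :
    ENNReal.ofReal (m * (min (dist z x) ρ - min (dist y x) ρ)) ≤ l := by
  refine dist_ind (P := fun y z l => ENNReal.ofReal (m * (min (dist z x) ρ - min (dist y x) ρ)) ≤ l)
    (fun γ a b hab hγ _ => ?_) (fun y w z l l' _ _ ha hb => ?_) hj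
  · obtain ⟨s, hs, h1, h2⟩ : ∃ s ∈ Icc a b, (∀ t ∈ Ico a s, γ t ∈ ball x ρ) ∧
        min (dist (γ b) x) ρ ≤ dist (γ s) x := by
      rcases (Icc a b ∩ (fun t => dist (γ t) x) ⁻¹' Ici ρ).eq_empty_or_nonempty with he | he
      · refine ⟨b, right_mem_Icc.2 hab, fun t ht => mem_ball.2 (not_le.1 fun h3 => ?_),
          min_le_left _ _⟩
        exact (he ▸ mem_inter (Ico_subset_Icc_self ht) h3 : t ∈ (∅ : Set ℝ))
      · have h3 := ((continuous_id.dist continuous_const : Continuous fun w => dist w x).comp_continuousOn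
          hγ.continuousOn).preimage_isClosed_of_isClosed isClosed_Icc (isClosed_Ici (a := ρ))
        obtain ⟨s, hs⟩ := (isCompact_Icc.of_isClosed_subset h3 inter_subset_left).exists_isLeast he
        exact ⟨s, hs.1.1, fun t ht => mem_ball.2 (not_le.1 fun h4 => ht.2.not_ge
          (hs.2 ⟨⟨ht.1, ht.2.le.trans hs.1.1.2⟩, h4⟩)), (min_le_right _ _).trans hs.1.2⟩
    rcases le_total ρ (dist (γ a) x) with h3 | h3
    · rw [min_eq_right h3, ENNReal.ofReal_of_nonpos (mul_nonpos_of_nonneg_of_nonpos hm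
        (sub_nonpos.2 (min_le_right _ _)))]
      exact bot_le
    have h4 := enorm_sub_le_lintegral_deriv_of_contDiffOn_Icc (hγ.mono (Icc_subset_Icc_right hs.2)) hs.1
    have h5 : min (dist (γ b) x) ρ - min (dist (γ a) x) ρ ≤ ‖γ s - γ a‖ := by
      rw [min_eq_left h3, ← dist_eq_norm]
      linarith [dist_triangle (γ s) (γ a) x]
    refine (ENNReal.ofReal_le_ofReal (mul_le_mul_of_nonneg_left h5 hm)).trans ?_
    rw [ENNReal.ofReal_mul hm, ofReal_norm]
    refine (mul_le_mul_right h4 _).trans ?_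
    rw [← lintegral_const_mul' _ _ ENNReal.ofReal_ne_top, ← setLIntegral_congr Ico_ae_eq_Icc]
    refine (setLIntegral_mono' measurableSet_Ico fun t ht => ?_).trans
      (lintegral_mono_set (Ico_subset_Icc_self.trans (Icc_subset_Icc_right hs.2)))
    rw [ENNReal.ofReal_mul (Real.exp_pos _).le, ofReal_norm]
    exact mul_le_mul_left (ENNReal.ofReal_le_ofReal (h _ (h1 t ht))) _
  · refine le_trans (le_of_eq_of_le (congrArg ENNReal.ofReal (by ring)) ENNReal.ofReal_add_le)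
      (add_le_add ha hb)

theorem dist_lower (hΩ : IsOpen Ω) (hφ : ContinuousOn φ Ω) (hx : x ∈ Ω) {r : ℝ} (hr : 0 < r) :
    ∃ κ : ℝ, 0 < κ ∧ ∀ y, rdist Ω (conf φ) x y < ENNReal.ofReal κ → y ∈ ball x r := by
  have h1 := continuousAt_const.eventually_lt (hφ.continuousAt (hΩ.mem_nhds hx)).rexp
    (half_lt_self (Real.exp_pos (φ x)))
  obtain ⟨ρ, hρ, h2⟩ := Metric.eventually_nhds_iff_ball.1 h1
  have hm := half_pos (Real.exp_pos (φ x))
  refine ⟨Real.exp (φ x) / 2 * min ρ r, mul_pos hm (lt_min hρ hr), fun y hy => ?_⟩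
  obtain ⟨l, hl, h3⟩ := sInf_lt_iff.1 hy
  have h4 := dist_exit (ρ := min ρ r) hm.le
    (fun w hw => (h2 w (ball_subset_ball (min_le_left _ _) hw)).le) hl
  refine mem_ball.2 (not_le.1 fun h5 => h3.not_ge ?_)
  rwa [min_eq_right ((min_le_right _ _).trans h5), _root_.dist_self,
    min_eq_left (lt_min hρ hr).le, sub_zero] at h4

theorem rdist_lower (hΩ : IsOpen Ω) (hφ : ContinuousOn φ Ω) (hx : x ∈ Ω) {r : ℝ} (hr : 0 < r) :
    ∃ κ : ℝ≥0∞, 0 < κ ∧ ∀ y, rdist Ω (conf φ) x y < κ → y ∈ ball x r := by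
  obtain ⟨κ, h1, h2⟩ := dist_lower hΩ hφ hx hr
  exact ⟨_, ENNReal.ofReal_pos.2 h1, h2⟩

theorem joins_split {l : ℝ≥0∞} (h : Joins Ω (conf φ) x y l) {F : E n → ℝ} (hF : ContinuousOn F Ω)
    {r : ℝ} (h1 : F x ≤ r) (h2 : r ≤ F y) : ∃ z l1 l2, F z = r ∧ Joins Ω (conf φ) x z l1 ∧
      Joins Ω (conf φ) z y l2 ∧ l1 + l2 = l := by
  refine dist_ind (P := fun x y l => F x ≤ r → r ≤ F y → ∃ z l1 l2, F z = r ∧
    Joins Ω (conf φ) x z l1 ∧ Joins Ω (conf φ) z y l2 ∧ l1 + l2 = l)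
    (fun γ a b hab hγ hΩ h1 h2 => ?_) (fun x w y l l' ja jb ha hb h1 h2 => ?_) h h1 h2
  · obtain ⟨t, ht, h3⟩ := intermediate_value_Icc hab (hF.comp hγ.continuousOn hΩ) ⟨h1, h2⟩
    refine ⟨γ t, _, _, h3, dist_arc ht.1 (hγ.mono (Icc_subset_Icc_right ht.2))
      (hΩ.mono_left (Icc_subset_Icc_right ht.2)), dist_arc ht.2 (hγ.mono (Icc_subset_Icc_left ht.1))
      (hΩ.mono_left (Icc_subset_Icc_left ht.1)), ?_⟩
    rw [distLen, distLen, distLen, ← setLIntegral_congr (Ioc_ae_eq_Icc (a := t)),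
      ← lintegral_union measurableSet_Ioc (disjoint_left.2 fun s h h' => h'.1.not_ge h.2),
      Icc_union_Ioc_eq_Icc ht.1 ht.2]
  · rcases le_total r (F w) with h3 | h3
    · obtain ⟨z, l1, l2, e, j1, j2, rfl⟩ := ha h1 h3
      exact ⟨z, l1, l2 + l', e, j1, j2.trans jb, (add_assoc _ _ _).symm⟩
    · obtain ⟨z, l1, l2, e, j1, j2, rfl⟩ := hb h3 h2
      exact ⟨z, l + l1, l2, e, ja.trans j1, j2, add_assoc _ _ _⟩

theorem dist_step (hΩ : IsOpen Ω) (hφ : ContinuousOn φ Ω) {o : E n} (ho : o ∈ Ω) {s δ : ℝ}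
    (hδ : 0 < δ) (h : rdist Ω (conf φ) o x < ENNReal.ofReal (s + δ)) :
    ∃ z, rdist Ω (conf φ) o z ≤ ENNReal.ofReal s ∧ rdist Ω (conf φ) z x < ENNReal.ofReal δ := by
  rcases le_total s 0 with hs | hs
  · exact ⟨o, (dist_self ho).trans_le bot_le, h.trans_le (ENNReal.ofReal_le_ofReal (by linarith))⟩
  obtain ⟨l, hl, h1⟩ := sInf_lt_iff.1 h
  rcases le_total (rdist Ω (conf φ) o x) (ENNReal.ofReal s) with h2 | h2
  · exact ⟨x, h2, (dist_self (dist_mem hl)).trans_lt (ENNReal.ofReal_pos.2 hδ)⟩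
  have ht : ENNReal.ofReal (s + δ) ≠ ⊤ := ENNReal.ofReal_ne_top
  obtain ⟨z, l1, l2, e, j1, j2, rfl⟩ := joins_split hl (r := s)
    ((ENNReal.continuous_truncateToReal ht).comp_continuousOn (dist_cont hΩ hφ o))
    (by simpa [dist_self ho, ENNReal.truncateToReal] using hs) (by
      rw [Function.comp_apply, ENNReal.truncateToReal_eq_toReal ht h.le]
      exact (ENNReal.ofReal_le_iff_le_toReal h.ne_top).1 h2)
  have h3 : rdist Ω (conf φ) o z < ENNReal.ofReal (s + δ) :=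
    ((dist_le j1).trans le_self_add).trans_lt h1
  rw [Function.comp_apply, ENNReal.truncateToReal_eq_toReal ht h3.le] at e
  have h4 : rdist Ω (conf φ) o z = ENNReal.ofReal s := by rw [← e, ENNReal.ofReal_toReal h3.ne_top]
  refine ⟨z, h4.le, (dist_le j2).trans_lt ?_⟩
  rw [ENNReal.ofReal_add hs hδ.le] at h1
  exact lt_of_add_lt_add_left ((add_le_add (h4.ge.trans (dist_le j1)) le_rfl).trans_lt h1)

theorem dist_thick (hΩ : IsOpen Ω) (hφ : ContinuousOn φ Ω) {K : Set (E n)} (hK : IsCompact K)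
    (hKΩ : K ⊆ Ω) : ∃ δ : ℝ, 0 < δ ∧ ∃ K', IsCompact K' ∧ K' ⊆ Ω ∧
      ∀ z ∈ K, ∀ y, rdist Ω (conf φ) z y < ENNReal.ofReal δ → y ∈ K' := by
  refine hK.induction_on (p := fun K => ∃ δ : ℝ, 0 < δ ∧ ∃ K', IsCompact K' ∧ K' ⊆ Ω ∧
    ∀ z ∈ K, ∀ y, rdist Ω (conf φ) z y < ENNReal.ofReal δ → y ∈ K')
    ⟨1, one_pos, ∅, isCompact_empty, empty_subset _, fun _ h => h.elim⟩
    (fun s t hst ⟨δ, h1, K', h2, h3, h4⟩ => ⟨δ, h1, K', h2, h3, fun z hz => h4 z (hst hz)⟩)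
    (fun s t ⟨δ, h1, K', h2, h3, h4⟩ ⟨ε, e1, L, e2, e3, e4⟩ => ⟨min δ ε, lt_min h1 e1, K' ∪ L,
      h2.union e2, union_subset h3 e3, fun z hz y hy => hz.imp
        (fun hz => h4 z hz y (hy.trans_le (ENNReal.ofReal_le_ofReal (min_le_left _ _))))
        fun hz => e4 z hz y (hy.trans_le (ENNReal.ofReal_le_ofReal (min_le_right _ _)))⟩)
    fun x hx => ?_
  obtain ⟨ρ, hρ, h1⟩ := nhds_basis_closedBall.mem_iff.1 (hΩ.mem_nhds (hKΩ hx))
  obtain ⟨κ, hκ, h2⟩ := dist_lower hΩ hφ (hKΩ hx) hρ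
  refine ⟨_, mem_nhdsWithin_of_mem_nhds ((dist_tendsto hΩ hφ (hKΩ hx)).eventually
    (gt_mem_nhds (ENNReal.ofReal_pos.2 (half_pos hκ)))), κ / 2, half_pos hκ, closedBall x ρ,
    isCompact_closedBall x ρ, h1, fun z hz y hy => ball_subset_closedBall (h2 y ?_)⟩
  rw [← add_halves κ, ENNReal.ofReal_add (half_pos hκ).le (half_pos hκ).le]
  exact (rdist_triangle Ω φ x z y).trans_lt (ENNReal.add_lt_add hz hy)

/-- points of the domain. -/
structure DistPt (Ω : Set (E n)) where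
  val : E n
  mem : val ∈ Ω

theorem dist_limit (hΩ : IsOpen Ω) (hφ : ContinuousOn φ Ω) (hc : IsCompleteMetric Ω (conf φ))
    {o : E n} (ho : o ∈ Ω) {R : ℝ} (h : ∀ s < R, ∃ K, IsCompact K ∧ K ⊆ Ω ∧
      ∀ x, rdist Ω (conf φ) o x ≤ ENNReal.ofReal s → x ∈ K) :
    ∃ K, IsCompact K ∧ K ⊆ Ω ∧ ∀ x, rdist Ω (conf φ) o x ≤ ENNReal.ofReal R → x ∈ K := by
  let _ : PseudoEMetricSpace (DistPt Ω) :=
    { edist := fun a b => rdist Ω (conf φ) a.val b.val
      edist_self := fun a => dist_self a.mem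
      edist_comm := fun a b => rdist_comm Ω φ _ _
      edist_triangle := fun a b c => rdist_triangle Ω φ _ _ _ }
  have : CompleteSpace (DistPt Ω) := EMetric.complete_of_cauchySeq_tendsto fun u hu => by
    obtain ⟨x, hx, h1⟩ := hc (fun k => (u k).val) (fun k => (u k).mem) fun ε hε =>
      (EMetric.cauchySeq_iff.1 hu ε hε).imp fun N hN i hi j hj => hN i hi j hj
    exact ⟨⟨x, hx⟩, tendsto_iff_edist_tendsto_0.2 h1⟩
  have hv : Continuous (DistPt.val : DistPt Ω → E n) := continuous_iff_continuousAt.2 fun a =>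
    Metric.tendsto_nhds.2 fun r hr => by
      obtain ⟨κ, hκ, h1⟩ := rdist_lower hΩ hφ a.mem hr
      filter_upwards [Metric.eball_mem_nhds a hκ] with b hb
      exact h1 b.val (rdist_comm Ω φ _ _ ▸ hb)
  have h1 : IsCompact {a : DistPt Ω | edist ⟨o, ho⟩ a ≤ ENNReal.ofReal R} := by
    refine TotallyBounded.isCompact_of_isClosed (EMetric.totallyBounded_iff.2 fun ε hε => ?_)
      (isClosed_le (continuous_const.edist continuous_id) continuous_const)
    obtain ⟨δ, -, h2, h3⟩ := ENNReal.lt_iff_exists_real_btwn.1 hε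
    have hδ : 0 < δ / 3 := div_pos (ENNReal.ofReal_pos.1 h2) three_pos
    rcases le_or_gt R 0 with hR | hR
    · refine ⟨{⟨o, ho⟩}, finite_singleton _, fun a ha => mem_iUnion₂.2 ⟨_, rfl, ?_⟩⟩
      rw [ENNReal.ofReal_of_nonpos hR] at ha
      rw [Metric.mem_eball, edist_comm]
      exact ha.trans_lt hε
    obtain ⟨K, k1, k2, k3⟩ := h (R - δ / 3) (by linarith)
    obtain ⟨t, t1, t2⟩ := k1.elim_nhds_subcover
      (fun x => {z | rdist Ω (conf φ) x z < ENNReal.ofReal (δ / 3)}) fun x hx =>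
        (dist_tendsto hΩ hφ (k2 hx)).eventually (gt_mem_nhds (ENNReal.ofReal_pos.2 hδ))
    refine ⟨DistPt.val ⁻¹' t, t.finite_toSet.preimage fun a _ b _ e => by
      cases a; cases b; cases e; rfl, fun a ha => ?_⟩
    obtain ⟨z, z1, z2⟩ := dist_step hΩ hφ ho (s := R - δ / 3) (δ := 2 * (δ / 3)) (x := a.val)
      (by linarith) (lt_of_le_of_lt ha ((ENNReal.ofReal_lt_ofReal_iff (by linarith)).2 (by linarith)))
    obtain ⟨x, x1, x2⟩ := mem_iUnion₂.1 (t2 (k3 z z1))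
    refine mem_iUnion₂.2 ⟨⟨x, k2 (t1 x x1)⟩, x1, ?_⟩
    rw [Metric.mem_eball, edist_comm]
    refine ((rdist_triangle Ω φ x z a.val).trans_lt (ENNReal.add_lt_add x2 z2)).trans_le ?_
    rw [← ENNReal.ofReal_add hδ.le (by linarith)]
    exact le_trans (ENNReal.ofReal_le_ofReal (by linarith)) h3.le
  refine ⟨_, h1.image hv, fun _ ⟨a, _, e⟩ => e ▸ a.mem, fun x hx => ⟨⟨x, by_contra fun h2 => ?_⟩, hx, rfl⟩⟩
  rw [rdist_eq_top h2] at hx
  exact ENNReal.ofReal_ne_top (top_le_iff.1 hx)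

theorem rdist_proper (hΩ : IsOpen Ω) (hφ : ContinuousOn φ Ω) (hc : IsCompleteMetric Ω (conf φ))
    (o : E n) (R : ℝ) :
    ∃ K, IsCompact K ∧ K ⊆ Ω ∧ ∀ x, rdist Ω (conf φ) o x ≤ ENNReal.ofReal R → x ∈ K := by
  by_cases ho : o ∈ Ω
  swap
  · refine ⟨∅, isCompact_empty, empty_subset _, fun x hx => ?_⟩
    rw [rdist_comm, rdist_eq_top ho] at hx
    exact ENNReal.ofReal_ne_top (top_le_iff.1 hx)
  by_contra hR
  let S : Set ℝ := {s | ¬ ∃ K, IsCompact K ∧ K ⊆ Ω ∧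
    ∀ x, rdist Ω (conf φ) o x ≤ ENNReal.ofReal s → x ∈ K}
  have hb : BddBelow S := ⟨0, fun s hs => not_lt.1 fun h => hs (by
    obtain ⟨δ, h1, K, h2, h3, h4⟩ := dist_thick hΩ hφ isCompact_singleton (singleton_subset_iff.2 ho)
    exact ⟨K, h2, h3, fun x hx => h4 o rfl x (hx.trans_lt
      ((ENNReal.ofReal_lt_ofReal_iff h1).2 (h.trans h1)))⟩)⟩
  obtain ⟨K, k1, k2, k3⟩ := dist_limit hΩ hφ hc ho (R := sInf S) fun s hs =>
    by_contra fun h => hs.not_ge (csInf_le hb h)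
  obtain ⟨δ, h1, K', h2, h3, h4⟩ := dist_thick hΩ hφ k1 k2
  obtain ⟨s, hs, h5⟩ := exists_lt_of_csInf_lt (⟨R, hR⟩ : S.Nonempty) (lt_add_of_pos_right _ h1)
  refine hs ⟨K' ∪ {o} ∪ K, (h2.union isCompact_singleton).union k1,
    union_subset (union_subset h3 (singleton_subset_iff.2 ho)) k2, fun x hx => ?_⟩
  have h6 : 0 ≤ sInf S := le_csInf ⟨R, hR⟩ fun s hs => not_lt.1 fun h => hs (by
    obtain ⟨δ, h1, K, h2, h3, h4⟩ := dist_thick hΩ hφ isCompact_singleton (singleton_subset_iff.2 ho)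
    exact ⟨K, h2, h3, fun x hx => h4 o rfl x (hx.trans_lt
      ((ENNReal.ofReal_lt_ofReal_iff h1).2 (h.trans h1)))⟩)
  obtain ⟨z, z1, z2⟩ := dist_step hΩ hφ ho h1
    (hx.trans_lt ((ENNReal.ofReal_lt_ofReal_iff (by linarith)).2 h5))
  exact Or.inl (Or.inl (h4 z (k3 z z1) x z2))

theorem rdist_le_lam (hΩ : IsOpen Ω) (hφ : ContinuousOn φ Ω) (hc : IsCompleteMetric Ω (conf φ))
    (o x y : E n) : rdist Ω (conf φ) o y ≤ rdist Ω (conf φ) o x +
      ∫⁻ t in Icc (0 : ℝ) 1, lam Ω φ (x + t • (y - x)) * ENNReal.ofReal ‖y - x‖ := by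
  refine le_of_forall_gt fun c hlt => ?_
  have hx : x ∈ Ω := by_contra fun h => not_top_lt (by rwa [rdist_eq_top h, top_add] at hlt)
  refine lt_of_le_of_lt ((rdist_triangle Ω φ o x y).trans (add_le_add le_rfl (rdist_le_seg ?_))) hlt
  obtain ⟨K, k1, k2, k3⟩ := rdist_proper hΩ hφ hc x
    (∫⁻ t in Icc (0 : ℝ) 1, lam Ω φ (x + t • (y - x)) * ENNReal.ofReal ‖y - x‖).toReal
  rw [ENNReal.ofReal_toReal (le_add_self.trans_lt hlt).ne_top] at k3
  rw [segment_eq_image']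
  rintro _ ⟨t, ht, rfl⟩
  by_contra h
  have hp : Continuous fun t : ℝ => x + t • (y - x) := by fun_prop
  obtain ⟨s, hs⟩ := (isCompact_Icc.inter_right (hΩ.isClosed_compl.preimage hp)).exists_isLeast
    ⟨t, ht, h⟩
  have h0 : 0 < s := hs.1.1.1.lt_of_ne fun e => hs.1.2 (by simpa [← e] using hx)
  refine hs.1.2 (k2 (k1.isClosed.mem_of_tendsto (hp.tendsto s |>.mono_left
    (nhdsWithin_le_nhds (s := Iio s))) ?_))
  filter_upwards [Ioo_mem_nhdsLT h0] with u hu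
  refine k3 _ ((dist_seg hu.1.le fun v hv => by_contra fun h1 => ?_).trans
    (lintegral_mono_set (Icc_subset_Icc_right (hu.2.le.trans hs.1.1.2))))
  exact (hv.2.trans_lt hu.2).not_ge (hs.2 ⟨⟨hv.1, hv.2.trans (hu.2.le.trans hs.1.1.2)⟩, h1⟩)

end Vale.Agent.P210
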