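import Vale.Agent.P210.MorA

/-! The Morrey bound for the conformal factor.

Hints. Put `p = n / 2 - 5 / 4 > 0`, `h = hw p M (φ z)`, `f = h * exp (2 φ z) ≤ M`,
`J x s = ∫⁻ z in ball x s, Ω.indicator (ofReal f)` (`measurable_indicator_comp`),
`clamp t = max 0 (min 1 t)`. Apply `cacc` to `Ψ = η * ψ`, `η z = clamp (3 - 2 * dist z x / s)`,
`ψ = Ω.indicator (clamp (2 - ε * d z))` (zero outside the compact set `K` given for `R = 2 / ε`;
Lipschitz by `lip_of_compact`). `‖fderiv Ψ z‖ ≤ 2 / s + ε * exp (φ z)` on `K`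
(`norm_fderiv_le_of_lip'`, `le_of_forall_gt_imp_ge_of_dense`-type limit in `c`) and `fderiv Ψ z = 0`
outside `closedBall x (3 s / 2)`. Let `ε = 1 / (j + 1) → 0` at fixed `M` (the error is at most
`16 n² ε² M vol`): `J x s ≤ 64 n² / s² * ∫⁻ ball x (2 s), h`. Since `h ≤ exp (p φ)`, for every `δ > 0`
`h ≤ δ * f + δ ^ (-p / 2)` (cases `1 ≤ δ * exp (2 φ)` or not). With `δ = θ s² / (64 n²)`,
`θ = 2 ^ (-n - 1)`: `J x s ≤ θ * J x (2 s) + C s ^ (n - q)`; iterate, using
`J x s ≤ M * vol (ball x s)` and `θ * 2 ^ n < 1`. Finally `M = j + 1 → ∞`, monotone convergence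
(`f ↑ exp (q φ)`). -/

open Set Filter Topology MeasureTheory Metric
open scoped ENNReal NNReal ContDiff

noncomputable section

namespace Vale.Agent.P210

theorem morB_fatou {X : Type*} [MeasurableSpace X] {μ : Measure X} {f : ℕ → X → ℝ≥0∞}
    {g : X → ℝ≥0∞} {b : ℕ → ℝ≥0∞} {B : ℝ≥0∞} (hf : ∀ j, Measurable (f j))
    (hg : ∀ᵐ z ∂μ, Tendsto (fun j => f j z) atTop (𝓝 (g z))) (hb : ∀ j, ∫⁻ z, f j z ∂μ ≤ b j)
    (hB : Tendsto b atTop (𝓝 B)) : ∫⁻ z, g z ∂μ ≤ B := by
  rw [lintegral_congr_ae (hg.mono fun z hz => hz.liminf_eq.symm), ← hB.liminf_eq]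
  exact (lintegral_liminf_le hf).trans (liminf_le_liminf (Eventually.of_forall hb))

/-- clamp to the unit interval -/
def morCl (t : ℝ) : ℝ := max 0 (min 1 t)

theorem morCl_nonneg (t : ℝ) : 0 ≤ morCl t := le_max_left _ _
theorem morCl_le (t : ℝ) : morCl t ≤ 1 := max_le zero_le_one (min_le_left _ _)
theorem morCl_zero {t : ℝ} (h : t ≤ 0) : morCl t = 0 := max_eq_left ((min_le_right _ _).trans h)
theorem morCl_one {t : ℝ} (h : 1 ≤ t) : morCl t = 1 := by
  rw [morCl, min_eq_left h, max_eq_right zero_le_one]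
theorem morCl_lip (a b : ℝ) : |morCl a - morCl b| ≤ |a - b| := by
  have h1 := le_abs_self (a - b)
  have h2 := neg_abs_le (a - b)
  have h3 := abs_nonneg (a - b)
  simp only [morCl, max_def, min_def]
  rw [abs_le]
  split_ifs <;> constructor <;> linarith

theorem morCl_mul (a b a' b' : ℝ) :
    |morCl a * morCl b - morCl a' * morCl b'| ≤ |a - a'| + |b - b'| := by
  have e : morCl a * morCl b - morCl a' * morCl b'
      = (morCl a - morCl a') * morCl b + morCl a' * (morCl b - morCl b') := by ring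
  rw [e]
  refine (abs_add_le _ _).trans (add_le_add ?_ ?_)
  · rw [abs_mul, abs_of_nonneg (morCl_nonneg b)]
    exact (mul_le_of_le_one_right (abs_nonneg _) (morCl_le b)).trans (morCl_lip _ _)
  · rw [abs_mul, abs_of_nonneg (morCl_nonneg a')]
    exact (mul_le_of_le_one_left (abs_nonneg _) (morCl_le a')).trans (morCl_lip _ _)

theorem hw_mul_le (p : ℝ) {M : ℝ} (hM : 0 < M) (t : ℝ) : hw p M t * Real.exp (2 * t) ≤ M := by
  rw [hw, one_div, inv_mul_le_iff₀ (by positivity), add_mul, div_mul_cancel₀ _ hM.ne']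
  exact le_add_of_nonneg_left (by positivity)

theorem hw_split {p M δ : ℝ} (hp : 0 ≤ p) (hM : 0 < M) (hδ : 0 < δ) (t : ℝ) :
    hw p M t ≤ δ * (hw p M t * Real.exp (2 * t)) + δ⁻¹ ^ (p / 2) := by
  have h0 := hw_pos p hM t
  rcases le_total 1 (δ * Real.exp (2 * t)) with h | h
  · have h1 := mul_le_mul_of_nonneg_left h h0.le
    have : 0 ≤ δ⁻¹ ^ (p / 2) := by positivity
    linarith
  · have h1 : hw p M t ≤ Real.exp (2 * t) ^ (p / 2) := by
      rw [← Real.exp_mul, hw, one_div, show 2 * t * (p / 2) = -(-(p * t)) by ring,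
        Real.exp_neg (-(p * t))]
      exact inv_anti₀ (Real.exp_pos _) (le_add_of_nonneg_right (by positivity))
    have h2 : Real.exp (2 * t) ≤ δ⁻¹ := by
      rw [← one_div, le_div_iff₀ hδ, mul_comm]; exact h
    have h3 := Real.rpow_le_rpow (by positivity) h2 (show 0 ≤ p / 2 by positivity)
    have : 0 ≤ δ * (hw p M t * Real.exp (2 * t)) := by positivity
    linarith

theorem hw_tendsto (p t : ℝ) : Tendsto (fun j : ℕ => hw p (j + 1) t * Real.exp (2 * t)) atTop
    (𝓝 (Real.exp t ^ (p + 2))) := by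
  have h1 : Tendsto (fun j : ℕ => Real.exp (2 * t) / ((j : ℝ) + 1)) atTop (𝓝 0) :=
    tendsto_const_nhds.div_atTop (tendsto_natCast_atTop_atTop.atTop_add tendsto_const_nhds)
  have h2 := ((tendsto_const_nhds (x := (1 : ℝ))).div (h1.const_add (Real.exp (-(p * t))))
    (by positivity)).mul_const (Real.exp (2 * t))
  have e : 1 / (Real.exp (-(p * t)) + 0) * Real.exp (2 * t) = Real.exp t ^ (p + 2) := by
    rw [add_zero, Real.exp_neg, one_div, inv_inv, ← Real.exp_add, ← Real.exp_mul]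
    congr 1; ring
  rw [e] at h2
  exact h2

section
variable {n : ℕ} {Ω : Set (E n)} {φ d : E n → ℝ}

/-- truncated density -/
def morF (Ω : Set (E n)) (φ : E n → ℝ) (M : ℝ) : E n → ℝ≥0∞ :=
  Ω.indicator fun z => ENNReal.ofReal (hw (n / 2 - 5 / 4) M (φ z) * Real.exp (2 * φ z))

/-- truncated weight -/
def morH (Ω : Set (E n)) (φ : E n → ℝ) (M : ℝ) : E n → ℝ≥0∞ :=
  Ω.indicator fun z => ENNReal.ofReal (hw (n / 2 - 5 / 4) M (φ z))

theorem morF_meas (hΩ : IsOpen Ω) (hφ : ContinuousOn φ Ω) (M : ℝ) : Measurable (morF Ω φ M) :=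
  measurable_indicator_comp hΩ hφ
    (F := fun t => ENNReal.ofReal (hw (n / 2 - 5 / 4) M t * Real.exp (2 * t)))
    (by unfold hw; fun_prop)

theorem morH_meas (hΩ : IsOpen Ω) (hφ : ContinuousOn φ Ω) (M : ℝ) : Measurable (morH Ω φ M) :=
  measurable_indicator_comp hΩ hφ (F := fun t => ENNReal.ofReal (hw (n / 2 - 5 / 4) M t))
    (by unfold hw; fun_prop)

theorem morB_cut (hn : 3 ≤ n) (hΩ : IsOpen Ω) (hφ : ContDiffOn ℝ ∞ φ Ω)
    (hs : ∀ x ∈ Ω, 1 ≤ scal (conf φ) x)
    (hd : ∀ x ∈ Ω, ∀ c, Real.exp (φ x) < c → ∃ r > 0, ∀ y ∈ ball x r, ∀ z ∈ ball x r,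
      |d y - d z| ≤ c * dist y z)
    (hK : ∀ R, ∃ K, IsCompact K ∧ K ⊆ Ω ∧ ∀ x ∈ Ω, d x ≤ R → x ∈ K) {M : ℝ} (hM : 0 < M)
    (x : E n) {s ε : ℝ} (hs0 : 0 < s) (hε : 0 < ε) : ∃ Ψ : E n → ℝ, Continuous Ψ ∧
      (∀ z ∈ ball x s, z ∈ Ω → ε * d z ≤ 1 → Ψ z = 1) ∧
      ∫⁻ z, morF Ω φ M z * ENNReal.ofReal (Ψ z ^ 2) ≤
        ENNReal.ofReal (64 * n ^ 2 / s ^ 2) * (∫⁻ z in ball x (2 * s), morH Ω φ M z) +
          ENNReal.ofReal (16 * n ^ 2 * ε ^ 2 * M) * volume (ball x (2 * s)) := by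
  obtain ⟨K, hK1, hK2, hK3⟩ := hK (2 / ε)
  obtain ⟨Ψ, hΨ⟩ : ∃ Ψ : E n → ℝ, Ψ = Ω.indicator fun z =>
    morCl (3 - 2 * dist z x / s) * morCl (2 - ε * d z) := ⟨_, rfl⟩
  have h0 : ∀ z ∉ K, Ψ z = 0 := fun z hz => by
    rw [hΨ]
    refine indicator_apply_eq_zero.2 fun hzΩ => ?_
    have : 2 / ε < d z := not_le.1 fun h => hz (hK3 z hzΩ h)
    rw [div_lt_iff₀ hε] at this
    rw [morCl_zero (show 2 - ε * d z ≤ 0 by linarith), mul_zero]
  have loc : ∀ z ∈ Ω, ∀ c, Real.exp (φ z) < c → ∃ t ∈ 𝓝 z, ∀ y ∈ t, ∀ y' ∈ t,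
      |Ψ y - Ψ y'| ≤ (2 / s + ε * c) * dist y y' := fun z hz c hc => by
    obtain ⟨r, hr, h⟩ := hd z hz c hc
    refine ⟨ball z r ∩ Ω, inter_mem (ball_mem_nhds z hr) (hΩ.mem_nhds hz), fun y hy y' hy' => ?_⟩
    rw [hΨ, indicator_of_mem hy.2, indicator_of_mem hy'.2, add_mul]
    refine (morCl_mul _ _ _ _).trans (add_le_add ?_ ?_)
    · rw [show 3 - 2 * dist y x / s - (3 - 2 * dist y' x / s)
        = 2 / s * (dist y' x - dist y x) by ring, abs_mul, abs_of_pos (by positivity), dist_comm y y']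
      exact mul_le_mul_of_nonneg_left (abs_dist_sub_le _ _ _) (by positivity)
    · rw [show 2 - ε * d y - (2 - ε * d y') = ε * -(d y - d y') by ring, abs_mul, abs_of_pos hε,
        abs_neg, mul_assoc]
      exact mul_le_mul_of_nonneg_left (h y hy.1 y' hy'.1) hε.le
  have hz : ∀ z ∉ K, Ψ =ᶠ[𝓝 z] fun _ => 0 := fun z hz => by
    filter_upwards [hK1.isClosed.isOpen_compl.mem_nhds hz] with y hy using h0 y hy
  have hl : LocallyLipschitz Ψ := fun z => by
    by_cases hzK : z ∈ K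
    · obtain ⟨t, ht, h⟩ := loc z (hK2 hzK) _ (lt_add_one _)
      exact ⟨⟨2 / s + ε * (Real.exp (φ z) + 1), by positivity⟩, t, ht,
        LipschitzOnWith.of_dist_le_mul fun y hy y' hy' => h y hy y' hy'⟩
    · refine ⟨0, _, hz z hzK, LipschitzOnWith.of_dist_le_mul fun a ha b hb => ?_⟩
      rw [show Ψ a = 0 from ha, show Ψ b = 0 from hb]
      simp
  obtain ⟨C, hC⟩ := lip_of_compact hl hK1 h0
  have der : ∀ z ∈ Ω, ‖fderiv ℝ Ψ z‖ ≤ 2 / s + ε * Real.exp (φ z) := fun z hz => by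
    refine le_of_forall_pos_le_add fun η hη => ?_
    obtain ⟨t, ht, h⟩ := loc z hz (Real.exp (φ z) + η / ε) (lt_add_of_pos_right _ (by positivity))
    refine (norm_fderiv_le_of_lip' ℝ (by positivity)
      (C := 2 / s + ε * (Real.exp (φ z) + η / ε)) ?_).trans (le_of_eq ?_)
    · filter_upwards [ht] with y hy
      rw [← dist_eq_norm y z]
      exact h y hy z (mem_of_mem_nhds ht)
    · field_simp
      ring
  refine ⟨Ψ, hC.continuous, fun z hz hzΩ h1 => ?_, ?_⟩
  · have : dist z x / s < 1 := by rw [div_lt_one hs0]; exact hz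
    rw [hΨ, indicator_of_mem hzΩ, morCl_one (by rw [mul_div_assoc]; linarith),
      morCl_one (by linarith), one_mul]
  calc ∫⁻ z, morF Ω φ M z * ENNReal.ofReal (Ψ z ^ 2)
      ≤ ∫⁻ z in K, ENNReal.ofReal
          (hw (n / 2 - 5 / 4) M (φ z) * Real.exp (2 * φ z) * Ψ z ^ 2) := by
        rw [← lintegral_indicator hK1.measurableSet]
        refine lintegral_mono fun z => ?_
        by_cases hzK : z ∈ K
        · have := hw_pos (n / 2 - 5 / 4) hM (φ z)
          rw [indicator_of_mem hzK, morF, indicator_of_mem (hK2 hzK),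
            ← ENNReal.ofReal_mul (by positivity)]
        · simp [h0 z hzK]
    _ ≤ _ := cacc hn hΩ hφ hs hM hC hK1 hK2 h0
    _ ≤ ∫⁻ z in ball x (2 * s), (ENNReal.ofReal (64 * n ^ 2 / s ^ 2) * morH Ω φ M z +
          ENNReal.ofReal (16 * n ^ 2 * ε ^ 2 * M)) := by
        rw [← lintegral_indicator hK1.measurableSet, ← lintegral_indicator measurableSet_ball]
        refine lintegral_mono fun z => ?_
        by_cases hzK : z ∈ K
        swap
        · rw [indicator_of_notMem hzK]; exact zero_le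
        rw [indicator_of_mem hzK]
        by_cases hzB : z ∈ ball x (2 * s)
        · have h1 := hw_pos (n / 2 - 5 / 4) hM (φ z)
          rw [indicator_of_mem hzB, morH, indicator_of_mem (hK2 hzK),
            ← ENNReal.ofReal_mul (by positivity), ← ENNReal.ofReal_add (by positivity)
            (by positivity)]
          refine ENNReal.ofReal_le_ofReal ?_
          have h2 : ‖fderiv ℝ Ψ z‖ ^ 2 ≤ 8 / s ^ 2 + 2 * ε ^ 2 * Real.exp (2 * φ z) := by
            have h3 : ‖fderiv ℝ Ψ z‖ ^ 2 ≤ (2 / s + ε * Real.exp (φ z)) ^ 2 := by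
              gcongr; exact der z (hK2 hzK)
            have h4 := sq_nonneg (2 / s - ε * Real.exp (φ z))
            have h5 : Real.exp (2 * φ z) = Real.exp (φ z) ^ 2 := by
              rw [← Real.exp_nat_mul]; norm_num
            have h6 : 8 / s ^ 2 = 2 * (2 / s) ^ 2 := by ring
            rw [h5, h6]
            linarith
          have h3 := mul_le_mul_of_nonneg_left h2
            (show 0 ≤ 8 * n ^ 2 * hw (n / 2 - 5 / 4) M (φ z) by positivity)
          have h4 := mul_le_mul_of_nonneg_left (hw_mul_le (n / 2 - 5 / 4) hM (φ z))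
            (show 0 ≤ 16 * (n : ℝ) ^ 2 * ε ^ 2 by positivity)
          have h5 : 64 * n ^ 2 / s ^ 2 * hw (n / 2 - 5 / 4) M (φ z)
              = 8 * n ^ 2 * hw (n / 2 - 5 / 4) M (φ z) * (8 / s ^ 2) := by ring
          rw [h5]
          linarith
        · have e : Ψ =ᶠ[𝓝 z] fun _ => 0 := by
            have h1 : 3 * s / 2 < dist z x := by
              have : 2 * s ≤ dist z x := by simpa using hzB
              linarith
            filter_upwards [(isOpen_lt continuous_const (continuous_id.dist continuous_const)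
              ).mem_nhds h1] with y hy
            have h2 : 3 < 2 * dist y x / s := by
              rw [lt_div_iff₀ hs0]; have : 3 * s / 2 < dist y x := hy; linarith
            rw [hΨ]
            exact indicator_apply_eq_zero.2 fun _ => by
              rw [morCl_zero (by linarith), zero_mul]
          rw [e.fderiv_eq]
          simp
    _ = _ := by
        rw [lintegral_add_right _ measurable_const, setLIntegral_const,
          lintegral_const_mul' _ _ ENNReal.ofReal_ne_top]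

theorem morB_step (hn : 3 ≤ n) (hΩ : IsOpen Ω) (hφ : ContDiffOn ℝ ∞ φ Ω)
    (hs : ∀ x ∈ Ω, 1 ≤ scal (conf φ) x)
    (hd : ∀ x ∈ Ω, ∀ c, Real.exp (φ x) < c → ∃ r > 0, ∀ y ∈ ball x r, ∀ z ∈ ball x r,
      |d y - d z| ≤ c * dist y z)
    (hK : ∀ R, ∃ K, IsCompact K ∧ K ⊆ Ω ∧ ∀ x ∈ Ω, d x ≤ R → x ∈ K) {M : ℝ} (hM : 0 < M)
    (x : E n) {s : ℝ} (hs0 : 0 < s) : ∫⁻ z in ball x s, morF Ω φ M z ≤
      ENNReal.ofReal (64 * n ^ 2 / s ^ 2) * ∫⁻ z in ball x (2 * s), morH Ω φ M z := by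
  choose Ψ h1 h2 h3 using fun j : ℕ =>
    morB_cut hn hΩ hφ hs hd hK hM x hs0 (ε := 1 / ((j : ℝ) + 1)) (by positivity)
  have t0 : Tendsto (fun j : ℕ => 1 / ((j : ℝ) + 1)) atTop (𝓝 0) :=
    tendsto_one_div_add_atTop_nhds_zero_nat
  refine morB_fatou (f := fun j z => morF Ω φ M z * ENNReal.ofReal (Ψ j z ^ 2))
    (fun j => (morF_meas hΩ hφ.continuousOn M).mul (by have := h1 j; fun_prop)) ?_
    (fun j => (setLIntegral_le_lintegral _ _).trans (h3 j)) ?_
  · filter_upwards [ae_restrict_mem measurableSet_ball] with z hz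
    by_cases hzΩ : z ∈ Ω
    · have t1 := t0.mul_const (d z)
      rw [zero_mul] at t1
      refine tendsto_const_nhds.congr' ?_
      filter_upwards [t1.eventually (ge_mem_nhds one_pos)] with j hj
      simp [h2 j z hz hzΩ hj]
    · simp [morF, hzΩ]
  · have t1 := ENNReal.Tendsto.mul_const (b := volume (ball x (2 * s)))
      (ENNReal.tendsto_ofReal (((t0.pow 2).const_mul (16 * (n : ℝ) ^ 2)).mul_const M))
      (Or.inr measure_ball_lt_top.ne)
    simpa using t1.const_add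
      (ENNReal.ofReal (64 * n ^ 2 / s ^ 2) * ∫⁻ z in ball x (2 * s), morH Ω φ M z)

end

theorem morrey (n : ℕ) (hn : 3 ≤ n) : ∃ C : ℝ, 0 ≤ C ∧ ∀ (Ω : Set (E n)) (φ d : E n → ℝ),
    IsOpen Ω → ContDiffOn ℝ ∞ φ Ω → (∀ x ∈ Ω, 1 ≤ scal (conf φ) x) →
    (∀ x ∈ Ω, ∀ c, Real.exp (φ x) < c → ∃ r > 0, ∀ y ∈ ball x r, ∀ z ∈ ball x r,
      |d y - d z| ≤ c * dist y z) →
    (∀ R, ∃ K, IsCompact K ∧ K ⊆ Ω ∧ ∀ x ∈ Ω, d x ≤ R → x ∈ K) →
    ∀ x s, 0 < s → ∫⁻ z in ball x s, lam Ω φ z ^ (n / 2 + 3 / 4 : ℝ) ≤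
      ENNReal.ofReal (C * s ^ ((n : ℝ) - (n / 2 + 3 / 4))) := by
  obtain ⟨w, hw0, hv⟩ : ∃ w : ℝ, 0 < w ∧ ∀ (y : E n) (r : ℝ), 0 < r →
      volume (ball y r) = ENNReal.ofReal (r ^ n * w) := by
    refine ⟨(volume (ball (0 : E n) 1)).toReal, ENNReal.toReal_pos
      (measure_ball_pos _ _ one_pos).ne' measure_ball_lt_top.ne, fun y r hr => ?_⟩
    rw [Measure.addHaar_ball_of_pos _ _ hr, finrank_euclideanSpace_fin,
      ENNReal.ofReal_mul (by positivity), ENNReal.ofReal_toReal measure_ball_lt_top.ne]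
  have hn' : (3 : ℝ) ≤ n := by exact_mod_cast hn
  obtain ⟨p, hp⟩ : ∃ p : ℝ, p = n / 2 - 5 / 4 := ⟨_, rfl⟩
  have hp0 : 0 ≤ p := by linarith
  obtain ⟨θ, hθ0, hθ⟩ : ∃ θ : ℝ, 0 < θ ∧ θ * 2 ^ n = 1 / 2 :=
    ⟨1 / 2 / 2 ^ n, by positivity, by field_simp⟩
  obtain ⟨N, hN⟩ : ∃ N : ℝ, N = 64 * n ^ 2 := ⟨_, rfl⟩
  have hN0 : 0 < N := by rw [hN]; positivity
  obtain ⟨C, hC⟩ : ∃ C : ℝ, C = N * (N / θ) ^ (p / 2) * 2 ^ n * w := ⟨_, rfl⟩
  have hC0 : 0 ≤ C := by rw [hC]; positivity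
  refine ⟨2 * C, by positivity, fun Ω φ d hΩ hφ hs hd hK x => ?_⟩
  rw [show (n / 2 + 3 / 4 : ℝ) = p + 2 by rw [hp]; ring]
  have one : ∀ M, 0 < M → ∀ s, 0 < s → ∫⁻ z in ball x s, morF Ω φ M z ≤
      ENNReal.ofReal θ * (∫⁻ z in ball x (2 * s), morF Ω φ M z) +
        ENNReal.ofReal (C * s ^ (n - (p + 2))) := fun M hM s hs0 => by
    have hδ : 0 < θ * s ^ 2 / N := by positivity
    refine (morB_step hn hΩ hφ hs hd hK hM x hs0).trans ?_
    rw [← hN]
    calc ENNReal.ofReal (N / s ^ 2) * ∫⁻ z in ball x (2 * s), morH Ω φ M z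
        ≤ ENNReal.ofReal (N / s ^ 2) * ∫⁻ z in ball x (2 * s), (ENNReal.ofReal (θ * s ^ 2 / N) *
            morF Ω φ M z + ENNReal.ofReal ((θ * s ^ 2 / N)⁻¹ ^ (p / 2))) := by
          gcongr with z
          by_cases hz : z ∈ Ω
          · have := hw_pos p hM (φ z)
            rw [morH, morF, indicator_of_mem hz, indicator_of_mem hz, ← hp,
              ← ENNReal.ofReal_mul hδ.le, ← ENNReal.ofReal_add (by positivity) (by positivity)]
            exact ENNReal.ofReal_le_ofReal (hw_split hp0 hM hδ _)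
          · rw [morH, indicator_of_notMem hz]; exact zero_le
      _ = _ := by
          rw [lintegral_add_right _ measurable_const, setLIntegral_const,
            lintegral_const_mul' _ _ ENNReal.ofReal_ne_top, mul_add, ← mul_assoc,
            hv _ _ (by positivity), ← ENNReal.ofReal_mul (by positivity),
            ← ENNReal.ofReal_mul (by positivity), ← ENNReal.ofReal_mul (by positivity)]
          congr 2
          · congr 1; field_simp
          · have e1 : (θ * s ^ 2 / N)⁻¹ ^ (p / 2) = (N / θ) ^ (p / 2) * (s ^ p)⁻¹ := by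
              rw [show (θ * s ^ 2 / N)⁻¹ = N / θ * (s ^ 2)⁻¹ by field_simp,
                Real.mul_rpow (by positivity) (by positivity), Real.inv_rpow (by positivity),
                ← Real.rpow_natCast s 2, ← Real.rpow_mul hs0.le]
              congr 3; push_cast; ring
            have := Real.rpow_pos_of_pos hs0 p
            rw [e1, hC, Real.rpow_sub hs0, Real.rpow_add hs0, Real.rpow_natCast, Real.rpow_two,
              mul_pow]
            field_simp
  have iter : ∀ M, 0 < M → ∀ (k : ℕ) s, 0 < s → ∫⁻ z in ball x s, morF Ω φ M z ≤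
      ENNReal.ofReal ((1 / 2) ^ k * (M * w * s ^ n) + 2 * C * s ^ (n - (p + 2))) := by
    intro M hM k
    induction k with
    | zero =>
      intro s hs0
      refine (lintegral_mono (g := fun _ => ENNReal.ofReal M) fun z => ?_).trans ?_
      · exact indicator_le' (fun z _ => ENNReal.ofReal_le_ofReal (hw_mul_le _ hM _))
          (fun _ _ => zero_le) z
      · rw [setLIntegral_const, hv _ _ hs0, ← ENNReal.ofReal_mul hM.le]
        refine ENNReal.ofReal_le_ofReal ?_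
        have : 0 ≤ 2 * C * s ^ (n - (p + 2)) := by positivity
        linarith
    | succ k ih =>
      intro s hs0
      refine (one M hM s hs0).trans ((add_le_add_left (mul_le_mul_right
        (ih (2 * s) (by positivity)) _) _).trans ?_)
      rw [← ENNReal.ofReal_mul hθ0.le, ← ENNReal.ofReal_add (by positivity) (by positivity)]
      refine ENNReal.ofReal_le_ofReal ?_
      have e1 : (2 : ℝ) ^ (n - (p + 2)) ≤ 2 ^ n := by
        rw [← Real.rpow_natCast]
        exact Real.rpow_le_rpow_of_exponent_le one_le_two (by linarith)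
      have e2 := mul_le_mul_of_nonneg_left e1 (show 0 ≤ θ * (2 * C * s ^ (n - (p + 2))) by positivity)
      rw [Real.mul_rpow zero_le_two hs0.le, mul_pow, pow_succ]
      have e3 : θ * ((1 / 2) ^ k * (M * w * (2 ^ n * s ^ n)))
          = (1 / 2) ^ k * (θ * 2 ^ n) * (M * w * s ^ n) := by ring
      have e4 : θ * (2 * C * s ^ (n - (p + 2))) * 2 ^ n
          = (θ * 2 ^ n) * (2 * C * s ^ (n - (p + 2))) := by ring
      rw [e4, hθ] at e2
      rw [mul_add, e3, hθ]
      linarith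
  intro s hs0
  have lim : ∀ M, 0 < M → ∫⁻ z in ball x s, morF Ω φ M z ≤
      ENNReal.ofReal (2 * C * s ^ (n - (p + 2))) := fun M hM => by
    have t := ENNReal.tendsto_ofReal (((tendsto_pow_atTop_nhds_zero_of_lt_one
      (r := (1 / 2 : ℝ)) (by norm_num) (by norm_num)).mul_const (M * w * s ^ n)).add_const
      (2 * C * s ^ (n - (p + 2))))
    rw [zero_mul, zero_add] at t
    exact ge_of_tendsto' t fun k => iter M hM k s hs0
  refine morB_fatou (f := fun j => morF Ω φ (j + 1)) (fun j => morF_meas hΩ hφ.continuousOn _)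
    (Eventually.of_forall fun z => ?_) (fun j => lim _ (by positivity)) tendsto_const_nhds
  by_cases hz : z ∈ Ω
  · simp only [morF, lam, indicator_of_mem hz, ← hp]
    rw [ENNReal.ofReal_rpow_of_pos (Real.exp_pos _)]
    exact ENNReal.tendsto_ofReal (hw_tendsto p (φ z))
  · simp only [morF, lam, indicator_of_notMem hz]
    rw [ENNReal.zero_rpow_of_pos (by linarith)]
    exact tendsto_const_nhds

end Vale.Agent.P210
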