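import Vale.Agent.P210.Defs

/-! Averaging over segments.

Hints. Let `B k = ball y (2 ^ k)`, `D k = ∫⁻ v in B k, g v`. Integrate `hseg` over
`u ∈ B (k - 1)`, `v ∈ B k`. The segment stays in `B k` and `‖v - u‖ ≤ 2 * 2 ^ k`. By Tonelli, for
`t ≥ 1 / 2` and fixed `u` the map `v ↦ u + t • (v - u)` is a homothety of ratio `t`, so
`∫⁻ v in B k, f (u + t • (v - u)) ≤ 2 ^ n * ∫⁻ z in B k, f z` (`Measure.map_addHaar_smul`,
`lintegral_add_left_eq_self`, with `f` replaced by `(B k).indicator f`); for `t ≤ 1 / 2` exchange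
`u` and `v`. So `D k / vol (B k) ≤ D (k - 1) / vol (B (k - 1)) + C * a k` with
`C = 2 ^ (2 n + 1) / vol (ball 0 1)`; and `D k / vol (B k) ≤ c * 2 ^ k → 0`. -/

open Set Filter Topology MeasureTheory Metric
open scoped ENNReal NNReal

noncomputable section

namespace Vale.Agent.P210

theorem path_homo {n : ℕ} {F : E n → ℝ≥0∞} (hF : Measurable F) (c : E n) {t : ℝ}
    (ht : 1 / 2 ≤ t) : ∫⁻ v, F (c + t • v) ≤ 2 ^ n * ∫⁻ z, F z := by
  have ht0 : 0 < t := by linarith
  have h1 : ∫⁻ v, F (c + t • v) = ∫⁻ z, F (c + z) ∂(Measure.map (t • ·) volume) :=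
    (lintegral_map (f := fun z => F (c + z)) (hF.comp (by fun_prop)) (by fun_prop)).symm
  rw [h1, Measure.map_addHaar_smul _ ht0.ne', lintegral_smul_measure,
    lintegral_add_left_eq_self (fun z => F z) c, smul_eq_mul, finrank_euclideanSpace_fin]
  gcongr
  rw [abs_of_nonneg (by positivity), ← inv_pow, ← ENNReal.ofReal_ofNat,
    ← ENNReal.ofReal_pow (by norm_num)]
  refine ENNReal.ofReal_le_ofReal (pow_le_pow_left₀ (by positivity) ?_ n)
  rw [inv_le_comm₀ ht0 (by norm_num)]
  linarith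

theorem path_two {n : ℕ} {F : E n → ℝ≥0∞} (hF : Measurable F) (B : Set (E n)) (t : ℝ) :
    ∫⁻ u in B, ∫⁻ v in B, F (u + t • (v - u)) ≤ 2 ^ n * (∫⁻ z, F z) * volume B := by
  rcases le_total (1 / 2) t with ht | ht
  · rw [← setLIntegral_const]
    refine lintegral_mono fun u => (setLIntegral_le_lintegral _ _).trans ?_
    refine le_of_eq_of_le (lintegral_congr fun v => ?_) (path_homo hF ((1 - t) • u) ht)
    congr 1
    module
  · have m1 : Measurable (Function.uncurry fun u v : E n => F (u + t • (v - u))) :=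
      hF.comp (by fun_prop)
    rw [lintegral_lintegral_swap m1.aemeasurable, ← setLIntegral_const]
    refine lintegral_mono fun v => (setLIntegral_le_lintegral _ _).trans ?_
    refine le_of_eq_of_le (lintegral_congr fun u => ?_)
      (path_homo hF (t • v) (t := 1 - t) (by linarith))
    congr 1
    module

theorem path_three {n : ℕ} {F : E n → ℝ≥0∞} (hF : Measurable F) (B : Set (E n)) :
    ∫⁻ u in B, ∫⁻ v in B, ∫⁻ t in Icc (0 : ℝ) 1, F (u + t • (v - u))
      ≤ 2 ^ n * (∫⁻ z, F z) * volume B := by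
  have e1 : ∀ u : E n, ∫⁻ v in B, ∫⁻ t in Icc (0 : ℝ) 1, F (u + t • (v - u))
      = ∫⁻ t in Icc (0 : ℝ) 1, ∫⁻ v in B, F (u + t • (v - u)) := fun u =>
    lintegral_lintegral_swap (hF.comp (by fun_prop)).aemeasurable
  have m1 : Measurable fun p : (E n × ℝ) × E n => F (p.1.1 + p.1.2 • (p.2 - p.1.1)) :=
    hF.comp (by fun_prop)
  simp only [e1]
  rw [lintegral_lintegral_swap (m1.lintegral_prod_right' (ν := volume.restrict B)).aemeasurable]
  refine (lintegral_mono fun t => path_two hF B t).trans ?_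
  rw [setLIntegral_const]
  simp

theorem path_step {n : ℕ} {f g : E n → ℝ≥0∞} (hf : Measurable f) (hg : Measurable g)
    (hseg : ∀ u v, g v ≤ g u +
      ∫⁻ t in Icc (0 : ℝ) 1, f (u + t • (v - u)) * ENNReal.ofReal ‖v - u‖)
    (y : E n) {r' r : ℝ} (hr : r' ≤ r) :
    (∫⁻ v in ball y r, g v) * volume (ball y r') ≤ (∫⁻ v in ball y r', g v) * volume (ball y r) +
      ENNReal.ofReal (2 * r) * (2 ^ n * (∫⁻ z in ball y r, f z) * volume (ball y r)) := by
  have hF : Measurable ((ball y r).indicator f) := hf.indicator measurableSet_ball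
  have h3 := path_three hF (ball y r)
  rw [lintegral_indicator measurableSet_ball] at h3
  have hs := ball_subset_ball (x := y) hr
  calc (∫⁻ v in ball y r, g v) * volume (ball y r')
      = ∫⁻ _ in ball y r', ∫⁻ v in ball y r, g v := (setLIntegral_const _ _).symm
    _ ≤ ∫⁻ u in ball y r', ∫⁻ v in ball y r, (g u + ENNReal.ofReal (2 * r) *
          ∫⁻ t in Icc (0 : ℝ) 1, (ball y r).indicator f (u + t • (v - u))) := by
        refine setLIntegral_mono' measurableSet_ball fun u hu =>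
          setLIntegral_mono' measurableSet_ball fun v hv => (hseg u v).trans ?_
        rw [← lintegral_const_mul' _ _ ENNReal.ofReal_ne_top]
        gcongr g u + ?_
        refine setLIntegral_mono' measurableSet_Icc fun t ht => ?_
        rw [indicator_of_mem ((convex_ball y r).add_smul_sub_mem (hs hu) hv ht), mul_comm]
        gcongr
        have := dist_triangle_right v u y
        have h1 := mem_ball.1 hv
        have h2 := mem_ball.1 (hs hu)
        rw [← dist_eq_norm]
        linarith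
    _ = (∫⁻ v in ball y r', g v) * volume (ball y r) + ENNReal.ofReal (2 * r) *
          ∫⁻ u in ball y r', ∫⁻ v in ball y r,
            ∫⁻ t in Icc (0 : ℝ) 1, (ball y r).indicator f (u + t • (v - u)) := by
        simp only [lintegral_add_left measurable_const, setLIntegral_const,
          lintegral_const_mul' _ _ ENNReal.ofReal_ne_top]
        rw [lintegral_add_left (hg.mul_const _), lintegral_mul_const _ hg,
          lintegral_const_mul' _ _ ENNReal.ofReal_ne_top]
    _ ≤ _ := by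
        gcongr _ + _ * ?_
        exact (lintegral_mono_set hs).trans h3

theorem path_one (n : ℕ) (hn : 1 ≤ n) : ∃ C : ℝ, 0 ≤ C ∧ ∀ f g : E n → ℝ≥0∞, Measurable f →
    Measurable g →
    (∀ u v, g v ≤ g u + ∫⁻ t in Icc (0 : ℝ) 1, f (u + t • (v - u)) * ENNReal.ofReal ‖v - u‖) →
    ∀ (y : E n) (c r : ℝ), 0 < r → (∀ v ∈ ball y r, g v ≤ ENNReal.ofReal (c * dist y v)) →
    ∀ a : ℤ → ℝ, (∀ k, 0 ≤ a k) →
    (∀ k : ℤ, ∫⁻ z in ball y (2 ^ k), f z ≤ ENNReal.ofReal (a k * (2 ^ k) ^ (n - 1))) →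
    ∀ (K : ℤ) (S : ℝ), (∀ l : ℕ, ∑ i ∈ Finset.range l, a (K - i) ≤ S) →
    ∫⁻ v in ball y (2 ^ K), g v ≤ ENNReal.ofReal (C * S) * volume (ball y (2 ^ K)) := by
  obtain ⟨ω, hω0, hω⟩ : ∃ ω : ℝ, 0 < ω ∧ ∀ (y : E n) (r : ℝ), 0 < r →
      volume (ball y r) = ENNReal.ofReal (r ^ n * ω) := by
    refine ⟨(volume (ball (0 : E n) 1)).toReal, ENNReal.toReal_pos
      (measure_ball_pos _ _ one_pos).ne' measure_ball_lt_top.ne, fun y r hr => ?_⟩
    rw [Measure.addHaar_ball_of_pos _ _ hr, finrank_euclideanSpace_fin,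
      ENNReal.ofReal_mul (by positivity), ENNReal.ofReal_toReal measure_ball_lt_top.ne]
  refine ⟨2 * 2 ^ n * 2 ^ n / ω, by positivity, ?_⟩
  intro f g hf hg hseg y c r hr hc a ha hfa K S hS
  have V0 : ∀ k : ℤ, volume (ball y (2 ^ k)) ≠ 0 := fun k =>
    (measure_ball_pos _ _ (by positivity)).ne'
  have V1 : ∀ k : ℤ, volume (ball y (2 ^ k)) ≠ ∞ := fun k => measure_ball_lt_top.ne
  obtain ⟨M, hM⟩ : ∃ M : ℤ → ℝ≥0∞, ∀ k, M k * volume (ball y (2 ^ k))
      = ∫⁻ v in ball y (2 ^ k), g v :=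
    ⟨fun k => (∫⁻ v in ball y (2 ^ k), g v) / volume (ball y (2 ^ k)),
      fun k => ENNReal.div_mul_cancel (V0 k) (V1 k)⟩
  have step : ∀ k, M k ≤ M (k - 1) + ENNReal.ofReal (2 * 2 ^ n * 2 ^ n / ω * a k) := fun k => by
    have h1 := path_step hf hg hseg y (r' := 2 ^ (k - 1)) (r := 2 ^ k)
      (zpow_le_zpow_right₀ one_le_two (by omega))
    have h2 : ENNReal.ofReal (2 * 2 ^ k) * (2 ^ n * ENNReal.ofReal (a k * (2 ^ k) ^ (n - 1)))
        = ENNReal.ofReal (2 * 2 ^ n * 2 ^ n / ω * a k) * volume (ball y (2 ^ (k - 1))) := by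
      have := ha k
      rw [hω _ _ (by positivity), ← ENNReal.ofReal_ofNat 2, ← ENNReal.ofReal_pow (by norm_num),
        ← ENNReal.ofReal_mul (by positivity), ← ENNReal.ofReal_mul (by positivity),
        ← ENNReal.ofReal_mul (by positivity)]
      congr 1
      obtain ⟨m, rfl⟩ : ∃ m, n = m + 1 := ⟨n - 1, by omega⟩
      rw [zpow_sub_one₀ two_ne_zero, Nat.add_sub_cancel, mul_pow, inv_pow]
      field_simp
      ring
    rw [← hM, ← hM] at h1
    rw [← ENNReal.mul_le_mul_iff_left (V0 k) (V1 k),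
      ← ENNReal.mul_le_mul_iff_left (V0 (k - 1)) (V1 (k - 1))]
    refine h1.trans ?_
    calc M (k - 1) * volume (ball y (2 ^ (k - 1))) * volume (ball y (2 ^ k)) +
          ENNReal.ofReal (2 * 2 ^ k) *
            (2 ^ n * (∫⁻ z in ball y (2 ^ k), f z) * volume (ball y (2 ^ k)))
        ≤ M (k - 1) * volume (ball y (2 ^ (k - 1))) * volume (ball y (2 ^ k)) +
          ENNReal.ofReal (2 * 2 ^ k) * (2 ^ n * ENNReal.ofReal (a k * (2 ^ k) ^ (n - 1)) *
            volume (ball y (2 ^ k))) := by gcongr; exact hfa k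
      _ = _ := by rw [← mul_assoc (ENNReal.ofReal _), h2]; ring
  have iter : ∀ l : ℕ, M K ≤ M (K - l) +
      ENNReal.ofReal (2 * 2 ^ n * 2 ^ n / ω * ∑ i ∈ Finset.range l, a (K - i)) := by
    intro l
    induction l with
    | zero => simp
    | succ l ih =>
      have e : K - ((l + 1 : ℕ) : ℤ) = K - l - 1 := by push_cast; ring
      have := ha (K - l)
      rw [e, Finset.sum_range_succ, mul_add, ENNReal.ofReal_add
        (mul_nonneg (by positivity) (Finset.sum_nonneg fun i _ => ha _)) (by positivity)]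
      refine ih.trans ((add_le_add_left (step _) _).trans (le_of_eq ?_))
      ring
  have small : ∀ k : ℤ, 2 ^ k ≤ r → M k ≤ ENNReal.ofReal (|c| * 2 ^ k) := fun k hk => by
    rw [← ENNReal.mul_le_mul_iff_left (V0 k) (V1 k), hM, ← setLIntegral_const]
    refine setLIntegral_mono' measurableSet_ball fun v hv =>
      (hc v (ball_subset_ball hk hv)).trans (ENNReal.ofReal_le_ofReal ?_)
    rw [dist_comm]
    exact mul_le_mul (le_abs_self c) (mem_ball.1 hv).le dist_nonneg (abs_nonneg c)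
  have t1 : Tendsto (fun l : ℕ => (2 : ℝ) ^ (K - l)) atTop (𝓝 0) := by
    have := (tendsto_pow_atTop_nhds_zero_of_lt_one (r := (2 : ℝ)⁻¹) (by norm_num)
      (by norm_num)).const_mul (2 ^ K)
    rw [mul_zero] at this
    refine this.congr fun l => ?_
    rw [zpow_sub₀ two_ne_zero, zpow_natCast, inv_pow, div_eq_mul_inv]
  have t2 : Tendsto (fun l : ℕ => ENNReal.ofReal (|c| * 2 ^ (K - l)) +
      ENNReal.ofReal (2 * 2 ^ n * 2 ^ n / ω * S)) atTop
      (𝓝 (ENNReal.ofReal (|c| * 0) + ENNReal.ofReal (2 * 2 ^ n * 2 ^ n / ω * S))) :=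
    (ENNReal.tendsto_ofReal (t1.const_mul _)).add_const _
  rw [mul_zero, ENNReal.ofReal_zero, zero_add] at t2
  rw [← hM]
  gcongr
  refine ge_of_tendsto t2 ?_
  filter_upwards [t1.eventually (ge_mem_nhds hr)] with l hl
  refine (iter l).trans (add_le_add (small _ hl) (ENNReal.ofReal_le_ofReal ?_))
  exact mul_le_mul_of_nonneg_left (hS l) (by positivity)

end Vale.Agent.P210
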