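import Vale.Agent.P210.Cover
import Vale.Agent.P210.Dist
import Vale.Agent.P210.MorB
import Vale.Agent.P210.Avg
import Vale.Agent.P210.Path

open Set Filter Topology MeasureTheory Metric
open scoped ENNReal NNReal ContDiff

noncomputable section

namespace Vale.Agent.P210

theorem two_point {n : ℕ} {g g' : E n → ℝ≥0∞} (hg : Measurable g) {y z : E n} {k : ℤ}
    (hd : dist y z ≤ 2 ^ (k - 1)) {d : ℝ≥0∞} (h : ∀ u, d ≤ g u + g' u) {B : ℝ≥0∞}
    (h1 : ∫⁻ v in ball y (2 ^ k), g v ≤ B * volume (ball y (2 ^ k)))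
    (h2 : ∫⁻ v in ball z (2 ^ (k - 1)), g' v ≤ B * volume (ball z (2 ^ (k - 1)))) :
    d ≤ 2 ^ n * B + B := by
  have hp : (0 : ℝ) < 2 ^ (k - 1) := by positivity
  have e : (2 : ℝ) ^ k = 2 * 2 ^ (k - 1) := by
    rw [zpow_sub_one₀ two_ne_zero]
    ring
  have hsub : ball z (2 ^ (k - 1)) ⊆ ball y (2 ^ k) :=
    ball_subset_ball' (by rw [dist_comm]; linarith)
  have hv : volume (ball y (2 ^ k)) = 2 ^ n * volume (ball z (2 ^ (k - 1))) := by
    rw [e, Measure.addHaar_ball_mul_of_pos _ _ two_pos, Measure.addHaar_ball_center _ z,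
      finrank_euclideanSpace_fin, ENNReal.ofReal_pow zero_le_two, ENNReal.ofReal_ofNat]
  rw [← ENNReal.mul_le_mul_iff_left (measure_ball_pos volume z hp).ne' measure_ball_lt_top.ne,
    ← setLIntegral_const]
  refine (lintegral_mono h).trans ?_
  rw [lintegral_add_left hg, add_mul]
  refine add_le_add (((lintegral_mono_set hsub).trans h1).trans_eq ?_) h2
  rw [hv]
  ring

theorem main (n : ℕ) (hn : 3 ≤ n) : ∃ C : ℝ, ∀ (Ω : Set (E n)) (φ : E n → ℝ), IsOpen Ω →
    IsConnected Ω → ContDiffOn ℝ ∞ φ Ω → IsCompleteMetric Ω (conf φ) →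
    (∀ x ∈ Ω, 1 ≤ scal (conf φ) x) →
    ∃ (V : Type) (K : AbstractSimplicialComplex V) (f : Ω → Geom K),
      (∀ s ∈ K.faces, s.card ≤ n / 2 + 1) ∧ Continuous f ∧
      ∀ x y : Ω, f x = f y → rdist Ω (conf φ) x y ≤ ENNReal.ofReal C := by
  have hn' : (3 : ℝ) ≤ n := by exact_mod_cast hn
  obtain ⟨C0, hC0, hmor⟩ := morrey n hn
  obtain ⟨A, Aν, C₁, hA, hAν, hC₁, havg⟩ := avg n (q := n / 2 + 3 / 4) (by linarith) (by linarith) hC0
  obtain ⟨CP, hCP, hpath⟩ := path_one n (by omega)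
  have hm : 1 ≤ n / 2 := by omega
  have hm' : (1 : ℝ) ≤ (n / 2 : ℕ) := by exact_mod_cast hm
  have hm2 : (n : ℝ) ≤ 2 * (n / 2 : ℕ) + 1 := by exact_mod_cast (by omega : n ≤ 2 * (n / 2) + 1)
  obtain ⟨S, hcov⟩ := cover n (n / 2) hm (D := (2 : ℝ) ^ ((n : ℝ) - (n / 2 + 3 / 4)))
    (q := n / 2 + 3 / 4) (b := (2 : ℝ) ^ (1 - 1 / (8 * ((n / 2 : ℕ) : ℝ)))) hA (by positivity) hAν
    (by positivity) hC₁ (by positivity)
    ((Real.rpow_lt_rpow_of_exponent_lt one_lt_two (sub_lt_self _ (by positivity))).trans_eq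
      (Real.rpow_one 2)) (by
      rw [← Real.rpow_mul_natCast zero_le_two]
      refine Real.rpow_lt_rpow_of_exponent_lt one_lt_two ?_
      have e : (1 - 1 / (8 * ((n / 2 : ℕ) : ℝ))) * (n / 2 : ℕ) = (n / 2 : ℕ) - 1 / 8 := by
        field_simp
      rw [e]
      linarith)
  refine ⟨1 + (2 ^ n * |CP * S| + |CP * S|) + 1, fun Ω φ hΩ hconn hφ hc hs => ?_⟩
  have hφc := hφ.continuousOn
  obtain ⟨o, ho⟩ := hconn.nonempty
  have hnear := fun y (hy : y ∈ Ω) => rdist_le_near hΩ hφc hy (lt_add_one (Real.exp (φ y)))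
  have hM := hmor Ω φ (fun z => (rdist Ω (conf φ) o z).toReal) hΩ hφ hs (fun x hx c hc' => by
    obtain ⟨r, hr, h1⟩ := rdist_le_near hΩ hφc hx hc'
    have hc0 : 0 ≤ c := (Real.exp_pos _).le.trans hc'.le
    have key : ∀ y ∈ ball x r, ∀ z ∈ ball x r,
        (rdist Ω (conf φ) o z).toReal ≤ (rdist Ω (conf φ) o y).toReal + c * dist y z := by
      intro y hy z hz
      have hyΩ : y ∈ Ω := by_contra fun h =>
        absurd (h1 y hy y hy) (by rw [rdist_eq_top h]; simp)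
      have hfin := rdist_ne_top hΩ hφc hconn.isPreconnected ho hyΩ
      refine ENNReal.toReal_le_of_le_ofReal (by positivity) ?_
      rw [ENNReal.ofReal_add ENNReal.toReal_nonneg (by positivity), ENNReal.ofReal_toReal hfin]
      exact (rdist_triangle Ω φ o y z).trans (add_le_add le_rfl (h1 y hy z hz))
    refine ⟨r, hr, fun y hy z hz => abs_sub_le_iff.2 ⟨?_, ?_⟩⟩
    · have := key z hz y hy
      rw [dist_comm] at this
      linarith
    · linarith [key y hy z hz]) fun R => by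
    obtain ⟨K, h1, h2, h3⟩ := rdist_proper hΩ hφc hc o R
    refine ⟨K, h1, h2, fun x hx hR => h3 x ?_⟩
    rw [← ENNReal.ofReal_toReal (rdist_ne_top hΩ hφc hconn.isPreconnected ho hx)]
    exact ENNReal.ofReal_le_ofReal hR
  obtain ⟨τ, a, ν, hν, h, h1, h2, h3, h4⟩ := havg (lam Ω φ) (measurable_lam hΩ hφc) hM
  have hr0 : ∀ y ∈ Ω, ∃ r > 0, ∀ x, dist x y < r → rdist Ω (conf φ) x y ≤ 1 := fun y hy => by
    obtain ⟨r, hr, h5⟩ := hnear y hy
    have hp : 0 < Real.exp (φ y) + 1 := by positivity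
    refine ⟨min r (1 / (Real.exp (φ y) + 1)), by positivity, fun x hx => ?_⟩
    refine (h5 x (hx.trans_le (min_le_left _ _)) y (mem_ball_self hr)).trans
      (ENNReal.ofReal_le_one.2 ?_)
    have h6 := hx.trans_le (min_le_right _ _)
    rw [lt_div_iff₀ hp] at h6
    linarith
  choose! r0 hr0 hr1 using hr0
  obtain ⟨V, K, f, hK, hf, hfib⟩ := hcov τ a ν h h1 h2 Ω r0 hr0 fun y hy => by
    have h5 : ∀ᶠ z in 𝓝 y, Real.exp (φ z) < Real.exp (φ y) + 1 :=
      (Real.continuous_exp.continuousAt.comp (hφc.continuousAt (hΩ.mem_nhds hy))).eventually_lt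
        continuousAt_const (lt_add_one _)
    obtain ⟨ε, hε, h6⟩ := Metric.eventually_nhds_iff.1 h5
    obtain ⟨k0, k1, -⟩ := exists_mem_Ioc_zpow (half_pos hε) one_lt_two
    refine ⟨ε / 2, half_pos hε, A * (Real.exp (φ y) + 1 + 1), by positivity, k0 - 1,
      fun x hx k hk => h4 x k _ (by positivity) fun z hz => ?_⟩
    have h7 : (2 : ℝ) ^ (k + 1) ≤ 2 ^ k0 := zpow_le_zpow_right₀ one_le_two (by omega)
    refine (indicator_le_self _ _ z).trans (ENNReal.ofReal_le_ofReal (h6 ?_).le)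
    linarith [dist_triangle z x y, mem_ball.1 hx, mem_ball.1 hz]
  refine ⟨V, K, f, hK, hf, fun x x' e => ?_⟩
  obtain ⟨y, hy, z, hz, k, a1, a2, a3, a4, a5⟩ := hfib x x' e
  have hP : ∀ w ∈ Ω, ∀ j : ℤ, (∀ l : ℕ, ∑ i ∈ Finset.range l, a (j - i) w ≤ S) →
      ∫⁻ v in ball w (2 ^ j), rdist Ω (conf φ) w v ≤
        ENNReal.ofReal |CP * S| * volume (ball w (2 ^ j)) := fun w hw j hj => by
    obtain ⟨r, hr, h5⟩ := hnear w hw
    exact (hpath (lam Ω φ) _ (measurable_lam hΩ hφc) (measurable_rdist hΩ hφc w)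
      (rdist_le_lam hΩ hφc hc w) w _ r hr (fun v hv => h5 w (mem_ball_self hr) v hv)
      (fun k => a k w) (fun k => h.nonneg k w) (h3 w) j S hj).trans
      (mul_le_mul_left (ENNReal.ofReal_le_ofReal (le_abs_self _)) _)
  have h5 := two_point (measurable_rdist hΩ hφc y) a3 (d := rdist Ω (conf φ) y z)
    (fun u => by rw [rdist_comm Ω φ z u]; exact rdist_triangle Ω φ y u z) (hP y hy k a4)
    (hP z hz (k - 1) a5)
  have h6 := hr1 z hz x' a2
  rw [rdist_comm] at h6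
  rw [ENNReal.ofReal_add (by positivity) zero_le_one, ENNReal.ofReal_add zero_le_one
    (by positivity), ENNReal.ofReal_add (by positivity) (abs_nonneg _),
    ENNReal.ofReal_mul (by positivity), ENNReal.ofReal_pow zero_le_two, ENNReal.ofReal_ofNat,
    ENNReal.ofReal_one]
  exact (rdist_triangle Ω φ x z x').trans (add_le_add ((rdist_triangle Ω φ x y z).trans
    (add_le_add (hr1 y hy x a1) h5)) h6)

end Vale.Agent.P210
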