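import Vale.Agent.P210.Base

open Set Filter Topology MeasureTheory Metric
open scoped ENNReal NNReal ContDiff

noncomputable section

namespace Vale.Agent.P210

theorem hw_pos (p : ℝ) {M : ℝ} (hM : 0 < M) (t : ℝ) : 0 < hw p M t := by
  unfold hw
  positivity

theorem contDiff_hw (p : ℝ) {M : ℝ} (hM : 0 < M) : ContDiff ℝ 1 (hw p M) := by
  unfold hw
  exact contDiff_const.div (by fun_prop) fun t => by positivity

theorem deriv_hw_le {p M : ℝ} (hp : 0 ≤ p) (hM : 0 < M) (t : ℝ) :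
    deriv (hw p M) t ≤ p * hw p M t := by
  have hD : 0 < Real.exp (-(p * t)) + Real.exp (2 * t) / M := by positivity
  have h1 : HasDerivAt (fun t => Real.exp (-(p * t)) + Real.exp (2 * t) / M)
      (Real.exp (-(p * t)) * -(p * 1) + Real.exp (2 * t) * (2 * 1) / M) t :=
    (((hasDerivAt_id t).const_mul p).neg.exp).add (((hasDerivAt_id t).const_mul 2).exp.div_const M)
  have h2 : HasDerivAt (hw p M) _ t := (hasDerivAt_const t (1 : ℝ)).div h1 hD.ne'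
  rw [h2.deriv, hw, mul_one_div, div_le_div_iff₀ (by positivity) hD]
  have h3 : 0 ≤ Real.exp (2 * t) / M := by positivity
  have e : Real.exp (2 * t) * (2 * 1) / M = 2 * (Real.exp (2 * t) / M) := by ring
  rw [e]
  generalize Real.exp (2 * t) / M = v at *
  have h4 := Real.exp_pos (-(p * t))
  generalize Real.exp (-(p * t)) = u at *
  nlinarith [mul_nonneg (mul_nonneg (by linarith : 0 ≤ p + 2) h3) hD.le]

theorem ofReal_integral_le {X : Type*} [MeasurableSpace X] {μ : Measure X} {f : X → ℝ}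
    (hf : Integrable f μ) : ENNReal.ofReal (∫ x, f x ∂μ) ≤ ∫⁻ x, ENNReal.ofReal (f x) ∂μ := by
  rw [integral_eq_lintegral_pos_part_sub_lintegral_neg_part hf]
  exact (ENNReal.ofReal_le_ofReal (sub_le_self _ ENNReal.toReal_nonneg)).trans
    ENNReal.ofReal_toReal_le

theorem cacc_lip {n : ℕ} {Ω : Set (E n)} {G Ψ : E n → ℝ} (hG : ∀ x ∈ Ω, ContDiffAt ℝ 1 G x)
    {c : ℝ≥0} (hΨ : LipschitzWith c Ψ) {K : Set (E n)} (hK : IsCompact K) (hKΩ : K ⊆ Ω)
    (h0 : ∀ x ∉ K, Ψ x = 0) (v : E n) :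
    IntegrableOn (fun x => lineDeriv ℝ (fun y => Ψ y ^ 2 * G y) x v) K ∧
      ∫ x in K, lineDeriv ℝ (fun y => Ψ y ^ 2 * G y) x v = 0 := by
  have hz : ∀ x ∉ K, (fun y => Ψ y ^ 2 * G y) =ᶠ[𝓝 x] fun _ => 0 := fun x hx => by
    filter_upwards [hK.isClosed.isOpen_compl.mem_nhds hx] with y hy
    simp [h0 y hy]
  have hl : LocallyLipschitz fun y => Ψ y ^ 2 * G y := fun x => by
    by_cases hx : x ∈ K
    · obtain ⟨C, t, ht, hC⟩ := (hG x (hKΩ hx)).exists_lipschitzOnWith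
      have hm : ContDiffAt ℝ 1 (fun w : ℝ × ℝ => w.1 ^ 2 * w.2) (Ψ x, G x) := by fun_prop
      obtain ⟨C', t', ht', hC'⟩ := hm.exists_lipschitzOnWith
      have hc : ContinuousAt (fun y => (Ψ y, G y)) x :=
        hΨ.continuous.continuousAt.prodMk (hG x (hKΩ hx)).continuousAt
      exact ⟨_, t ∩ (fun y => (Ψ y, G y)) ⁻¹' t', inter_mem ht (hc ht'),
        hC'.comp ((hΨ.lipschitzOnWith.prodMk hC).mono inter_subset_left) fun y hy => hy.2⟩
    · refine ⟨0, _, hz x hx, LipschitzOnWith.of_dist_le_mul fun a ha b hb => ?_⟩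
      rw [show Ψ a ^ 2 * G a = 0 from ha, show Ψ b ^ 2 * G b = 0 from hb]
      simp
  obtain ⟨C, hC⟩ := lip_of_compact hl hK fun x hx => (hz x hx).self_of_nhds
  refine ⟨(hC.locallyIntegrable_lineDeriv v).integrableOn_isCompact hK, ?_⟩
  rw [setIntegral_eq_integral_of_forall_compl_eq_zero fun x hx => by
    rw [(hz x hx).lineDeriv_eq]
    simp [lineDeriv]]
  have h := (LipschitzWith.const (1 : ℝ)).integral_lineDeriv_mul_eq (μ := volume) hC
    (HasCompactSupport.intro hK fun x hx => (hz x hx).self_of_nhds) (-v)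
  simpa [lineDeriv] using h.symm

theorem cacc_point {n : ℕ} (hn : 3 ≤ n) {φ Ψ : E n → ℝ} {x : E n} (hφ : ContDiffAt ℝ ∞ φ x)
    (hs : 1 ≤ scal (conf φ) x) {M : ℝ} (hM : 0 < M) (hΨ : DifferentiableAt ℝ Ψ x) :
    hw (n / 2 - 5 / 4) M (φ x) * Real.exp (2 * φ x) * Ψ x ^ 2 + 2 * (n - 1) *
      ∑ i, lineDeriv ℝ (fun y => Ψ y ^ 2 * (hw (n / 2 - 5 / 4) M (φ y) * pd i φ y)) x
        (EuclideanSpace.single i 1) ≤
      8 * n ^ 2 * hw (n / 2 - 5 / 4) M (φ x) * ‖fderiv ℝ Ψ x‖ ^ 2 := by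
  have hn' : (3 : ℝ) ≤ n := by exact_mod_cast hn
  have hd : DifferentiableAt ℝ φ x := hφ.differentiableAt (by simp)
  have hh := (((contDiff_hw (n / 2 - 5 / 4) hM).differentiable one_ne_zero)
    (φ x)).hasDerivAt.comp_hasFDerivAt x hd.hasFDerivAt
  have hh0 := hw_pos (n / 2 - 5 / 4) hM (φ x)
  have hh1 := deriv_hw_le (p := n / 2 - 5 / 4) (by linarith) hM (φ x)
  have hi : ∀ i, lineDeriv ℝ (fun y => Ψ y ^ 2 * (hw (n / 2 - 5 / 4) M (φ y) * pd i φ y)) x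
      (EuclideanSpace.single i 1) =
      Ψ x ^ 2 * (hw (n / 2 - 5 / 4) M (φ x) * pd i (pd i φ) x +
        deriv (hw (n / 2 - 5 / 4) M) (φ x) * pd i φ x ^ 2) +
      2 * hw (n / 2 - 5 / 4) M (φ x) * (Ψ x * pd i φ x * pd i Ψ x) := fun i => by
    have h1 : HasFDerivAt (fun y => Ψ y ^ 2 * (hw (n / 2 - 5 / 4) M (φ y) * pd i φ y)) _ x :=
      (hΨ.hasFDerivAt.pow 2).mul
        (hh.mul ((contDiffAt_pd hφ i).differentiableAt one_ne_zero).hasFDerivAt)
    rw [(h1.hasLineDerivAt _).lineDeriv]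
    simp [pd]
    ring
  have hb : ∀ i, pd i Ψ x ^ 2 ≤ ‖fderiv ℝ Ψ x‖ ^ 2 := fun i => by
    have h1 := (fderiv ℝ Ψ x).le_opNorm (EuclideanSpace.single i 1)
    rw [PiLp.norm_single, norm_one, mul_one, Real.norm_eq_abs] at h1
    exact sq_le_sq' (by linarith [neg_abs_le (pd i Ψ x), show |pd i Ψ x| ≤ _ from h1])
      ((le_abs_self _).trans h1)
  have hy : 4 * ∑ i, Ψ x * pd i φ x * pd i Ψ x ≤
      Ψ x ^ 2 * (∑ i, pd i φ x ^ 2) / 2 + 8 * n * ‖fderiv ℝ Ψ x‖ ^ 2 := by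
    have : ∑ i, 4 * (Ψ x * pd i φ x * pd i Ψ x) ≤
        ∑ i : Fin n, (Ψ x ^ 2 * pd i φ x ^ 2 / 2 + 8 * ‖fderiv ℝ Ψ x‖ ^ 2) :=
      Finset.sum_le_sum fun i _ => by nlinarith [hb i, sq_nonneg (Ψ x * pd i φ x - 4 * pd i Ψ x)]
    rw [← Finset.mul_sum, Finset.sum_add_distrib, ← Finset.sum_div, ← Finset.mul_sum] at this
    simp only [Finset.sum_const, Finset.card_univ, Fintype.card_fin, nsmul_eq_mul] at this
    linarith
  rw [scal_conf hφ] at hs
  have hs' : Real.exp (2 * φ x) ≤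
      -(2 * (n - 1)) * ∑ i, pd i (pd i φ) x - (n - 1) * (n - 2) * ∑ i, pd i φ x ^ 2 := by
    have h1 := mul_le_mul_of_nonneg_left hs (Real.exp_pos (2 * φ x)).le
    rwa [mul_one, ← mul_assoc, ← Real.exp_add, add_neg_cancel, Real.exp_zero, one_mul] at h1
  simp only [hi, Finset.sum_add_distrib, ← Finset.mul_sum]
  have hS : 0 ≤ ∑ i, pd i φ x ^ 2 := Finset.sum_nonneg fun i _ => sq_nonneg _
  generalize ∑ i, pd i φ x ^ 2 = S at *
  generalize ∑ i, pd i (pd i φ) x = L at *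
  generalize ∑ i, Ψ x * pd i φ x * pd i Ψ x = T at *
  generalize hw (n / 2 - 5 / 4) M (φ x) = h at *
  generalize deriv (hw (n / 2 - 5 / 4) M) (φ x) = h' at *
  have hP := sq_nonneg (Ψ x)
  generalize Ψ x ^ 2 = P at *
  have hN := sq_nonneg ‖fderiv ℝ Ψ x‖
  generalize ‖fderiv ℝ Ψ x‖ ^ 2 = N at *
  have a1 := mul_le_mul_of_nonneg_left hs' (mul_nonneg hh0.le hP)
  have a2 := mul_le_mul_of_nonneg_left hh1 (mul_nonneg (mul_nonneg
    (by linarith : (0 : ℝ) ≤ 2 * (n - 1)) hP) hS)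
  have a3 := mul_le_mul_of_nonneg_left hy (mul_nonneg (by linarith : (0 : ℝ) ≤ n - 1) hh0.le)
  have a4 : 0 ≤ n * h * N := by positivity
  nlinarith

/-- Caccioppoli inequality for the truncated weight. -/
theorem cacc {n : ℕ} (hn : 3 ≤ n) {Ω : Set (E n)} {φ : E n → ℝ} (hΩ : IsOpen Ω)
    (hφ : ContDiffOn ℝ ∞ φ Ω) (hs : ∀ x ∈ Ω, 1 ≤ scal (conf φ) x) {M : ℝ} (hM : 0 < M)
    {Ψ : E n → ℝ} {c : ℝ≥0} (hΨ : LipschitzWith c Ψ) {K : Set (E n)} (hK : IsCompact K)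
    (hKΩ : K ⊆ Ω) (h0 : ∀ x ∉ K, Ψ x = 0) :
    ∫⁻ x in K, ENNReal.ofReal (hw (n / 2 - 5 / 4) M (φ x) * Real.exp (2 * φ x) * Ψ x ^ 2) ≤
      ∫⁻ x in K, ENNReal.ofReal (8 * n ^ 2 * hw (n / 2 - 5 / 4) M (φ x) * ‖fderiv ℝ Ψ x‖ ^ 2) := by
  have hφ' : ∀ x ∈ Ω, ContDiffAt ℝ ∞ φ x := fun x hx => hφ.contDiffAt (hΩ.mem_nhds hx)
  have hW := fun i : Fin n => cacc_lip (G := fun y => hw (n / 2 - 5 / 4) M (φ y) * pd i φ y)
    (fun x hx => ((contDiff_hw _ hM).contDiffAt.comp x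
      ((hφ' x hx).of_le (by exact_mod_cast le_top))).mul (contDiffAt_pd (hφ' x hx) i))
    hΨ hK hKΩ h0 (EuclideanSpace.single i 1)
  have hc : ContinuousOn φ K := hφ.continuousOn.mono hKΩ
  have hA : IntegrableOn
      (fun x => hw (n / 2 - 5 / 4) M (φ x) * Real.exp (2 * φ x) * Ψ x ^ 2) K :=
    ((((contDiff_hw _ hM).continuous.comp_continuousOn hc).mul (by fun_prop)).mul
      (hΨ.continuous.pow 2).continuousOn).integrableOn_compact hK
  have hS := (integrable_finsetSum Finset.univ fun i _ => (hW i).1).const_mul (2 * ((n : ℝ) - 1))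
  rw [← ofReal_integral_eq_lintegral_ofReal hA (Eventually.of_forall fun x => by
    have := hw_pos (n / 2 - 5 / 4) hM (φ x)
    positivity)]
  have h1 := ofReal_integral_le (hA.add hS)
  simp only [Pi.add_apply] at h1
  rw [integral_add hA hS, integral_const_mul, integral_finsetSum _ fun i _ => (hW i).1,
    Finset.sum_eq_zero fun i _ => (hW i).2, mul_zero, add_zero] at h1
  refine h1.trans (lintegral_mono_ae ?_)
  filter_upwards [ae_restrict_mem hK.measurableSet, ae_restrict_of_ae hΨ.ae_differentiableAt]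
    with x hx hd
  exact ENNReal.ofReal_le_ofReal (cacc_point hn (hφ' x (hKΩ hx)) (hs x (hKΩ hx)) hM hd)

end Vale.Agent.P210
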