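import Vale.Agent.P210.Defs

open Set MeasureTheory Metric
open scoped ENNReal

noncomputable section

namespace Vale.Agent.P210

theorem wf_choice {ι : Type*} [LinearOrder ι] [WellFoundedLT ι] (Q : ι → (ι → ℝ) → ℝ → Prop)
    (hQ : ∀ i r r' v, (∀ k, k < i → r k = r' k) → Q i r v → Q i r' v)
    (hex : ∀ i r, ∃ v, Q i r v) : ∃ r : ι → ℝ, ∀ i, Q i r (r i) := by
  classical
  choose F hF using hex
  let r : ι → ℝ := (wellFounded_lt (α := ι)).fix
    fun i (rec : ∀ k, k < i → ℝ) => F i fun k => if h : k < i then rec k h else 0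
  refine ⟨r, fun i => ?_⟩
  have e : r i = F i fun k => if _h : k < i then r k else 0 := by
    simp only [r]
    rw [WellFounded.fix_eq]
  rw [e]
  exact hQ i _ _ _ (fun k hk => by simp [hk]) (hF i _)

theorem exists_radii {ι X : Type*} [MeasurableSpace X] (μ : Measure X) [SFinite μ]
    (Nb : ι → Finset ι) (N : ℕ) (hN : ∀ i, (Nb i).card ≤ N) (κ : ι → ℝ → X → ℝ≥0∞)
    (hκ : ∀ i, Measurable (Function.uncurry (κ i))) (I : ι → Set ℝ)
    (hI0 : ∀ i, volume (I i) ≠ 0) (hI1 : ∀ i, volume (I i) ≠ ∞) (c : ℝ≥0∞) (hc0 : c ≠ 0)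
    (hc1 : c ≠ ∞) (hc : ∀ i z, ∫⁻ v in I i, κ i v z ≤ c * volume (I i))
    (W : ι → Set X) (hW : ∀ i, MeasurableSet (W i))
    (hκW : ∀ i, ∀ v ∈ I i, ∀ z, z ∉ W i → κ i v z = 0) :
    ∃ r : ι → ℝ, (∀ i, r i ∈ I i) ∧ ∀ S : Finset ι, S.Nonempty → (∀ i ∈ S, ∀ k ∈ S, k ∈ Nb i) →
      ∃ i ∈ S, ∫⁻ z, ∏ k ∈ S, κ k (r k) z ∂μ ≤ (2 ^ N * c) ^ S.card * μ (W i) := by
  classical
  obtain ⟨_, _⟩ := exists_wellFoundedLT (α := ι)
  have hm : ∀ i v, Measurable (κ i v) := fun i v => (hκ i).of_uncurry_left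
  have hmp : ∀ (r : ι → ℝ) (S : Finset ι), Measurable fun z => ∏ k ∈ S, κ k (r k) z :=
    fun r S => Finset.measurable_prod _ fun k _ => hm k _
  obtain ⟨r, hr⟩ := wf_choice (ι := ι) (fun i r v => v ∈ I i ∧ ∀ S ⊆ Nb i, (∀ k ∈ S, k < i) →
      ∫⁻ z in W i, κ i v z * ∏ k ∈ S, κ k (r k) z ∂μ ≤
        2 ^ N * c * ∫⁻ z in W i, ∏ k ∈ S, κ k (r k) z ∂μ) (by
      intro i r r' v hrr h
      refine ⟨h.1, fun S hS hlt => ?_⟩
      have e : ∀ z, ∏ k ∈ S, κ k (r' k) z = ∏ k ∈ S, κ k (r k) z := fun z =>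
        Finset.prod_congr rfl fun k hk => by rw [hrr k (hlt k hk)]
      simp only [e]
      exact h.2 S hS hlt) (by
      intro i r
      set a : Finset ι → ℝ≥0∞ := fun S => ∫⁻ z in W i, ∏ k ∈ S, κ k (r k) z ∂μ with ha
      set L : Finset ι → ℝ → ℝ≥0∞ := fun S v =>
        ∫⁻ z in W i, κ i v z * ∏ k ∈ S, κ k (r k) z ∂μ with hL
      have hu : ∀ S : Finset ι, Measurable (Function.uncurry fun v z =>
          κ i v z * ∏ k ∈ S, κ k (r k) z) := fun S =>
        (hκ i).mul ((hmp r S).comp measurable_snd)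
      have hLm : ∀ S, Measurable (L S) := fun S => (hu S).lintegral_prod_right
      have hint : ∀ S, ∫⁻ v in I i, L S v ≤ c * volume (I i) * a S := by
        intro S
        simp only [hL, ha]
        rw [lintegral_lintegral_swap (hu S).aemeasurable, ← lintegral_const_mul _ (hmp r S)]
        refine lintegral_mono fun z => ?_
        rw [lintegral_mul_const _ (hκ i).of_uncurry_right]
        exact mul_le_mul_left (hc i z) _
      have hG : Measurable fun v => ∑ S ∈ (Nb i).powerset, L S v / a S :=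
        Finset.measurable_sum _ fun S _ => (hLm S).div_const _
      obtain ⟨v, hv, hle⟩ := exists_le_setLAverage (hI0 i) (hI1 i) hG.aemeasurable
      refine ⟨v, hv, fun S hS _ => ?_⟩
      have h1 : ⨍⁻ v in I i, ∑ S ∈ (Nb i).powerset, L S v / a S ∂volume ≤ 2 ^ N * c := by
        rw [setLAverage_eq, ENNReal.div_le_iff (hI0 i) (hI1 i),
          lintegral_finsetSum _ fun S _ => (hLm S).div_const _]
        calc ∑ S ∈ (Nb i).powerset, ∫⁻ v in I i, L S v / a S
            ≤ ∑ _S ∈ (Nb i).powerset, c * volume (I i) := by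
              refine Finset.sum_le_sum fun S _ => ?_
              simp only [div_eq_mul_inv]
              rw [lintegral_mul_const _ (hLm S)]
              calc (∫⁻ v in I i, L S v) * (a S)⁻¹ ≤ c * volume (I i) * a S * (a S)⁻¹ :=
                    mul_le_mul_left (hint S) _
                _ ≤ c * volume (I i) * 1 := by
                    rw [mul_assoc]
                    exact mul_le_mul_right (ENNReal.mul_inv_le_one _) _
                _ = _ := mul_one _
          _ ≤ 2 ^ N * c * volume (I i) := by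
              rw [Finset.sum_const, Finset.card_powerset, nsmul_eq_mul, mul_assoc]
              refine mul_le_mul_left ?_ _
              push_cast
              exact pow_le_pow_right₀ one_le_two (hN i)
      have h2 : L S v / a S ≤ 2 ^ N * c :=
        ((Finset.single_le_sum (f := fun S => L S v / a S) (fun _ _ => zero_le)
          (Finset.mem_powerset.2 hS)).trans hle).trans h1
      rwa [ENNReal.div_le_iff_le_mul (Or.inr (ENNReal.mul_ne_top (by simp) hc1))
        (Or.inr (mul_ne_zero (by simp) hc0))] at h2)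
  refine ⟨r, fun i => (hr i).1, fun S => ?_⟩
  induction S using Finset.induction_on_max with
  | empty => intro h; simp at h
  | insert a S ha ih =>
    intro _ hNb
    have haS : a ∉ S := fun h => lt_irrefl _ (ha a h)
    have h1 : ∫⁻ z, ∏ k ∈ insert a S, κ k (r k) z ∂μ ≤
        2 ^ N * c * ∫⁻ z in W a, ∏ k ∈ S, κ k (r k) z ∂μ := by
      refine le_trans (le_of_eq ?_) ((hr a).2 S
        (fun k hk => hNb a (Finset.mem_insert_self _ _) k (Finset.mem_insert_of_mem hk)) ha)
      rw [← lintegral_indicator (hW a)]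
      refine lintegral_congr fun z => ?_
      rw [Finset.prod_insert haS]
      by_cases hz : z ∈ W a
      · simp [hz]
      · simp [hz, hκW a _ (hr a).1 z hz]
    rw [Finset.card_insert_of_notMem haS]
    rcases S.eq_empty_or_nonempty with rfl | hS
    · refine ⟨a, Finset.mem_insert_self _ _, h1.trans (le_of_eq ?_)⟩
      simp
    · obtain ⟨i, hi, h2⟩ := ih hS fun i hi k hk =>
        hNb i (Finset.mem_insert_of_mem hi) k (Finset.mem_insert_of_mem hk)
      refine ⟨i, Finset.mem_insert_of_mem hi, h1.trans ?_⟩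
      rw [pow_succ', mul_assoc (2 ^ N * c)]
      exact mul_le_mul_right ((setLIntegral_le_lintegral _ _).trans h2) _

theorem exists_net {X : Type*} [PseudoMetricSpace X] (σ : X → ℝ) :
    ∃ P : Set X, (∀ x ∈ P, 0 < σ x) ∧ P.Pairwise (fun x y => min (σ x) (σ y) ≤ dist x y) ∧
      ∀ y, 0 < σ y → ∃ x ∈ P, dist y x < σ x := by
  obtain ⟨P, hP⟩ := zorn_subset {P : Set X | (∀ x ∈ P, 0 < σ x) ∧
      P.Pairwise (fun x y => min (σ x) (σ y) ≤ dist x y)} (by
    intro c hc hch
    refine ⟨⋃₀ c, ⟨fun x ⟨s, hs, hx⟩ => (hc hs).1 x hx, ?_⟩, fun s hs => subset_sUnion_of_mem hs⟩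
    exact (hch.pairwise_sUnion).2 fun s hs => (hc hs).2)
  refine ⟨P, hP.prop.1, hP.prop.2, fun y hy => ?_⟩
  by_contra hcon
  push Not at hcon
  have h1 : insert y P ⊆ P := by
    refine hP.le_of_ge (show insert y P ∈ {P : Set X | (∀ x ∈ P, 0 < σ x) ∧
      P.Pairwise (fun x y => min (σ x) (σ y) ≤ dist x y)} from ⟨?_, ?_⟩) (subset_insert _ _)
    · rintro x (rfl | hx)
      · exact hy
      · exact hP.prop.1 x hx
    · refine hP.prop.2.insert fun x hx _ => ⟨(min_le_right _ _).trans (hcon x hx), ?_⟩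
      rw [dist_comm]
      exact (min_le_left _ _).trans (hcon x hx)
  have := hcon y (h1 (mem_insert _ _))
  rw [dist_self] at this
  linarith

theorem card_le_of_sep {n : ℕ} (s : Finset (E n)) (x : E n) (a : ℝ) (ha : 0 < a)
    (h1 : ∀ y ∈ s, dist y x ≤ 7 * a) (h2 : ∀ y ∈ s, ∀ z ∈ s, y ≠ z → a / 2 ≤ dist y z) :
    s.card ≤ 32 ^ n := by
  have hd : (s : Set (E n)).PairwiseDisjoint fun y => ball y (a / 4) := fun y hy z hz hne =>
    ball_disjoint_ball (by have := h2 y hy z hz hne; linarith)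
  have h3 : volume (⋃ y ∈ s, ball y (a / 4)) ≤ volume (ball x (8 * a)) := by
    refine measure_mono (iUnion₂_subset fun y hy => ball_subset_ball' ?_)
    have := h1 y hy
    linarith
  rw [measure_biUnion_finset hd fun _ _ => measurableSet_ball] at h3
  simp only [Measure.addHaar_ball_of_pos _ _ (show 0 < a / 4 by linarith),
    Measure.addHaar_ball_of_pos _ _ (show 0 < 8 * a by linarith), Finset.sum_const,
    finrank_euclideanSpace, Fintype.card_fin, nsmul_eq_mul] at h3
  rw [← mul_assoc, ENNReal.mul_le_mul_iff_left (measure_ball_pos _ _ one_pos).ne'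
    measure_ball_lt_top.ne, ← ENNReal.ofReal_natCast, ← ENNReal.ofReal_mul (by positivity),
    ENNReal.ofReal_le_ofReal_iff (by positivity), show 8 * a = 32 * (a / 4) by ring, mul_pow,
    mul_le_mul_iff_left₀ (by positivity)] at h3
  exact_mod_cast h3

end Vale.Agent.P210
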