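import Vale.Agent.P210.Defs

open Set Filter Topology MeasureTheory
open scoped ENNReal ContDiff

noncomputable section

namespace Vale.Agent.P210

variable {n : ℕ} {φ : E n → ℝ} {x : E n}

theorem conf_inv (φ : E n → ℝ) (x : E n) :
    (conf φ x)⁻¹ = Real.exp (-(2 * φ x)) • (1 : Matrix (Fin n) (Fin n) ℝ) := by
  apply Matrix.inv_eq_left_inv
  unfold conf
  rw [smul_mul_smul_comm, ← Real.exp_add]
  simp

theorem pd_conf (hφ : DifferentiableAt ℝ φ x) (i j l : Fin n) :
    pd i (fun y => conf φ y j l) x =
      if j = l then 2 * Real.exp (2 * φ x) * pd i φ x else 0 := by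
  by_cases h : j = l
  · have e : (fun y => conf φ y j l) = fun y => Real.exp (2 * φ y) := by
      funext y
      simp [conf, h]
    have h1 := (hφ.hasFDerivAt.const_mul 2).exp
    rw [if_pos h, e]
    unfold pd
    rw [h1.fderiv]
    simp
    ring
  · have e : (fun y => conf φ y j l) = fun _ => 0 := by
      funext y
      simp [conf, h]
    rw [if_neg h, e]
    simp [pd]

theorem chris_conf (hφ : DifferentiableAt ℝ φ x) (k i j : Fin n) :
    chris (conf φ) k i j x = (if j = k then pd i φ x else 0) + (if i = k then pd j φ x else 0) -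
      (if i = j then pd k φ x else 0) := by
  unfold chris
  simp only [conf_inv, pd_conf hφ, Matrix.smul_apply, Matrix.one_apply, smul_eq_mul, mul_ite,
    mul_one, mul_zero, ite_mul, zero_mul, Finset.sum_ite_eq, Finset.mem_univ, if_true]
  have h1 : Real.exp (-(2 * φ x)) * Real.exp (2 * φ x) = 1 := by
    rw [← Real.exp_add]
    simp
  split_ifs <;> first
    | linear_combination (pd i φ x + pd j φ x - pd k φ x) * h1
    | linear_combination (pd i φ x + pd j φ x) * h1
    | linear_combination (pd i φ x - pd k φ x) * h1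
    | linear_combination (pd j φ x - pd k φ x) * h1
    | linear_combination (pd i φ x) * h1
    | linear_combination (pd j φ x) * h1
    | linear_combination (-pd k φ x) * h1
    | simp

theorem contDiffAt_pd (hφ : ContDiffAt ℝ ∞ φ x) (i : Fin n) : ContDiffAt ℝ 1 (pd i φ) x :=
  (hφ.fderiv_right (m := 1) (WithTop.coe_le_coe.2 (le_top : (1 + 1 : ℕ∞) ≤ ⊤))).clm_apply contDiffAt_const

theorem pd_chris (hφ : ContDiffAt ℝ ∞ φ x) (a k i j : Fin n) :
    pd a (chris (conf φ) k i j) x = (if j = k then pd a (pd i φ) x else 0) +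
      (if i = k then pd a (pd j φ) x else 0) - (if i = j then pd a (pd k φ) x else 0) := by
  have hev : ∀ᶠ y in 𝓝 x, DifferentiableAt ℝ φ y :=
    ((hφ.of_le (m := 1) (by exact_mod_cast le_top)).eventually (by simp)).mono fun y hy =>
      hy.differentiableAt (by simp)
  have hd : ∀ i, DifferentiableAt ℝ (pd i φ) x := fun i =>
    (contDiffAt_pd hφ i).differentiableAt (by simp)
  have hI : ∀ (P : Prop) [Decidable P] (i : Fin n), HasFDerivAt
      (fun y => if P then pd i φ y else 0) (if P then fderiv ℝ (pd i φ) x else 0) x := by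
    intro P _ i
    by_cases h : P
    · simp only [if_pos h]
      exact (hd i).hasFDerivAt
    · simp only [if_neg h]
      exact hasFDerivAt_const _ _
  have e : chris (conf φ) k i j =ᶠ[𝓝 x] fun y => (if j = k then pd i φ y else 0) +
      (if i = k then pd j φ y else 0) - (if i = j then pd k φ y else 0) :=
    hev.mono fun y hy => chris_conf hy k i j
  have h1 := (((hI (j = k) i).fun_add (hI (i = k) j)).fun_sub (hI (i = j) k)).congr_of_eventuallyEq e
  unfold pd at h1 ⊢
  rw [h1.fderiv]
  split_ifs <;> simp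

theorem scal_conf (hφ : ContDiffAt ℝ ∞ φ x) :
    scal (conf φ) x = Real.exp (-(2 * φ x)) *
      (-(2 * (n - 1)) * ∑ i, pd i (pd i φ) x - (n - 1) * (n - 2) * ∑ i, pd i φ x ^ 2) := by
  have hd : DifferentiableAt ℝ φ x := hφ.differentiableAt (by simp)
  have h1 : scal (conf φ) x = Real.exp (-(2 * φ x)) * ∑ i, ricci (conf φ) i i x := by
    unfold scal
    simp only [conf_inv, Matrix.smul_apply, Matrix.one_apply, smul_eq_mul, mul_ite,
      mul_one, mul_zero, ite_mul, zero_mul, Finset.sum_ite_eq, Finset.mem_univ, if_true,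
      Finset.mul_sum]
  rw [h1]
  congr 1
  have h2 : ∀ i, ricci (conf φ) i i x = (2 - n) * pd i (pd i φ) x - ∑ k, pd k (pd k φ) x +
      ((n - 2) * pd i φ x ^ 2 - (n - 2) * ∑ k, pd k φ x ^ 2) := by
    intro i
    unfold ricci
    simp only [pd_chris hφ, chris_conf hd, if_true]
    simp only [add_mul, mul_add, sub_mul, mul_sub, ite_mul, mul_ite, zero_mul, mul_zero,
      Finset.sum_add_distrib, Finset.sum_sub_distrib, Finset.sum_ite_eq, Finset.sum_ite_eq',
      Finset.mem_univ, if_true, Finset.sum_const, Finset.card_univ, Fintype.card_fin,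
      nsmul_eq_mul]
    simp only [Finset.sum_ite_irrel, Finset.sum_const_zero, Finset.sum_ite_eq,
      Finset.mem_univ, if_true, Finset.sum_add_distrib, Finset.sum_sub_distrib,
      Finset.sum_ite_eq', sq]
    ring
  simp only [h2, Finset.sum_add_distrib, Finset.sum_sub_distrib, ← Finset.mul_sum,
    Finset.sum_const, Finset.card_univ, Fintype.card_fin, nsmul_eq_mul]
  ring

end Vale.Agent.P210
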