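import Vale.Agent.P210.Radii

open Set MeasureTheory Metric
open scoped ENNReal

noncomputable section

namespace Vale.Agent.P210

/-- hypotheses on the height function -/
structure Hyp {n : ℕ} (A : ℝ) (τ : E n → ℤ → ℝ) (a : ℤ → E n → ℝ) : Prop where
  step : ∀ x k, τ x (k - 1) = τ x k + a k x
  nonneg : ∀ k x, 0 ≤ a k x
  le : ∀ k x, a k x ≤ A
  lip : ∀ x x' k, τ x k ≤ τ x' k + A * dist x x' / 2 ^ k
  top : ∀ x t, ∃ k, τ x k ≤ t

/-- the scale at which the height drops below `t` -/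
def rho {n : ℕ} (τ : E n → ℤ → ℝ) (t : ℝ) (x : E n) : ℝ :=
  ⨅ p : {p : E n × ℤ // τ p.1 p.2 ≤ t}, ((2 : ℝ) ^ p.1.2 + dist x p.1.1)

namespace Hyp
variable {n : ℕ} {A : ℝ} {τ : E n → ℤ → ℝ} {a : ℤ → E n → ℝ} (h : Hyp A τ a)
include h

theorem A_nonneg : 0 ≤ A := (h.nonneg 0 0).trans (h.le 0 0)

theorem down (x : E n) (k : ℤ) (i : ℕ) : τ x k ≤ τ x (k - i) ∧ τ x (k - i) ≤ τ x k + i * A := by
  induction i with
  | zero => simp
  | succ i ih =>
    have e : k - ((i + 1 : ℕ) : ℤ) = k - i - 1 := by push_cast; ring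
    rw [e, h.step]
    have := h.nonneg (k - i) x
    have := h.le (k - i) x
    push_cast
    constructor <;> linarith [ih.1, ih.2]

theorem anti (x : E n) {k k' : ℤ} (hk : k ≤ k') : τ x k' ≤ τ x k := by
  obtain ⟨i, hi⟩ := Int.le.dest hk
  have := (h.down x k' i).1
  rwa [show k' - i = k by omega] at this

theorem up (x : E n) {k k' : ℤ} (i : ℕ) (hk : k' ≤ k + i) : τ x k ≤ τ x k' + i * A := by
  have h1 := (h.down x (k + i) i).2
  rw [show k + i - i = k by omega] at h1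
  linarith [h.anti x hk]

theorem nonempty (t : ℝ) : Nonempty {p : E n × ℤ // τ p.1 p.2 ≤ t} := by
  obtain ⟨k, hk⟩ := h.top 0 t
  exact ⟨⟨(0, k), hk⟩⟩

omit h in
theorem bdd (t : ℝ) (x : E n) : BddBelow (range fun p : {p : E n × ℤ // τ p.1 p.2 ≤ t} =>
    ((2 : ℝ) ^ p.1.2 + dist x p.1.1)) :=
  ⟨0, by rintro _ ⟨p, rfl⟩; positivity⟩

omit h in
theorem rho_nonneg (t : ℝ) (x : E n) : 0 ≤ rho τ t x :=
  Real.iInf_nonneg fun _ => by positivity

omit h in
theorem rho_le {t : ℝ} {y : E n} {k : ℤ} (hy : τ y k ≤ t) (x : E n) :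
    rho τ t x ≤ 2 ^ k + dist x y :=
  ciInf_le (bdd t x) (⟨(y, k), hy⟩ : {p : E n × ℤ // τ p.1 p.2 ≤ t})

theorem rho_lip (t : ℝ) (x x' : E n) : rho τ t x ≤ rho τ t x' + dist x x' := by
  have := h.nonempty t
  rw [← sub_le_iff_le_add]
  refine le_ciInf fun p => ?_
  have := rho_le p.2 x
  have := dist_triangle x x' p.1.1
  linarith

theorem tau_le {t : ℝ} {x : E n} {k : ℤ} (hk : rho τ t x < 2 ^ k) : τ x k ≤ t + A := by
  have := h.nonempty t
  obtain ⟨⟨⟨y, k'⟩, hy⟩, h1⟩ := exists_lt_of_ciInf_lt hk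
  simp only at hy h1
  have h2 : (0 : ℝ) < 2 ^ k' := by positivity
  have h3 : k' ≤ k := by
    have : (2 : ℝ) ^ k' < 2 ^ k := by linarith [dist_nonneg (x := x) (y := y)]
    exact ((zpow_lt_zpow_iff_right₀ one_lt_two).1 this).le
  have h4 := h.lip x y k
  have h5 : A * dist x y / 2 ^ k ≤ A := by
    rw [div_le_iff₀ (by positivity)]
    exact mul_le_mul_of_nonneg_left (by linarith) h.A_nonneg
  linarith [h.anti y h3]

omit h in
theorem lt_tau {t : ℝ} {x : E n} {k : ℤ} (hk : 2 ^ k < rho τ t x) : t < τ x k := by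
  by_contra hc
  have := rho_le (not_lt.1 hc) x
  rw [dist_self] at this
  linarith

theorem rho_pos {t : ℝ} {x : E n} {k : ℤ} (hk : t + A < τ x k) : 0 < rho τ t x := by
  by_contra hc
  have : rho τ t x < 2 ^ k := lt_of_le_of_lt (not_lt.1 hc) (by positivity)
  linarith [h.tau_le this]

theorem rho_anti {t t' : ℝ} (ht : t ≤ t') (x : E n) : rho τ t' x ≤ rho τ t x := by
  have := h.nonempty t
  exact le_ciInf fun p => rho_le (p.2.trans ht) x

theorem rho_sep {t L : ℝ} (M : ℕ) (hL : (M + 2) * A ≤ L) (x : E n) :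
    rho τ (t + L) x ≤ rho τ t x / 2 ^ M := by
  have hA := h.A_nonneg
  rcases (rho_nonneg (τ := τ) t x).eq_or_lt with h0 | h0
  · rw [← h0, zero_div, h0]
    exact h.rho_anti (by nlinarith [(Nat.cast_nonneg M : (0 : ℝ) ≤ M)]) x
  · obtain ⟨k, h1, h2⟩ := exists_mem_Ico_zpow h0 one_lt_two
    have h3 := h.tau_le h2
    have h4 := h.up x (k := k - M) (k' := k + 1) (M + 1) (by push_cast; omega)
    have h5 : τ x (k - M) ≤ t + L := by push_cast at h4; linarith
    have h6 := rho_le h5 x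
    rw [dist_self, add_zero, zpow_sub₀ two_ne_zero, zpow_natCast] at h6
    exact h6.trans (div_le_div_of_nonneg_right h1 (by positivity))

end Hyp

end Vale.Agent.P210
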